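import Vale.Agent.P114.Spec

/-! Entropy increments between the scales `s` and `2 s`. -/

open MeasureTheory Set

noncomputable section

namespace Vale.Agent.P114

namespace Ax

theorem lower_le {a b : ℝ} (ha : 0 ≤ a) (hab : a ≤ b) :
    2 * Real.log 2 * a ≤ Real.negMulLog a + Real.negMulLog b - Real.negMulLog (a + b) := by
  rcases ha.eq_or_lt with rfl | ha
  · simp
  have hb : 0 < b := ha.trans_le hab
  have h1 : Real.log 2 + Real.log a ≤ Real.log (a + b) := by
    rw [← Real.log_mul (by norm_num) ha.ne']
    exact Real.log_le_log (by positivity) (by linarith)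
  have hx0 : 0 ≤ a / b := by positivity
  have hx1 : a / b ≤ 1 := (div_le_one hb).2 hab
  have h2 : (1 + 1 : ℝ) ^ (a / b) ≤ 1 + (a / b) * 1 :=
    rpow_one_add_le_one_add_mul_self (by norm_num) hx0 hx1
  have h3 : a / b * Real.log 2 ≤ Real.log (1 + a / b) := by
    rw [← Real.log_rpow (by norm_num)]
    refine Real.log_le_log (by positivity) ?_
    norm_num at h2 ⊢
    exact h2
  have h4 : Real.log (1 + a / b) = Real.log (a + b) - Real.log b := by
    rw [← Real.log_div (by positivity) hb.ne']
    congr 1
    field_simp
    ring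
  have h5 : a * Real.log 2 ≤ b * (Real.log (a + b) - Real.log b) := by
    rw [← h4]
    have := mul_le_mul_of_nonneg_left h3 hb.le
    have e : b * (a / b * Real.log 2) = a * Real.log 2 := by field_simp
    linarith
  have h6 := mul_le_mul_of_nonneg_left h1 ha.le
  simp only [Real.negMulLog]
  nlinarith

theorem lower {a b : ℝ} (ha : 0 ≤ a) (hb : 0 ≤ b) :
    2 * Real.log 2 * min a b ≤ Real.negMulLog a + Real.negMulLog b - Real.negMulLog (a + b) := by
  rcases le_total a b with h | h
  · rw [min_eq_left h]; exact lower_le ha h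
  · rw [min_eq_right h, add_comm a b]; linarith [lower_le hb h]

theorem upper_le {a b lam : ℝ} (ha : 0 ≤ a) (hab : a ≤ b) (hl : 0 < lam) :
    Real.negMulLog a + Real.negMulLog b - Real.negMulLog (a + b) ≤
      a * (-Real.log lam) + lam * (a + b) := by
  rcases ha.eq_or_lt with rfl | ha
  · simp only [Real.negMulLog_zero, zero_add, sub_self, zero_mul]
    positivity
  have hb : 0 < b := ha.trans_le hab
  have h1 : Real.log ((a + b) / b) ≤ (a + b) / b - 1 := Real.log_le_sub_one_of_pos (by positivity)
  rw [Real.log_div (by positivity) hb.ne'] at h1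
  have h1' := mul_le_mul_of_nonneg_left h1 hb.le
  have e1 : b * ((a + b) / b - 1) = a := by field_simp; ring
  have h2 : Real.log (lam * (a + b) / a) ≤ lam * (a + b) / a - 1 :=
    Real.log_le_sub_one_of_pos (by positivity)
  rw [Real.log_div (by positivity) ha.ne', Real.log_mul hl.ne' (by positivity)] at h2
  have h2' := mul_le_mul_of_nonneg_left h2 ha.le
  have e2 : a * (lam * (a + b) / a - 1) = lam * (a + b) - a := by field_simp
  simp only [Real.negMulLog]
  nlinarith

theorem upper {a b lam : ℝ} (ha : 0 ≤ a) (hb : 0 ≤ b) (hl : 0 < lam) :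
    Real.negMulLog a + Real.negMulLog b - Real.negMulLog (a + b) ≤
      min a b * (-Real.log lam) + lam * (a + b) := by
  rcases le_total a b with h | h
  · rw [min_eq_left h]; exact upper_le ha h hl
  · rw [min_eq_right h, add_comm a b]; linarith [upper_le hb h hl]

theorem int_eta (ν : L) (s e : ℝ) : Integrable (fun x => Real.negMulLog (win ν s (x - e))) :=
  integrable_comp_win1 ν s e Real.continuous_negMulLog.measurable (by simp)

theorem int_eta0 (ν : L) (s : ℝ) : Integrable (fun x => Real.negMulLog (win ν s x)) := by
  simpa using int_eta ν s 0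

theorem diff_eq (ν : L) {s : ℝ} (hs : 0 < s) :
    Hs ν s - Hs ν (2 * s) = (∫ x, (Real.negMulLog (win ν s x) + Real.negMulLog (win ν s (x - s)) -
      Real.negMulLog (win ν s x + win ν s (x - s)))) / (2 * s) := by
  have h2 : (fun x => Real.negMulLog (win ν s x + win ν s (x - s))) =
      fun x => Real.negMulLog (win ν (2 * s) x) := by
    funext x; rw [win_two ν hs.le]
  have h3 : Integrable (fun x => Real.negMulLog (win ν s x) + Real.negMulLog (win ν s (x - s))) :=
    (int_eta0 ν s).add (int_eta ν s s)
  rw [integral_sub h3 (by rw [h2]; exact int_eta0 ν _),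
    integral_add (int_eta0 ν s) (int_eta ν s s), h2,
    integral_sub_right_eq_self (fun x => Real.negMulLog (win ν s x)) s]
  unfold Hs
  field_simp
  ring

theorem int_g (ν : L) {s : ℝ} (hs : 0 < s) :
    Integrable (fun x => Real.negMulLog (win ν s x) + Real.negMulLog (win ν s (x - s)) -
      Real.negMulLog (win ν s x + win ν s (x - s))) := by
  have h2 : (fun x => Real.negMulLog (win ν s x + win ν s (x - s))) =
      fun x => Real.negMulLog (win ν (2 * s) x) := by
    funext x; rw [win_two ν hs.le]
  exact ((int_eta0 ν s).add (int_eta ν s s)).sub (by rw [h2]; exact int_eta0 ν _)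

theorem ov_nonneg {ν : L} (h : NN ν) {s : ℝ} (hs : 0 < s) (e : ℝ) : 0 ≤ ov ν s e :=
  div_nonneg (integral_nonneg (fun _ => le_min (win_nonneg h _ _) (win_nonneg h _ _))) hs.le

theorem up_lam {ν : L} (h : Prob ν) {s : ℝ} (hs : 0 < s) {lam : ℝ} (hl : 0 < lam) :
    Hs ν s - Hs ν (2 * s) ≤ ov ν s s * (-Real.log lam) / 2 + lam := by
  rw [diff_eq ν hs]
  have hi1 : Integrable (fun x => min (win ν s x) (win ν s (x - s)) * (-Real.log lam)) :=
    (integrable_min_win ν s s).mul_const _
  have hi2 : Integrable (fun x => lam * (win ν s x + win ν s (x - s))) :=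
    ((integrable_win ν s).add (integrable_win_shift ν s s)).const_mul _
  have h1 := integral_mono (int_g ν hs) (hi1.add hi2)
    (fun x => upper (win_nonneg h.1 s x) (win_nonneg h.1 s (x - s)) hl)
  simp only [Pi.add_apply] at h1
  rw [integral_add hi1 hi2, integral_mul_const, integral_const_mul,
    integral_add (integrable_win ν s) (integrable_win_shift ν s s), integral_win ν hs.le,
    integral_win_shift ν hs.le, h.2] at h1
  rw [div_le_iff₀ (by positivity)]
  refine h1.trans (le_of_eq ?_)
  unfold ov
  field_simp
  ring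

end Ax

open Ax in
theorem stmtA : StmtA := by
  intro ν s h hs
  refine ⟨?_, fun k hk => ?_⟩
  · rw [diff_eq ν hs]
    have h1 := integral_mono ((integrable_min_win ν s s).const_mul (2 * Real.log 2)) (int_g ν hs)
      (fun x => lower (win_nonneg h.1 s x) (win_nonneg h.1 s (x - s)))
    rw [integral_const_mul] at h1
    rw [le_div_iff₀ (by positivity)]
    refine le_trans (le_of_eq ?_) h1
    unfold ov
    field_simp
  · have hu := ov_nonneg h.1 hs s
    rcases hu.eq_or_lt with hu | hu
    · rw [← hu]
      simp only [mul_zero, Real.sqrt_zero, add_zero]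
      refine le_of_forall_pos_le_add (fun lam hl => ?_)
      have := up_lam h hs hl
      rw [← hu] at this
      simpa using this
    · have h1 := up_lam h hs hu
      set u := ov ν s s with hudef
      have hsq : 0 < √u := Real.sqrt_pos.2 hu
      have h2 : Real.log (Real.exp (-k / 2) / √u) ≤ Real.exp (-k / 2) / √u - 1 :=
        Real.log_le_sub_one_of_pos (by positivity)
      rw [Real.log_div (by positivity) hsq.ne', Real.log_exp, Real.log_sqrt hu.le] at h2
      have h3 := mul_le_mul_of_nonneg_left h2 hu.le
      have e : u * (Real.exp (-k / 2) / √u - 1) = Real.exp (-k / 2) * √u - u := by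
        have : u = √u * √u := (Real.mul_self_sqrt hu.le).symm
        rw [mul_sub, mul_one]
        congr 1
        rw [mul_div_assoc', div_eq_iff hsq.ne']
        rw [mul_assoc, ← this]; ring
      rw [e] at h3
      nlinarith [mul_nonneg hk hu.le]

end Vale.Agent.P114
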