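import Vale.Agent.P114.Spec

/-! Module B: elementary entropy bounds. -/

namespace Vale.Agent.P114

open Finset Real MeasureTheory

namespace Bx

open Classical

theorem eta_sum (S : Finset ℝ) (a : ℝ → ℝ) (ha : ∀ y, 0 ≤ a y) :
    negMulLog (∑ y ∈ S, a y) ≤ ∑ y ∈ S, negMulLog (a y) := by
  rw [negMulLog, neg_mul, sum_mul, ← sum_neg_distrib]
  refine sum_le_sum fun y hy => ?_
  rw [negMulLog, neg_mul, neg_le_neg_iff]
  rcases (ha y).eq_or_lt with h | h
  · simp [← h]
  · exact mul_le_mul_of_nonneg_left (log_le_log h (single_le_sum (fun y _ => ha y) hy)) h.le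

noncomputable def en (ν : L) : L := ∑ y ∈ ν.coeff.support, negMulLog (ν.coeff y) • pt y

theorem win_en (ν : L) (s x : ℝ) : win (en ν) s x =
    ∑ y ∈ ν.coeff.support, negMulLog (ν.coeff y * if x - s < y ∧ y ≤ x then 1 else 0) := by
  rw [en, win_sum]
  refine sum_congr rfl fun y _ => ?_
  rw [win_smul, win, ev_pt]
  split_ifs <;> simp

theorem int_en (ν : L) {s : ℝ} (hs : 0 < s) : (∫ x, win (en ν) s x) / s = ent ν := by
  rw [integral_win _ hs.le, mul_div_cancel_left₀ _ hs.ne', en, mass_sum, ent]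
  simp [mass_smul]

theorem gap (S : Finset ℝ) : ∃ δ : ℝ, 0 < δ ∧ ∀ y ∈ S, ∀ z ∈ S, |y - z| < δ → y = z := by
  rcases S.offDiag.eq_empty_or_nonempty with h | h
  · refine ⟨1, one_pos, fun y hy z hz _ => by_contra fun c => ?_⟩
    exact notMem_empty (y, z) (h ▸ mem_offDiag.2 ⟨hy, hz, c⟩)
  · obtain ⟨q, hq, hm⟩ := exists_min_image _ (fun q : ℝ × ℝ => |q.1 - q.2|) h
    exact ⟨_, abs_pos.2 (sub_ne_zero.2 (mem_offDiag.1 hq).2.2), fun y hy z hz h' =>
      by_contra fun c => (hm (y, z) (mem_offDiag.2 ⟨hy, hz, c⟩)).not_gt h'⟩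

theorem win_zero {ν : L} {s x : ℝ} (h : ∀ y ∈ ν.coeff.support, ¬ (x - s < y ∧ y ≤ x)) :
    win ν s x = 0 := sum_eq_zero fun y hy => by simp only [if_neg (h y hy), mul_zero]

end Bx

open Bx Classical in
theorem stmtB : StmtB := by
  intro ν hν
  have h0 : ∀ s x, 0 ≤ negMulLog (win ν s x) := fun s x =>
    negMulLog_nonneg (win_nonneg hν.1 s x) ((win_le_mass hν.1 s x).trans_eq hν.2)
  refine ⟨fun s hs => ⟨div_nonneg (integral_nonneg (h0 s)) hs.le, ?_⟩, ?_, ?_⟩
  · rw [← int_en ν hs]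
    refine div_le_div_of_nonneg_right (integral_mono_of_nonneg (ae_of_all _ (h0 s))
      (integrable_win _ _) (ae_of_all _ fun x => ?_)) hs.le
    rw [win_en]
    exact eta_sum _ _ fun y => mul_nonneg (hν.1 y) (by beta_reduce; split_ifs <;> norm_num)
  · have hm : ∑ y ∈ ν.coeff.support, ν.coeff y = 1 := by simpa [mass, ev] using hν.2
    have hN : (0 : ℝ) < cardS ν := by
      rw [cardS, Nat.cast_pos, card_pos, nonempty_iff_ne_empty]
      intro h
      simp [h] at hm
    have : ∀ y ∈ ν.coeff.support, negMulLog (ν.coeff y) ≤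
        ν.coeff y * log (cardS ν) + 1 / cardS ν - ν.coeff y := fun y hy => by
      have p0 : 0 < ν.coeff y := (hν.1 y).lt_of_ne' (Finsupp.mem_support_iff.1 hy)
      have h1 := mul_le_mul_of_nonneg_left
        (log_le_sub_one_of_pos (x := (ν.coeff y * cardS ν)⁻¹) (by positivity)) p0.le
      rw [log_inv, log_mul p0.ne' hN.ne', mul_sub, mul_inv, mul_inv_cancel_left₀ p0.ne'] at h1
      rw [negMulLog, one_div]
      linarith
    refine (sum_le_sum this).trans_eq ?_
    rw [sum_sub_distrib, sum_add_distrib, ← sum_mul, hm, sum_const, nsmul_eq_mul]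
    change _ + (cardS ν : ℝ) * _ - _ = _
    field_simp
    ring
  · obtain ⟨δ, hδ, hg⟩ := gap ν.coeff.support
    refine ⟨δ / 2, by positivity, fun s hs hs' => ⟨?_, ?_⟩⟩
    · rw [← int_en ν hs, Hs]
      congr 2
      funext x
      rw [win_en]
      by_cases c : ∃ y ∈ ν.coeff.support, x - s < y ∧ y ≤ x
      · obtain ⟨y, hy, c⟩ := c
        have u : ∀ z ∈ ν.coeff.support, z ≠ y → ¬ (x - s < z ∧ z ≤ x) := fun z hz h h' =>
          h (hg z hz y hy (abs_lt.2 ⟨by linarith [c.2, h'.1], by linarith [c.1, h'.2]⟩))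
        rw [win, ev, sum_eq_single_of_mem y hy fun z hz h => by simp only [if_neg (u z hz h), mul_zero],
          sum_eq_single_of_mem y hy fun z hz h => by
            simp only [if_neg (u z hz h), mul_zero, negMulLog_zero]]
      · push Not at c
        rw [win_zero fun y hy h => (c y hy h.1).not_ge h.2, negMulLog_zero]
        exact (sum_eq_zero fun y hy => by
          rw [if_neg fun h => (c y hy h.1).not_ge h.2, mul_zero, negMulLog_zero]).symm
    · have : ∀ x, min (win ν s x) (win ν s (x - s)) = 0 := fun x => by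
        by_cases c : ∃ y ∈ ν.coeff.support, x - s < y ∧ y ≤ x
        · obtain ⟨y, hy, c⟩ := c
          rw [win_zero (x := x - s) fun z hz h => ?_, min_eq_right (win_nonneg hν.1 _ _)]
          have := hg z hz y hy (abs_lt.2 ⟨by linarith [c.2, h.1], by linarith [c.1, h.2]⟩)
          linarith [c.1, h.2]
        · rw [win_zero (x := x) fun y hy h => c ⟨y, hy, h⟩, min_eq_left (win_nonneg hν.1 _ _)]
      simp [ov, this]

end Vale.Agent.P114
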