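import Vale.Agent.P114.Spec

/-! Module Bin: smoothness of binomial laws. -/

namespace Vale.Agent.P114

open Finset

namespace Binx

theorem poly {R : Type} [CommRing R] (z : R) (m : ℕ) : ∀ a : R,
    ∑ k ∈ range (m + 2), ((m + 1).choose k : R) * ((a - 2 * k) * z ^ k) =
      (1 + z) ^ m * (a * (1 + z) - 2 * (m + 1) * z) := by
  induction m with
  | zero => intro a; simp [sum_range_succ]; ring
  | succ m ih =>
    intro a
    rw [sum_choose_succ_mul (fun k _ => (a - 2 * k) * z ^ k), ih a]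
    have : ∑ k ∈ range (m + 1 + 1), ((m + 1).choose k : R) * ((a - 2 * (k + 1 : ℕ)) * z ^ (k + 1)) =
        z * ∑ k ∈ range (m + 2), ((m + 1).choose k : R) * ((a - 2 - 2 * k) * z ^ k) := by
      rw [mul_sum]; exact sum_congr rfl fun k _ => by push_cast; ring
    rw [this, ih]
    push_cast; ring

theorem second (n : ℕ) : ∀ a : ℝ, ∑ k ∈ range (n + 1), (n.choose k : ℝ) * (a - 2 * k) ^ 2 =
    2 ^ n * ((a - n) ^ 2 + n) := by
  induction n with
  | zero => intro a; simp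
  | succ n ih =>
    intro a
    rw [sum_choose_succ_mul (fun k _ => (a - 2 * k) ^ 2), ih a]
    have : ∑ k ∈ range (n + 1), (n.choose k : ℝ) * (a - 2 * (k + 1 : ℕ)) ^ 2 =
        ∑ k ∈ range (n + 1), (n.choose k : ℝ) * (a - 2 - 2 * k) ^ 2 :=
      sum_congr rfl fun k _ => by push_cast; ring
    rw [this, ih]
    push_cast; ring

theorem first (n : ℕ) {t : ℝ} (ht : 0 < t) (h : (n : ℝ) = t ^ 2) :
    ∑ k ∈ range (n + 1), |(n.choose k : ℝ) * (n - 2 * k)| ≤ 2 ^ n * t := by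
  have e : ∑ k ∈ range (n + 1), (n.choose k : ℝ) = 2 ^ n := by exact_mod_cast Nat.sum_range_choose n
  have : ∀ k ∈ range (n + 1), |(n.choose k : ℝ) * (n - 2 * k)| ≤
      (n.choose k : ℝ) * (n - 2 * k) ^ 2 / (2 * t) + (n.choose k : ℝ) * (t / 2) := fun k _ => by
    rw [abs_mul, Nat.abs_cast, mul_div_assoc, ← mul_add]
    refine mul_le_mul_of_nonneg_left ?_ (Nat.cast_nonneg _)
    rw [← sq_abs, div_add' _ _ _ (by positivity), le_div_iff₀ (by positivity)]
    nlinarith [sq_nonneg (|(n : ℝ) - 2 * k| - t)]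
  refine (sum_le_sum this).trans_eq ?_
  rw [sum_add_distrib, ← sum_div, ← sum_mul, second, e, sub_self, h]
  field_simp
  ring

theorem pt_pow (d : ℝ) (k : ℕ) : pt d ^ k = pt (k * d) := by
  induction k with
  | zero => simp [pt_zero]
  | succ k ih => rw [pow_succ, ih, pt_mul]; congr 1; push_cast; ring

end Binx

open Binx in
theorem stmtBin (hN : StmtN) : StmtBin := by
  intro ε hε
  obtain ⟨t, ht⟩ := exists_nat_gt (2 / ε)
  have t0 : (0 : ℝ) < t := lt_trans (by positivity) ht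
  obtain ⟨m, hm⟩ : ∃ m, m + 1 = t ^ 2 :=
    ⟨t ^ 2 - 1, Nat.sub_add_cancel (Nat.one_le_pow _ _ (by exact_mod_cast t0))⟩
  have hm' : ((m + 1 : ℕ) : ℝ) = (t : ℝ) ^ 2 := by exact_mod_cast hm
  refine ⟨m, fun d s hs => ?_⟩
  obtain ⟨h1, h2, -, h4, -⟩ := hN s hs
  have h0 : nrm 0 s = 0 := by simpa using h2 0 0
  have hsum : ∀ (S : Finset ℕ) (c : ℕ → ℝ), nrm (∑ k ∈ S, c k • pt d ^ k) s ≤ ∑ k ∈ S, |c k| :=
    fun S c => by
      induction S using Finset.induction_on with
      | empty => simp [h0]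
      | insert a S ha ih =>
        rw [sum_insert ha, sum_insert ha]
        exact (h1 _ _).trans (add_le_add (by rw [h2, pt_pow, h4, mul_one]) ih)
  have e : ((((m + 1 : ℕ) : ℝ) * 2 ^ m) • ((1 - pt d) * bit d ^ m) : L) =
      ∑ k ∈ range (m + 2), (((m + 1).choose k : ℝ) * ((m + 1 : ℕ) - 2 * k)) • pt d ^ k := by
    have := poly (pt d) m ((m + 1 : ℕ) : L)
    rw [bit, smul_pow, mul_smul_comm, smul_smul, mul_assoc, ← mul_pow,
      show (2 : ℝ) * (1 / 2) = 1 by norm_num, one_pow, mul_one, Nat.cast_smul_eq_nsmul,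
      nsmul_eq_mul]
    simp only [Algebra.smul_def, map_mul, map_sub, map_natCast, map_ofNat, mul_assoc]
    rw [this]
    push_cast; ring
  have h5 := (hsum _ _).trans (first (m + 1) t0 hm')
  rw [← e, h2, abs_of_pos (by positivity), hm', pow_succ 2 m] at h5
  have h6 : 2 < t * ε := (div_lt_iff₀ hε).1 ht
  refine le_of_mul_le_mul_left (h5.trans ?_) (by positivity : (0 : ℝ) < t ^ 2 * 2 ^ m)
  calc _ ≤ 2 ^ m * (t * ε) * t := by gcongr
    _ = _ := by ring

end Vale.Agent.P114
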