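import Vale.Agent.P114.Spec

/-! Module C1: counting atoms of powers. -/

namespace Vale.Agent.P114

open Finset

namespace C1x

open Classical

theorem card_mul (a b : L) : cardS (a * b) ≤ cardS a * cardS b := by
  rw [cardS, cardS, cardS, ← card_product]
  refine le_trans (card_le_card (t := (a.coeff.support ×ˢ b.coeff.support).image
    fun q => q.1 + q.2) fun x hx => ?_) card_image_le
  obtain ⟨y, hy, z, hz, rfl⟩ := support_mul_subset a b hx
  exact mem_image.2 ⟨(y, z), mem_product.2 ⟨hy, hz⟩, rfl⟩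

theorem card_one : cardS 1 ≤ 1 := card_le_one.2 fun x hx y hy => by
  rw [abs_nonpos_iff.1 (bd_one x hx), abs_nonpos_iff.1 (bd_one y hy)]

theorem mem_pow (ν : L) (r : ℕ) : ∀ x ∈ (ν ^ r).coeff.support, ∃ n : ν.coeff.support → ℕ,
    (∀ y, n y < r + 1) ∧ ∑ y, (n y : ℝ) * y.1 = x := by
  induction r with
  | zero => exact fun x hx => ⟨fun _ => 0, by simp, by
      rw [pow_zero] at hx; simp [abs_nonpos_iff.1 (bd_one x hx)]⟩
  | succ r ih =>
    intro x hx
    rw [pow_succ] at hx
    obtain ⟨y, hy, z, hz, rfl⟩ := support_mul_subset _ _ hx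
    obtain ⟨n, hn, rfl⟩ := ih y hy
    refine ⟨fun u => n u + if u = ⟨z, hz⟩ then 1 else 0, fun u => ?_, ?_⟩
    · have := hn u
      beta_reduce
      split_ifs <;> omega
    · simp [add_mul, sum_add_distrib]

theorem card_pow (ν : L) (r : ℕ) : cardS (ν ^ r) ≤ (r + 1) ^ cardS ν := by
  refine le_trans (card_le_card (t := (Fintype.piFinset fun _ : ν.coeff.support =>
    range (r + 1)).image fun n => ∑ y, (n y : ℝ) * y.1) fun x hx => ?_) (card_image_le.trans ?_)
  · obtain ⟨n, hn, e⟩ := mem_pow ν r x hx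
    exact mem_image.2 ⟨n, Fintype.mem_piFinset.2 fun y => mem_range.2 (hn y), e⟩
  · simp [cardS]

end C1x

open C1x in
theorem stmtC1 : StmtC1 := by
  intro l d r h
  induction l with
  | nil => simpa using card_one
  | cons a l ih =>
    rw [List.prod_cons, mul_pow, List.length_cons, add_mul, one_mul, pow_add, mul_comm (_ ^ _ : ℕ)]
    exact (card_mul _ _).trans (Nat.mul_le_mul ((card_pow a r).trans
      (Nat.pow_le_pow_right r.succ_pos (h a (by simp)))) (ih fun ν hν => h ν (by simp [hν])))

end Vale.Agent.P114
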