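import Vale.Agent.P114.Spec

/-! Square roots of contents are summable with a bound linear in the number of factors. -/

open MeasureTheory Set

noncomputable section

namespace Vale.Agent.P114

namespace C2x

open Classical

theorem sqrt_le_sum {c : ℝ} (h1 : c ≤ 1) (J : ℕ) :
    √c ≤ (1 / 2 : ℝ) ^ J + ∑ j ∈ Finset.range J,
      (1 / 2 : ℝ) ^ j * (if (1 / 4 : ℝ) ^ (j + 1) < c then 1 else 0) := by
  induction J with
  | zero => simpa using h1
  | succ J ih =>
    by_cases h : (1 / 4 : ℝ) ^ (J + 1) < c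
    · rw [Finset.sum_range_succ, if_pos h]
      have : (0 : ℝ) ≤ (1 / 2) ^ (J + 1) := by positivity
      linarith
    · have h2 : √c ≤ (1 / 2 : ℝ) ^ (J + 1) := by
        rw [Real.sqrt_le_left (by positivity), ← pow_mul, mul_comm, pow_mul]
        norm_num at h ⊢
        exact h
      have h3 : 0 ≤ ∑ j ∈ Finset.range (J + 1),
          (1 / 2 : ℝ) ^ j * (if (1 / 4 : ℝ) ^ (j + 1) < c then 1 else 0) :=
        Finset.sum_nonneg (fun j _ => mul_nonneg (by positivity) (by split_ifs <;> norm_num))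
      linarith

theorem sum_geo (J : ℕ) :
    ∑ j ∈ Finset.range J, (1 / 2 : ℝ) ^ j * (j + 1) = 4 - (2 * J + 4) * (1 / 2) ^ J := by
  induction J with
  | zero => norm_num
  | succ J ih => rw [Finset.sum_range_succ, ih]; push_cast; ring

theorem count_le (hA : StmtA) (hB : StmtB) (hO : StmtO) (hC1 : StmtC1) {l0 : ℕ} {r0 : ℝ}
    (hK : ∀ (X : L) (s : ℝ) (r : ℕ), Prob X → 0 < s →
      r0 ≤ r * cont X s → 1 / 2 ≤ ov (X ^ r) (2 ^ l0 * s) (2 ^ l0 * s))
    (l : List L) (d : ℕ) (hl : ∀ ν ∈ l, Prob ν ∧ cardS ν ≤ d) {s : ℝ} (hs : 0 < s) (K r : ℕ) :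
    Real.log 2 / 2 * ∑ i ∈ Finset.range K,
      (if r0 ≤ r * cont l.prod (s / 2 ^ (i + 1)) then (1 : ℝ) else 0) ≤
      (l.length * d) * Real.log (r + 1) := by
  have hX : Prob l.prod := prob_prod (fun ν hν => (hl ν hν).1)
  have hY : Prob (l.prod ^ r) := hX.pow r
  set Y := l.prod ^ r with hYdef
  set H : ℕ → ℝ := fun i => Hs Y (2 ^ l0 * (s / 2 ^ i)) with hH
  have hlog : 0 < Real.log 2 := Real.log_pos (by norm_num)
  have h1 : ∀ i, Real.log 2 / 2 * (if r0 ≤ r * cont l.prod (s / 2 ^ (i + 1)) then (1 : ℝ) else 0) ≤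
      H (i + 1) - H i := by
    intro i
    have hσ : 0 < 2 ^ l0 * (s / 2 ^ (i + 1)) := by positivity
    have h2 := (hA Y _ hY hσ).1
    have e : 2 * (2 ^ l0 * (s / 2 ^ (i + 1))) = 2 ^ l0 * (s / 2 ^ i) := by
      field_simp; ring
    rw [e] at h2
    refine le_trans ?_ h2
    split_ifs with h
    · have := hK l.prod (s / 2 ^ (i + 1)) r hX (by positivity) h
      nlinarith
    · have := (hO.1 Y _ (2 ^ l0 * (s / 2 ^ (i + 1))) hY.1 hσ).1
      rw [mul_zero]; positivity
  rw [Finset.mul_sum]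
  refine (Finset.sum_le_sum (fun i _ => h1 i)).trans ?_
  rw [Finset.sum_range_sub]
  have h3 : H K ≤ ent Y := ((hB Y hY).1 _ (by positivity)).2
  have h4 : 0 ≤ H 0 := ((hB Y hY).1 _ (by positivity)).1
  have h5 := (hB Y hY).2.1
  have h6 := hC1 l d r (fun ν hν => (hl ν hν).2)
  have h7 : Real.log (cardS Y) ≤ (l.length * d) * Real.log (r + 1) := by
    have h8 : 0 ≤ Real.log ((r : ℝ) + 1) := Real.log_nonneg (by linarith [Nat.cast_nonneg (α := ℝ) r])
    rcases Nat.eq_zero_or_pos (cardS Y) with h | h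
    · rw [h]; simp only [Nat.cast_zero, Real.log_zero]; positivity
    · have h9 : (cardS Y : ℝ) ≤ ((r : ℝ) + 1) ^ (l.length * d) := by exact_mod_cast h6
      have := Real.log_le_log (by exact_mod_cast h) h9
      rw [Real.log_pow] at this
      push_cast at this
      exact this
  linarith

end C2x

open C2x in
theorem stmtC2 (hA : StmtA) (hB : StmtB) (hO : StmtO) (hD : StmtD) (hK : StmtK) (hC1 : StmtC1) :
    StmtC2 := by
  classical
  obtain ⟨l0, r0, hr0, hK⟩ := hK
  have hlog : 0 < Real.log 2 := Real.log_pos (by norm_num)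
  have hA1 : 0 < Real.log (r0 + 2) := Real.log_pos (by linarith)
  have hA2 : 0 < Real.log 4 := Real.log_pos (by norm_num)
  set A : ℝ := Real.log (r0 + 2) + Real.log 4 with hAdef
  have hApos : 0 < A := by positivity
  refine ⟨2 / Real.log 2 * (4 * A), by positivity, fun l d hl s K hs => ?_⟩
  have hX : Prob l.prod := prob_prod (fun ν hν => (hl ν hν).1)
  set n : ℝ := l.length * d with hn
  have hn0 : 0 ≤ n := by positivity
  set c : ℕ → ℝ := fun i => cont l.prod (s / 2 ^ (i + 1)) with hc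
  have hc1 : ∀ i, 0 ≤ c i ∧ c i ≤ 1 := fun i => (hD l.prod _ hX (by positivity)).2
  set r : ℕ → ℕ := fun j => ⌈r0 * 4 ^ (j + 1)⌉₊ with hr
  have hcount : ∀ j : ℕ, ∑ i ∈ Finset.range K, (if (1 / 4 : ℝ) ^ (j + 1) < c i then (1 : ℝ) else 0) ≤
      2 / Real.log 2 * (n * (A * (j + 1))) := by
    intro j
    have h1 := count_le hA hB hO hC1 hK l d hl hs K (r j)
    have h2 : ∑ i ∈ Finset.range K, (if (1 / 4 : ℝ) ^ (j + 1) < c i then (1 : ℝ) else 0) ≤
        ∑ i ∈ Finset.range K, (if r0 ≤ r j * cont l.prod (s / 2 ^ (i + 1)) then (1 : ℝ) else 0) := by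
      refine Finset.sum_le_sum (fun i _ => ?_)
      by_cases h : (1 / 4 : ℝ) ^ (j + 1) < c i
      · rw [if_pos h, if_pos]
        have h3 : r0 * 4 ^ (j + 1) ≤ r j := Nat.le_ceil _
        have h4 : r0 = r0 * 4 ^ (j + 1) * (1 / 4 : ℝ) ^ (j + 1) := by
          rw [mul_assoc, ← mul_pow]; norm_num
        calc r0 = r0 * 4 ^ (j + 1) * (1 / 4 : ℝ) ^ (j + 1) := h4
          _ ≤ r j * c i := mul_le_mul h3 h.le (by positivity) (by positivity)
      · rw [if_neg h]; split_ifs <;> norm_num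
    have h3 : Real.log ((r j : ℝ) + 1) ≤ A * (j + 1) := by
      have h4 : (r j : ℝ) < r0 * 4 ^ (j + 1) + 1 := Nat.ceil_lt_add_one (by positivity)
      have h5 : (1 : ℝ) ≤ 4 ^ (j + 1) := one_le_pow₀ (by norm_num)
      have h6 : (r j : ℝ) + 1 ≤ (r0 + 2) * 4 ^ (j + 1) := by nlinarith
      have h7 := Real.log_le_log (by positivity) h6
      rw [Real.log_mul (by positivity) (by positivity), Real.log_pow] at h7
      push_cast at h7
      have h8 : (0 : ℝ) ≤ j := Nat.cast_nonneg j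
      rw [hAdef]
      nlinarith
    have h4 := mul_le_mul_of_nonneg_left h3 hn0
    have h5 := mul_le_mul_of_nonneg_left (h1.trans h4) (show 0 ≤ 2 / Real.log 2 by positivity)
    rw [← mul_assoc] at h5
    have e : 2 / Real.log 2 * (Real.log 2 / 2) = 1 := by field_simp
    rw [e, one_mul] at h5
    exact h2.trans h5
  have hJ : ∀ J : ℕ, ∑ i ∈ Finset.range K, √(c i) ≤
      K * (1 / 2 : ℝ) ^ J + 2 / Real.log 2 * (4 * A) * n := by
    intro J
    refine (Finset.sum_le_sum (fun i _ => sqrt_le_sum (hc1 i).2 J)).trans ?_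
    rw [Finset.sum_add_distrib, Finset.sum_const, Finset.card_range, nsmul_eq_mul, Finset.sum_comm]
    refine add_le_add le_rfl ?_
    have h1 : ∀ j ∈ Finset.range J, ∑ i ∈ Finset.range K,
        (1 / 2 : ℝ) ^ j * (if (1 / 4 : ℝ) ^ (j + 1) < c i then 1 else 0) ≤
        (2 / Real.log 2 * (n * A)) * ((1 / 2 : ℝ) ^ j * (j + 1)) := by
      intro j _
      rw [← Finset.mul_sum]
      refine (mul_le_mul_of_nonneg_left (hcount j) (by positivity)).trans (le_of_eq ?_)
      ring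
    refine (Finset.sum_le_sum h1).trans ?_
    rw [← Finset.mul_sum, sum_geo]
    have h2 : (0 : ℝ) ≤ (2 * J + 4) * (1 / 2) ^ J := by positivity
    have h3 : 0 ≤ 2 / Real.log 2 * (n * A) := by positivity
    nlinarith
  refine le_of_forall_pos_le_add (fun η hη => ?_)
  obtain ⟨J, hJ'⟩ := exists_pow_lt_of_lt_one (show 0 < η / (K + 1) by positivity)
    (show (1 / 2 : ℝ) < 1 by norm_num)
  have h1 := hJ J
  have h2 : (K : ℝ) * (1 / 2) ^ J ≤ η := by
    have h3 := (lt_div_iff₀ (by positivity : (0 : ℝ) < K + 1)).1 hJ'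
    have h4 : (0 : ℝ) ≤ (1 / 2) ^ J := by positivity
    nlinarith
  linarith

end Vale.Agent.P114
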