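import Vale.Agent.P114.Spec

open MeasureTheory Set

noncomputable section

namespace Vale.Agent.P114

open Classical

namespace Cmpx

theorem integrable_ev (ν : L) {g : ℝ → ℝ → ℝ} (h : ∀ y, Integrable (g y)) :
    Integrable (fun x => ev ν (fun y => g y x)) :=
  integrable_finsetSum _ fun y _ => (h y).const_mul _

theorem integral_ev (ν : L) {g : ℝ → ℝ → ℝ} (h : ∀ y, Integrable (g y)) :
    ∫ x, ev ν (fun y => g y x) = ev ν (fun y => ∫ x, g y x) := by
  unfold ev
  rw [integral_finsetSum _ fun y _ => (h y).const_mul _]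
  exact Finset.sum_congr rfl fun y _ => integral_const_mul _ _

theorem near {ν' : L} {β σ u : ℝ} (hb : Bd ν' β) (h : win ν' σ u ≠ 0) : -β ≤ u ∧ u < β + σ := by
  obtain ⟨z, hz, h1⟩ := Finset.exists_ne_zero_of_sum_ne_zero h
  have h2 : u - σ < z ∧ z ≤ u := by
    by_contra hc
    exact h1 (by simp only [if_neg hc, mul_zero])
  have := abs_le.1 (hb z hz)
  exact ⟨by linarith [h2.2, this.1], by linarith [h2.1, this.2]⟩

theorem bm_le {ν ν' : L} {β σ r x y : ℝ} (h : Prob ν) (h' : Prob ν') (hb : Bd ν' β)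
    (hx : win ν' σ (x - y) ≠ 0) :
    bm ν y r ≤ win (ν * ν') (2 * r + 4 * β + σ) (x - -(r + 2 * β)) := by
  obtain ⟨h1, h2⟩ := near hb hx
  rw [win_mul]
  refine ev_mono h.1 fun u => ?_
  split_ifs with hu
  · rw [← h'.ev_const 1]
    refine le_of_eq (ev_congr fun z hz => (if_pos ?_).symm)
    have := abs_le.1 (hb z hz)
    have := abs_le.1 hu
    constructor <;> linarith
  · exact win_nonneg h'.1 _ _

theorem pw {ν ν' : L} {β σ r κ : ℝ} (h : Prob ν) (h' : Prob ν') (hb : Bd ν' β) (hr : 0 ≤ r)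
    (hκ : 0 < κ) (x : ℝ) : Real.negMulLog (win (ν * ν') σ x) ≤
      ev ν (fun y => -Real.log (bm ν y r) * win ν' σ (x - y)) +
        ((Real.log κ - 1) * win (ν * ν') σ x +
          κ⁻¹ * win (ν * ν') (2 * r + 4 * β + σ) (x - -(r + 2 * β))) := by
  have hW := win_nonneg (h.mul h').1 (2 * r + 4 * β + σ) (x - -(r + 2 * β))
  have hB := fun y => bm_le (σ := σ) (r := r) (x := x) (y := y) h h' hb
  generalize win (ν * ν') (2 * r + 4 * β + σ) (x - -(r + 2 * β)) = W at hW hB
  have hF := win_mul ν ν' σ x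
  have hF0 := win_nonneg (h.mul h').1 σ x
  generalize win (ν * ν') σ x = F at hF hF0
  rcases hF0.eq_or_lt with rfl | hF0
  · have : 0 ≤ ev ν (fun y => -Real.log (bm ν y r) * win ν' σ (x - y)) :=
      ev_nonneg h.1 fun y => mul_nonneg (neg_nonneg.2 (Real.log_nonpos (bm_nonneg h.1 _ _)
        ((bm_le_mass h.1 _ _).trans h.2.le))) (win_nonneg h'.1 _ _)
    simp only [Real.negMulLog_zero, mul_zero, zero_add]
    positivity
  · have e1 : Real.negMulLog F = ev ν (fun y => -Real.log F * win ν' σ (x - y)) := by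
      rw [ev_fun_mul, ← hF, Real.negMulLog]; ring
    have e2 : (Real.log κ - 1) * F + κ⁻¹ * W =
        ev ν (fun y => (Real.log κ - 1 + W / (κ * F)) * win ν' σ (x - y)) := by
      rw [ev_fun_mul, ← hF]; field_simp
    rw [e1, e2, ← ev_fun_add]
    refine ev_mono_on h.1 fun y hy => ?_
    rw [← add_mul]
    by_cases h0 : win ν' σ (x - y) = 0
    · simp [h0]
    · refine mul_le_mul_of_nonneg_right ?_ (win_nonneg h'.1 _ _)
      have b0 := bm_pos h.1 hy hr
      have b1 := Real.log_le_log b0 (hB y h0)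
      have b2 := Real.log_le_sub_one_of_pos (div_pos (b0.trans_le (hB y h0)) (mul_pos hκ hF0))
      rw [Real.log_div (b0.trans_le (hB y h0)).ne' (mul_pos hκ hF0).ne',
        Real.log_mul hκ.ne' hF0.ne'] at b2
      linarith

end Cmpx

theorem stmtCmp : StmtCmp := by
  intro ν ν' β σ r h h' hb hβ hσ hr
  have hκ : 0 < (2 * r + 4 * β + σ) / σ := by positivity
  have i1 : ∀ y, Integrable fun x => -Real.log (bm ν y r) * win ν' σ (x - y) :=
    fun y => (integrable_win_shift ν' σ y).const_mul _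
  have i2 := (integrable_win (ν * ν') σ).const_mul (Real.log ((2 * r + 4 * β + σ) / σ) - 1)
  have i3 := (integrable_win_shift (ν * ν') (2 * r + 4 * β + σ) (-(r + 2 * β))).const_mul
    ((2 * r + 4 * β + σ) / σ)⁻¹
  have i0 := integrable_comp_win1 (ν * ν') σ 0 Real.continuous_negMulLog.measurable
    Real.negMulLog_zero
  simp only [sub_zero] at i0
  have i4 : Integrable fun x => (Real.log ((2 * r + 4 * β + σ) / σ) - 1) * win (ν * ν') σ x +
      ((2 * r + 4 * β + σ) / σ)⁻¹ * win (ν * ν') (2 * r + 4 * β + σ) (x - -(r + 2 * β)) :=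
    i2.add i3
  have h1 := integral_mono i0 ((Cmpx.integrable_ev ν i1).add i4) (Cmpx.pw h h' hb hr hκ)
  simp only [Pi.add_apply] at h1
  rw [integral_add (Cmpx.integrable_ev ν i1) i4, integral_add i2 i3, Cmpx.integral_ev ν i1] at h1
  simp only [integral_const_mul, integral_win_shift _ hσ.le, integral_win _ hσ.le,
    integral_win_shift _ (by positivity : 0 ≤ 2 * r + 4 * β + σ), h'.2, (h.mul h').2, mul_one,
    mul_comm _ σ, ev_fun_mul] at h1
  rw [Hs, div_le_iff₀ hσ]
  have e : ((2 * r + 4 * β + σ) / σ)⁻¹ * (2 * r + 4 * β + σ) = σ := by field_simp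
  rw [e] at h1
  unfold HB
  linarith

end Vale.Agent.P114
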