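import Vale.Agent.P114.Spec

/-! The covering inequality from the decay of ball moments. -/

open MeasureTheory Set

noncomputable section

namespace Vale.Agent.P114

namespace Covx

open Classical

theorem ev_E (M : Model) (ν : L) (n : ℕ) (f : ℝ → List M.T → ℝ) :
    ev ν (fun y => M.E n (f y)) = M.E n (fun ω => ev ν (fun y => f y ω)) := by
  unfold ev
  rw [M.E_sum]
  exact Finset.sum_congr rfl (fun y _ => (M.E_mul n _ _).symm)

/-- Mass of `U` conditionally on the types `ω`. -/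
def mw (M : Model) (μ : Measure ℝ) (ω : List M.T) (U : Set ℝ) : ℝ :=
  ev (M.X ω) (fun y => μ.real ((fun x => M.R ω * x + y) ⁻¹' U))

theorem meas_aff (R y : ℝ) {U : Set ℝ} (hU : MeasurableSet U) :
    MeasurableSet ((fun x => R * x + y) ⁻¹' U) :=
  ((measurable_const.mul measurable_id).add measurable_const) hU

theorem mw_nil (M : Model) (μ : Measure ℝ) (U : Set ℝ) : mw M μ [] U = μ.real U := by
  simp [mw]

theorem mw_nonneg (M : Model) (μ : Measure ℝ) (ω : List M.T) (U : Set ℝ) : 0 ≤ mw M μ ω U :=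
  ev_nonneg (M.prob_X ω).1 (fun _ => measureReal_nonneg)

theorem ev_mw (M : Model) (μ : Measure ℝ) (ν : L) (R : ℝ) (ω : List M.T) (U : Set ℝ) :
    ev ν (fun y => mw M μ ω ((fun x => R * x + y) ⁻¹' U)) =
      ev (ν * scale R (M.X ω)) (fun u => μ.real ((fun x => R * M.R ω * x + u) ⁻¹' U)) := by
  rw [ev_mul]
  refine ev_congr (fun y _ => ?_)
  rw [ev_scale, mw]
  refine ev_congr (fun z _ => ?_)
  congr 1
  ext x
  simp only [mem_preimage]
  rw [show R * (M.R ω * x + z) + y = R * M.R ω * x + (y + R * z) by ring]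

theorem real_eq (M : Model) {μ : Measure ℝ} (h : M.SS μ) (n : ℕ) :
    ∀ U : Set ℝ, MeasurableSet U → μ.real U = M.E n (fun ω => mw M μ ω U) := by
  induction n with
  | zero => intro U _; rw [M.E_zero, mw_nil]
  | succ n ih =>
    intro U hU
    rw [h U hU, M.E_succ]
    refine Finset.sum_congr rfl (fun θ _ => ?_)
    congr 1
    rw [ev_congr (g := fun y => M.E n (fun ω => mw M μ ω ((fun x => M.ρ θ * x + y) ⁻¹' U)))
      (fun y _ => ih _ (meas_aff _ _ hU)), ev_E]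
    refine M.E_congr (fun ω _ => ?_)
    rw [ev_mw]; rfl

theorem mw_eq (M : Model) {μ : Measure ℝ} (h : M.SS μ) (n : ℕ) (ω : List M.T) {U : Set ℝ}
    (hU : MeasurableSet U) : mw M μ ω U = M.E n (fun ω' => mw M μ (ω ++ ω') U) := by
  rw [mw, ev_congr (g := fun y => M.E n (fun ω' => mw M μ ω' ((fun x => M.R ω * x + y) ⁻¹' U)))
      (fun y _ => real_eq M h n _ (meas_aff _ _ hU)), ev_E]
  refine M.E_congr (fun ω' _ => ?_)
  rw [ev_mw, mw, M.X_append, M.R_append]

theorem stop (M : Model) {μ : Measure ℝ} (h : M.SS μ) (m : ℕ) {U : Set ℝ} (hU : MeasurableSet U)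
    {ρ up : ℝ} (hup : up ≤ 1) (hup0 : 0 ≤ up) (hρ : ρ ≤ up * M.a ^ m) (J : ℕ) :
    μ.real U ≤ ∑ j ∈ Finset.range (J + 1),
      M.E (j * m) (fun ω => if ρ ≤ |M.R ω| ∧ |M.R ω| < up then mw M μ ω U else 0) +
      M.E (J * m) (fun ω => if up ≤ |M.R ω| then mw M μ ω U else 0) := by
  have hnn : ∀ j, 0 ≤ M.E (j * m)
      (fun ω => if ρ ≤ |M.R ω| ∧ |M.R ω| < up then mw M μ ω U else 0) := fun j =>
    M.E_nonneg (fun ω _ => by split_ifs; exacts [mw_nonneg M μ ω U, le_rfl])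
  induction J with
  | zero =>
    have h1 := hnn 0
    rw [Finset.sum_range_one]
    simp only [zero_mul, M.E_zero, M.R_nil, abs_one] at h1 ⊢
    rw [if_pos hup]
    linarith [mw_nil M μ U]
  | succ J ih =>
    rw [Finset.sum_range_succ _ (J + 1), add_assoc]
    refine ih.trans (add_le_add le_rfl ?_)
    rw [← M.E_add, Nat.succ_mul, M.E_append]
    refine M.E_mono (fun ω _ => ?_)
    split_ifs with h1
    · rw [mw_eq M h m ω hU]
      refine M.E_mono (fun ω' hω' => ?_)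
      have h2 : ρ ≤ |M.R (ω ++ ω')| := by
        rw [M.R_append, abs_mul]
        refine hρ.trans (mul_le_mul h1 ?_ (pow_nonneg M.a_pos.le _) (abs_nonneg _))
        rw [← hω']; exact M.pow_le_R ω'
      by_cases h3 : up ≤ |M.R (ω ++ ω')|
      · rw [if_pos h3, if_neg (fun h4 => absurd h4.2 (not_lt.2 h3)), zero_add]
      · rw [if_neg h3, if_pos ⟨h2, not_le.1 h3⟩, add_zero]
    · refine M.E_nonneg (fun ω' _ => add_nonneg ?_ ?_)
      · split_ifs; exacts [mw_nonneg M μ _ U, le_rfl]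
      · split_ifs; exacts [mw_nonneg M μ _ U, le_rfl]

theorem window (M : Model) {μ : Measure ℝ} [IsProbabilityMeasure μ]
    (hs : μ (Icc (-M.ts) M.ts)ᶜ = 0) (ω : List M.T) (F : Finset ℝ) {ρ τ : ℝ} (hτ : 0 ≤ τ)
    (hρ : ρ ≤ |M.R ω|) :
    mw M μ ω (⋃ x ∈ F, Metric.closedBall x ρ) ≤
      ev (M.X ω) (fun y => if τ < bm (M.X ω) y ((2 * M.ts + 2) * |M.R ω|) then 1 else 0) +
        F.card * τ := by
  set r := (2 * M.ts + 2) * |M.R ω| with hr
  have hX := M.prob_X ω
  have h1 : ∀ y, μ.real ((fun x => M.R ω * x + y) ⁻¹' (⋃ x ∈ F, Metric.closedBall x ρ)) ≤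
      (if τ < bm (M.X ω) y r then 1 else 0) + ∑ x ∈ F,
        (if bm (M.X ω) y r ≤ τ ∧ |y - x| ≤ ρ + M.ts * |M.R ω| then (1 : ℝ) else 0) := by
    intro y
    have hsum : 0 ≤ ∑ x ∈ F,
        (if bm (M.X ω) y r ≤ τ ∧ |y - x| ≤ ρ + M.ts * |M.R ω| then (1 : ℝ) else 0) :=
      Finset.sum_nonneg (fun x _ => by split_ifs <;> norm_num)
    by_cases hb : τ < bm (M.X ω) y r
    · rw [if_pos hb]; linarith [measureReal_le_one (μ := μ)
        (s := (fun x => M.R ω * x + y) ⁻¹' (⋃ x ∈ F, Metric.closedBall x ρ))]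
    rw [if_neg hb, zero_add]
    by_cases hx : ∃ x ∈ F, |y - x| ≤ ρ + M.ts * |M.R ω|
    · obtain ⟨x, hx, hxy⟩ := hx
      refine measureReal_le_one.trans ?_
      have := Finset.single_le_sum (f := fun x =>
        (if bm (M.X ω) y r ≤ τ ∧ |y - x| ≤ ρ + M.ts * |M.R ω| then (1 : ℝ) else 0))
        (fun x _ => by split_ifs <;> norm_num) hx
      rwa [if_pos ⟨not_lt.1 hb, hxy⟩] at this
    · refine le_trans (le_of_eq ?_) hsum
      have hsub : (fun x => M.R ω * x + y) ⁻¹' (⋃ x ∈ F, Metric.closedBall x ρ) ⊆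
          (Icc (-M.ts) M.ts)ᶜ := by
        intro u hu hu'
        simp only [mem_preimage, mem_iUnion, Metric.mem_closedBall, Real.dist_eq] at hu
        obtain ⟨x, hxF, hux⟩ := hu
        refine hx ⟨x, hxF, ?_⟩
        have h2 : |u| ≤ M.ts := abs_le.2 hu'
        have h3 : |M.R ω * u| ≤ M.ts * |M.R ω| := by
          rw [abs_mul, mul_comm]; exact mul_le_mul_of_nonneg_right h2 (abs_nonneg _)
        have h4 : |y - x| ≤ |M.R ω * u + y - x| + |M.R ω * u| := by
          have := abs_sub (M.R ω * u + y - x) (M.R ω * u)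
          rwa [show M.R ω * u + y - x - M.R ω * u = y - x by ring] at this
        linarith
      rw [Measure.real, measure_mono_null hsub hs, ENNReal.toReal_zero]
  refine (ev_mono hX.1 h1).trans ?_
  rw [ev_fun_add, ev_fun_sum]
  refine add_le_add le_rfl ?_
  rw [← nsmul_eq_mul]
  refine Finset.sum_le_card_nsmul _ _ _ (fun x _ => ?_)
  by_cases hx : ∃ y0, bm (M.X ω) y0 r ≤ τ ∧ |y0 - x| ≤ ρ + M.ts * |M.R ω|
  · obtain ⟨y0, h2, h3⟩ := hx
    refine le_trans ?_ h2
    refine ev_mono hX.1 (fun y => ?_)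
    by_cases h4 : bm (M.X ω) y r ≤ τ ∧ |y - x| ≤ ρ + M.ts * |M.R ω|
    · rw [if_pos h4, if_pos]
      have h5 : |y - y0| ≤ |y - x| + |y0 - x| := by
        have := abs_sub (y - x) (y0 - x)
        rwa [show y - x - (y0 - x) = y - y0 by ring] at this
      rw [hr]
      linarith [h4.2]
    · rw [if_neg h4]; split_ifs <;> norm_num
  · rw [ev_congr (g := fun _ => 0) (fun y _ => if_neg (fun h4 => hx ⟨y, h4⟩)), ev_const, zero_mul]
    exact hτ

theorem bad_le {B R up θ s1 s2 : ℝ} (hB : 0 ≤ B) (hR : 0 < R) (hup : R ≤ up) (hθ : 0 < θ)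
    (h12 : s1 ≤ s2) :
    (if R ^ s1 < B then (1 : ℝ) else 0) ≤ up ^ (θ * (s2 - s1)) * R ^ (-(θ * s2)) * B ^ θ := by
  have hup0 : 0 < up := hR.trans_le hup
  split_ifs with h
  · have h1 : (R ^ s1) ^ θ ≤ B ^ θ := Real.rpow_le_rpow (by positivity) h.le hθ.le
    have h2 : R ^ (θ * (s2 - s1)) ≤ up ^ (θ * (s2 - s1)) :=
      Real.rpow_le_rpow hR.le hup (mul_nonneg hθ.le (by linarith))
    have h3 : (1 : ℝ) = R ^ (θ * (s2 - s1)) * R ^ (-(θ * s2)) * (R ^ s1) ^ θ := by
      rw [← Real.rpow_mul hR.le, ← Real.rpow_add hR, ← Real.rpow_add hR]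
      rw [show θ * (s2 - s1) + -(θ * s2) + s1 * θ = 0 by ring, Real.rpow_zero]
    rw [h3]
    exact mul_le_mul (mul_le_mul_of_nonneg_right h2 (by positivity)) h1 (by positivity)
      (by positivity)
  · positivity

end Covx

open Covx in
theorem stmtCov (hSupp : StmtSupp) : StmtCov := by
  classical
  intro M μ _ hSS θ κ s s' m hm hθ hκ0 hκ1 hs hss' hE
  have ha := M.a_pos
  have hb := M.b_pos
  set s2 : ℝ := (s + s') / 2 with hs2
  set γ : ℝ := θ * (s' - s2) with hγ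
  have hγpos : 0 < γ := mul_pos hθ (by linarith)
  set β : ℝ := M.b ^ (s2 - s) with hβ
  have hβ0 : 0 ≤ β := by positivity
  have hβ1 : β < 1 := Real.rpow_lt_one hb.le M.b_lt (by linarith)
  set A : ℝ := M.a ^ m with hA
  have hApos : 0 < A := by positivity
  set C1 : ℝ := (A ^ γ)⁻¹ * (2 * (1 - κ)⁻¹) with hC1
  set C2 : ℝ := (A ^ s)⁻¹ * (1 - β)⁻¹ with hC2
  have hκ' : 0 < 1 - κ := by linarith
  have hβ' : 0 < 1 - β := by linarith
  have hC1p : 0 ≤ C1 := by positivity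
  have hC2p : 0 ≤ C2 := by positivity
  refine ⟨C1 + C2, γ, A, hγpos, hApos, fun ρ hρ hρA F => ?_⟩
  set up : ℝ := ρ / A with hup
  have hup0 : 0 < up := by positivity
  have hup1 : up ≤ 1 := (div_le_one hApos).2 hρA
  have hU : MeasurableSet (⋃ x ∈ F, Metric.closedBall x ρ) :=
    Finset.measurableSet_biUnion F (fun x _ => Metric.isClosed_closedBall.measurableSet)
  obtain ⟨J, hJ⟩ := exists_pow_lt_of_lt_one hup0 M.b_lt
  have hpow : ∀ (j : ℕ) (ω : List M.T), ω.length = j * m → |M.R ω| ≤ M.b ^ j := by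
    intro j ω hω
    refine (M.R_le_pow ω).trans ?_
    rw [hω]
    exact pow_le_pow_of_le_one hb.le M.b_lt.le (Nat.le_mul_of_pos_right j hm)
  have h1 := stop M hSS m hU (ρ := ρ) hup1 hup0.le (by rw [hup, ← hA]; field_simp; exact le_rfl) J
  have h2 : M.E (J * m) (fun ω => if up ≤ |M.R ω| then
      mw M μ ω (⋃ x ∈ F, Metric.closedBall x ρ) else 0) = 0 := by
    rw [M.E_congr (g := fun _ => 0) (fun ω hω => if_neg (not_le.2 ((hpow J ω hω).trans_lt hJ))),
      M.E_const]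
  have h3 : ∀ j, M.E (j * m) (fun ω => if ρ ≤ |M.R ω| ∧ |M.R ω| < up then
      mw M μ ω (⋃ x ∈ F, Metric.closedBall x ρ) else 0) ≤
      up ^ γ * (2 * κ ^ j) + F.card * up ^ s * β ^ j := by
    intro j
    have h4 : M.E (j * m) (fun ω => if ρ ≤ |M.R ω| ∧ |M.R ω| < up then
        mw M μ ω (⋃ x ∈ F, Metric.closedBall x ρ) else 0) ≤
        M.E (j * m) (fun ω => up ^ γ * (|M.R ω| ^ (-(θ * s')) *
          PB θ (M.X ω) ((2 * M.ts + 2) * |M.R ω|)) + F.card * up ^ s * β ^ j) := by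
      refine M.E_mono (fun ω hω => ?_)
      have hR := M.R_pos ω
      have hX := M.prob_X ω
      have hPB : 0 ≤ PB θ (M.X ω) ((2 * M.ts + 2) * |M.R ω|) :=
        ev_nonneg hX.1 (fun y => Real.rpow_nonneg (bm_nonneg hX.1 _ _) _)
      split_ifs with hw
      · refine (window M (hSupp M μ hSS) ω F (τ := |M.R ω| ^ s2) (by positivity) hw.1).trans
          (add_le_add ?_ ?_)
        · refine (ev_mono hX.1 (fun y => bad_le (s2 := s') (bm_nonneg hX.1 y _) hR hw.2.le hθ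
            (by linarith))).trans (le_of_eq ?_)
          rw [ev_fun_mul, mul_assoc]; rfl
        · rw [mul_assoc]
          refine mul_le_mul_of_nonneg_left ?_ (Nat.cast_nonneg _)
          have e : |M.R ω| ^ s2 = |M.R ω| ^ s * |M.R ω| ^ (s2 - s) := by
            rw [← Real.rpow_add hR]; congr 1; ring
          rw [e]
          refine mul_le_mul (Real.rpow_le_rpow hR.le hw.2.le hs.le) ?_ (by positivity)
            (by positivity)
          refine (Real.rpow_le_rpow hR.le (hpow j ω hω) (by linarith)).trans (le_of_eq ?_)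
          rw [hβ, ← Real.rpow_natCast, ← Real.rpow_natCast, ← Real.rpow_mul hb.le,
            ← Real.rpow_mul hb.le, mul_comm]
      · positivity
    rw [M.E_add, M.E_mul, M.E_const] at h4
    exact h4.trans (add_le_add (mul_le_mul_of_nonneg_left (hE j) (by positivity)) le_rfl)
  rw [h2, add_zero] at h1
  refine (h1.trans (Finset.sum_le_sum (fun j _ => h3 j))).trans ?_
  rw [Finset.sum_add_distrib, ← Finset.mul_sum, ← Finset.mul_sum, ← Finset.mul_sum]
  have g1 : ∑ j ∈ Finset.range (J + 1), κ ^ j ≤ (1 - κ)⁻¹ := by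
    rw [← tsum_geometric_of_lt_one hκ0 hκ1]
    exact (summable_geometric_of_lt_one hκ0 hκ1).sum_le_tsum _ (fun j _ => by positivity)
  have g2 : ∑ j ∈ Finset.range (J + 1), β ^ j ≤ (1 - β)⁻¹ := by
    rw [← tsum_geometric_of_lt_one hβ0 hβ1]
    exact (summable_geometric_of_lt_one hβ0 hβ1).sum_le_tsum _ (fun j _ => by positivity)
  have e1 : up ^ γ = ρ ^ γ * (A ^ γ)⁻¹ := by rw [hup, Real.div_rpow hρ.le hApos.le, div_eq_mul_inv]
  have e2 : up ^ s = ρ ^ s * (A ^ s)⁻¹ := by rw [hup, Real.div_rpow hρ.le hApos.le, div_eq_mul_inv]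
  have k1 : up ^ γ * (2 * ∑ j ∈ Finset.range (J + 1), κ ^ j) ≤ C1 * ρ ^ γ := by
    calc _ ≤ up ^ γ * (2 * (1 - κ)⁻¹) := mul_le_mul_of_nonneg_left (by linarith) (by positivity)
      _ = C1 * ρ ^ γ := by rw [e1, hC1]; ring
  have k2 : F.card * up ^ s * ∑ j ∈ Finset.range (J + 1), β ^ j ≤ C2 * (F.card * ρ ^ s) := by
    calc _ ≤ F.card * up ^ s * (1 - β)⁻¹ := mul_le_mul_of_nonneg_left g2 (by positivity)
      _ = C2 * (F.card * ρ ^ s) := by rw [e2, hC2]; ring
  have p1 : 0 ≤ ρ ^ γ := by positivity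
  have p2 : 0 ≤ F.card * ρ ^ s := by positivity
  nlinarith [mul_nonneg hC1p p2, mul_nonneg hC2p p1]

end Vale.Agent.P114
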