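import Vale.Agent.P114.DecAux

/-! Module D: the content is carried by two point laws. -/

open MeasureTheory Set

noncomputable section

namespace Vale.Agent.P114

open Classical

namespace Dx

/-- Indicator of the window. -/
def ind (s y x : ℝ) : ℝ := if x - s < y ∧ y ≤ x then 1 else 0

/-- Relative weight of the atom `y` in the window at `x`. -/
def al (ν : L) (s y x : ℝ) : ℝ := ν.coeff y * ind s y x / win ν s x

theorem ind_eq (s y x : ℝ) : ind s y x = win (pt y) s x := by
  unfold win ind; rw [ev_pt]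

theorem ind_nonneg (s y x : ℝ) : 0 ≤ ind s y x := by
  unfold ind; split_ifs <;> norm_num

theorem measurable_ind (s y : ℝ) : Measurable (ind s y) := by
  have : ind s y = win (pt y) s := funext (ind_eq s y)
  rw [this]; exact measurable_win _ _

theorem measurable_al (ν : L) (s y : ℝ) : Measurable (al ν s y) :=
  ((measurable_ind s y).const_mul _).div (measurable_win ν s)

theorem sum_ind (ν : L) (s x : ℝ) :
    ∑ y ∈ ν.coeff.support, ν.coeff y * ind s y x = win ν s x := rfl

theorem al_nonneg {ν : L} (h : NN ν) (s y x : ℝ) : 0 ≤ al ν s y x :=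
  div_nonneg (mul_nonneg (h y) (ind_nonneg _ _ _)) (win_nonneg h _ _)

theorem sum_al (ν : L) (s x : ℝ) :
    ∑ y ∈ ν.coeff.support, al ν s y x = win ν s x / win ν s x := by
  unfold al
  rw [← Finset.sum_div, sum_ind]

theorem sum_al_le (ν : L) (s x : ℝ) : ∑ y ∈ ν.coeff.support, al ν s y x ≤ 1 := by
  rw [sum_al]; exact div_self_le_one _

theorem al_le_one {ν : L} (h : NN ν) (s x : ℝ) {y : ℝ} (hy : y ∈ ν.coeff.support) :
    al ν s y x ≤ 1 :=
  (Finset.single_le_sum (f := fun y => al ν s y x) (fun z _ => al_nonneg h s z x) hy).trans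
    (sum_al_le ν s x)

theorem mul_al_le {ν : L} (h : NN ν) (s y x m : ℝ) (hm : m ≤ win ν s x) :
    m * al ν s y x ≤ ν.coeff y * ind s y x := by
  have h0 : 0 ≤ ν.coeff y * ind s y x := mul_nonneg (h y) (ind_nonneg _ _ _)
  calc m * al ν s y x ≤ win ν s x * al ν s y x :=
        mul_le_mul_of_nonneg_right hm (al_nonneg h s y x)
    _ = ν.coeff y * ind s y x * (win ν s x / win ν s x) := by unfold al; ring
    _ ≤ ν.coeff y * ind s y x * 1 := mul_le_mul_of_nonneg_left (div_self_le_one _) h0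
    _ = _ := mul_one _

theorem mul_sum_al {ν : L} (s x m : ℝ) (hm0 : 0 ≤ m) (hm : m ≤ win ν s x) :
    m * ∑ y ∈ ν.coeff.support, al ν s y x = m := by
  rw [sum_al]
  by_cases h : win ν s x = 0
  · have : m = 0 := le_antisymm (h ▸ hm) hm0
    rw [this, zero_mul]
  · rw [div_self h, mul_one]

/-- The integrand. -/
def g (ν : L) (s e : ℝ) (y' y x : ℝ) : ℝ :=
  min (win ν s x) (win ν s (x - e)) * al ν s y x * al ν s y' (x - e)

theorem min_nonneg {ν : L} (h : NN ν) (s e x : ℝ) : 0 ≤ min (win ν s x) (win ν s (x - e)) :=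
  le_min (win_nonneg h _ _) (win_nonneg h _ _)

theorem g_nonneg {ν : L} (h : NN ν) (s e y' y x : ℝ) : 0 ≤ g ν s e y' y x :=
  mul_nonneg (mul_nonneg (min_nonneg h s e x) (al_nonneg h _ _ _)) (al_nonneg h _ _ _)

theorem measurable_g (ν : L) (s e y' y : ℝ) : Measurable (g ν s e y' y) :=
  (((measurable_win ν s).min ((measurable_win ν s).comp (measurable_sub_const e))).mul
    (measurable_al ν s y)).mul ((measurable_al ν s y').comp (measurable_sub_const e))

theorem sum_g_left {ν : L} (h : NN ν) (s e y x : ℝ) :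
    ∑ y' ∈ ν.coeff.support, g ν s e y' y x ≤ ν.coeff y * ind s y x := by
  unfold g
  rw [← Finset.mul_sum]
  calc _ ≤ min (win ν s x) (win ν s (x - e)) * al ν s y x * 1 :=
        mul_le_mul_of_nonneg_left (sum_al_le ν s _)
          (mul_nonneg (min_nonneg h s e x) (al_nonneg h _ _ _))
    _ ≤ _ := by rw [mul_one]; exact mul_al_le h s y x _ (min_le_left _ _)

theorem sum_g_right {ν : L} (h : NN ν) (s e y' x : ℝ) :
    ∑ y ∈ ν.coeff.support, g ν s e y' y x ≤ ν.coeff y' * ind s y' (x - e) := by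
  have : ∀ y, g ν s e y' y x =
      min (win ν s x) (win ν s (x - e)) * al ν s y' (x - e) * al ν s y x := fun y => by
    unfold g; ring
  simp only [this]
  rw [← Finset.mul_sum]
  calc _ ≤ min (win ν s x) (win ν s (x - e)) * al ν s y' (x - e) * 1 :=
        mul_le_mul_of_nonneg_left (sum_al_le ν s _)
          (mul_nonneg (min_nonneg h s e x) (al_nonneg h _ _ _))
    _ ≤ _ := by rw [mul_one]; exact mul_al_le h s y' _ _ (min_le_right _ _)

theorem sum_g {ν : L} (h : NN ν) (s e x : ℝ) :
    ∑ y' ∈ ν.coeff.support, ∑ y ∈ ν.coeff.support, g ν s e y' y x =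
      min (win ν s x) (win ν s (x - e)) := by
  have h1 : ∀ y', ∑ y ∈ ν.coeff.support, g ν s e y' y x =
      min (win ν s x) (win ν s (x - e)) * al ν s y' (x - e) := fun y' => by
    unfold g
    rw [← Finset.sum_mul, ← Finset.mul_sum, mul_sum_al s x _ (min_nonneg h s e x) (min_le_left _ _)]
  simp only [h1]
  rw [← Finset.mul_sum, mul_sum_al s _ _ (min_nonneg h s e x) (min_le_right _ _)]

theorem integrable_ind (s y : ℝ) : Integrable (ind s y) := by
  have : ind s y = win (pt y) s := funext (ind_eq s y)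
  rw [this]; exact integrable_win _ _

theorem integral_ind {s : ℝ} (hs : 0 ≤ s) (y e : ℝ) : ∫ x, ind s y (x - e) = s := by
  simp only [ind_eq]
  rw [integral_win_shift _ hs, mass_pt, mul_one]

theorem integrable_g {ν : L} (h : NN ν) (s e y : ℝ) {y' : ℝ} (hy' : y' ∈ ν.coeff.support) :
    Integrable (g ν s e y' y) := by
  refine ((integrable_ind s y).const_mul (ν.coeff y)).mono'
    (measurable_g ν s e y' y).aestronglyMeasurable (Filter.Eventually.of_forall (fun x => ?_))
  rw [Real.norm_of_nonneg (g_nonneg h _ _ _ _ _)]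
  exact (Finset.single_le_sum (f := fun y' => g ν s e y' y x)
    (fun z _ => g_nonneg h s e z y x) hy').trans (sum_g_left h s e y x)

/-- The coupling. -/
def k (ν : L) (s e : ℝ) (y' y : ℝ) : ℝ := (∫ x, g ν s e y' y x) / s

theorem k_nonneg {ν : L} (h : NN ν) {s : ℝ} (hs : 0 < s) (e y' y : ℝ) : 0 ≤ k ν s e y' y :=
  div_nonneg (integral_nonneg (fun x => g_nonneg h s e y' y x)) hs.le

theorem sum_k_left {ν : L} (h : NN ν) {s : ℝ} (hs : 0 < s) (e y : ℝ) :
    ∑ y' ∈ ν.coeff.support, k ν s e y' y ≤ ν.coeff y := by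
  unfold k
  rw [← Finset.sum_div, ← integral_finsetSum _ (fun y' hy' => integrable_g h s e y hy'),
    div_le_iff₀ hs]
  calc _ ≤ ∫ x, ν.coeff y * ind s y x :=
        integral_mono (integrable_finsetSum _ (fun y' hy' => integrable_g h s e y hy'))
          ((integrable_ind s y).const_mul _) (fun x => sum_g_left h s e y x)
    _ = _ := by
        rw [integral_const_mul]
        have := integral_ind hs.le y 0
        simp only [sub_zero] at this
        rw [this]

theorem sum_k_right {ν : L} (h : NN ν) {s : ℝ} (hs : 0 < s) (e : ℝ) {y' : ℝ}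
    (hy' : y' ∈ ν.coeff.support) :
    ∑ y ∈ ν.coeff.support, k ν s e y' y ≤ ν.coeff y' := by
  unfold k
  rw [← Finset.sum_div, ← integral_finsetSum _ (fun y _ => integrable_g h s e y hy'),
    div_le_iff₀ hs]
  calc _ ≤ ∫ x, ν.coeff y' * ind s y' (x - e) :=
        integral_mono (integrable_finsetSum _ (fun y _ => integrable_g h s e y hy'))
          (((integrable_ind s y').comp_sub_right e).const_mul _) (fun x => sum_g_right h s e y' x)
    _ = _ := by rw [integral_const_mul, integral_ind hs.le]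

theorem sum_k {ν : L} (h : NN ν) (s e : ℝ) :
    ∑ y' ∈ ν.coeff.support, ∑ y ∈ ν.coeff.support, k ν s e y' y = ov ν s e := by
  unfold k ov
  simp only [← Finset.sum_div]
  congr 1
  have h1 : ∀ y' ∈ ν.coeff.support, ∑ y ∈ ν.coeff.support, ∫ x, g ν s e y' y x =
      ∫ x, ∑ y ∈ ν.coeff.support, g ν s e y' y x := fun y' hy' =>
    (integral_finsetSum _ (fun y _ => integrable_g h s e y hy')).symm
  rw [Finset.sum_congr rfl h1, ← integral_finsetSum _ (fun y' hy' =>
    integrable_finsetSum _ (fun y _ => integrable_g h s e y hy'))]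
  simp only [sum_g h]

theorem k_ne_zero {ν : L} {s e y' y : ℝ} (h : k ν s e y' y ≠ 0) :
    e - s ≤ y - y' ∧ y - y' ≤ e + s := by
  by_contra hc
  apply h
  have : ∀ x, g ν s e y' y x = 0 := by
    intro x
    unfold g al ind
    by_cases h1 : x - s < y ∧ y ≤ x
    · by_cases h2 : x - e - s < y' ∧ y' ≤ x - e
      · exact absurd ⟨by linarith [h1.1, h2.2], by linarith [h1.2, h2.1]⟩ hc
      · rw [if_neg h2]; simp
    · rw [if_neg h1]; simp
  unfold k
  simp [this]

theorem dec_ov {ν : L} (h : NN ν) {s : ℝ} (hs : 0 < s) (e : ℝ) :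
    Dec ν (e - s) (e + s) (ov ν s e) := by
  set A := ν.coeff.support with hA
  refine DecAux.dec_of_index (A ×ˢ A) (fun p => (p.1, p.2 - p.1)) (fun p => k ν s e p.1 p.2) ν
    (ν - ∑ p ∈ A ×ˢ A, k ν s e p.1 p.2 • (pt p.1 * bit (p.2 - p.1))) _ _ _ ?_
    (fun p _ => k_nonneg h hs _ _ _) (fun p _ hp => k_ne_zero hp) ?_ ?_
  · refine nn_of_ev (fun f hf => ?_)
    rw [ev_sub, ev_sum, Finset.sum_product]
    simp only [ev_smul, DecAux.ev_pt_bit, add_sub_cancel]
    have h1 : ∑ y' ∈ A, ∑ y ∈ A, k ν s e y' y * f y' ≤ ev ν f := by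
      unfold ev
      refine Finset.sum_le_sum (fun y' hy' => ?_)
      rw [← Finset.sum_mul]
      exact mul_le_mul_of_nonneg_right (sum_k_right h hs e hy') (hf y')
    have h2 : ∑ y' ∈ A, ∑ y ∈ A, k ν s e y' y * f y ≤ ev ν f := by
      rw [Finset.sum_comm]
      unfold ev
      refine Finset.sum_le_sum (fun y _ => ?_)
      rw [← Finset.sum_mul]
      exact mul_le_mul_of_nonneg_right (sum_k_left h hs e y) (hf y)
    have h3 : ∑ y' ∈ A, ∑ y ∈ A, k ν s e y' y * ((f y' + f y) / 2) =
        (∑ y' ∈ A, ∑ y ∈ A, k ν s e y' y * f y' + ∑ y' ∈ A, ∑ y ∈ A, k ν s e y' y * f y) / 2 := by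
      rw [← Finset.sum_add_distrib, Finset.sum_div]
      refine Finset.sum_congr rfl (fun y' _ => ?_)
      rw [← Finset.sum_add_distrib, Finset.sum_div]
      exact Finset.sum_congr rfl (fun y _ => by ring)
    rw [h3]; linarith
  · rw [Finset.sum_product]; exact sum_k h s e
  · simp

end Dx

theorem stmtD (hO : StmtO) : StmtD := by
  intro ν s hν hs
  have h2 := hO.1 ν s (2 * s) hν.1 hs
  have h3 := hO.1 ν s (3 * s) hν.1 hs
  rw [hν.2] at h2 h3
  refine ⟨?_, ?_, ?_⟩
  · exact DecAux.dec_avg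
      (DecAux.dec_mono (Dx.dec_ov hν.1 hs (2 * s)) (by linarith) (by linarith))
      (DecAux.dec_mono (Dx.dec_ov hν.1 hs (3 * s)) (by linarith) (by linarith))
  · unfold cont; linarith [h2.1, h3.1]
  · unfold cont; linarith [h2.2, h3.2]

end Vale.Agent.P114
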