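import Vale.Agent.P114.Spec

open MeasureTheory Set

namespace Vale.Agent.P114

namespace Entx

theorem log_bound {A x σ u : ℝ} (hA : 0 ≤ A) (hx : 0 ≤ x) (hσ : 0 < σ) (hu : 0 ≤ u)
    (h : x ≤ σ * Real.exp u) : Real.log ((A * x + σ) / σ) ≤ Real.log (1 + A) + u := by
  have h1 : 1 ≤ Real.exp u := Real.one_le_exp hu
  have hpos : 0 < (A * x + σ) / σ := by positivity
  have h2 : (A * x + σ) / σ ≤ (1 + A) * Real.exp u := by
    rw [div_le_iff₀ hσ]
    have := mul_le_mul_of_nonneg_left h hA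
    nlinarith
  calc Real.log ((A * x + σ) / σ) ≤ Real.log ((1 + A) * Real.exp u) := Real.log_le_log hpos h2
    _ = Real.log (1 + A) + u := by
      rw [Real.log_mul (by positivity) (Real.exp_pos u).ne', Real.log_exp]

end Entx

theorem stmtEnt (hF : StmtF) (hV : StmtV) (hSel : StmtSel) (hCmp : StmtCmp) (hOne : StmtOne) :
    StmtEnt := by
  intro M h c s hc hs1 hsh hK
  obtain ⟨C, hC, hF⟩ := hF
  obtain ⟨V, hV0, hV⟩ := hV M
  obtain ⟨γ, hγdef⟩ : ∃ γ, γ = h - s * M.chi := ⟨_, rfl⟩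
  have hγ : 0 < γ := by linarith
  obtain ⟨δ, hδdef⟩ : ∃ δ, δ = γ / 12 := ⟨_, rfl⟩
  have hδ : 0 < δ := by linarith
  obtain ⟨k, hk0, hk⟩ : ∃ k : ℝ, 0 ≤ k ∧ C * Real.exp (-k / 2) * M.d ≤ γ / 4 := by
    refine ⟨8 * C * M.d / γ, by positivity, ?_⟩
    have h1 : 4 * C * M.d / γ + 1 ≤ Real.exp (4 * C * M.d / γ) := Real.add_one_le_exp _
    have h2 : -(8 * C * M.d / γ) / 2 = -(4 * C * M.d / γ) := by ring
    rw [h2, Real.exp_neg]
    have h3 : 0 < Real.exp (4 * C * M.d / γ) := Real.exp_pos _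
    rw [mul_assoc, mul_comm _ (M.d : ℝ), ← mul_assoc, ← div_eq_mul_inv, div_le_iff₀ h3]
    have h4 : C * M.d = γ / 4 * (4 * C * M.d / γ) := by field_simp
    have h5 : 4 * C * M.d / γ ≤ Real.exp (4 * C * M.d / γ) := by linarith
    exact h4.le.trans (mul_le_mul_of_nonneg_left h5 (by linarith))
  obtain ⟨α, hαdef⟩ : ∃ α, α = γ / (16 * (k + 1)) := ⟨_, rfl⟩
  have hα : 0 < α := by rw [hαdef]; positivity
  have hα' : 4 * (k + 1) * α = γ / 4 := by rw [hαdef]; field_simp; ring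
  obtain ⟨n0, hn0⟩ := exists_nat_gt ((Real.log (1 + 2 * c) + V / δ) / (γ / 4))
  by_cases hall : ∀ n : ℕ, n0 + 1 ≤ n → ∃ K : ℕ, α * n ≤
      M.E n (fun ω => contSum (M.X ω) (Real.exp (-((M.chi + 2 * δ) * n))) K)
  · exact hOne M c s hc hs1 (hSel M δ α (n0 + 1) hδ hα hall)
  push Not at hall
  obtain ⟨n, hn, hlt⟩ := hall
  refine ⟨n, by omega, ?_⟩
  obtain ⟨s0, hs0def⟩ : ∃ s0, s0 = Real.exp (-((M.chi + 2 * δ) * n)) := ⟨_, rfl⟩
  rw [← hs0def] at hlt
  have hs0 : 0 < s0 := by rw [hs0def]; exact Real.exp_pos _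
  obtain ⟨K0, hK0⟩ := M.exists_uniform n (P := fun ω K => ent (M.X ω) - Hs (M.X ω) s0 ≤
      4 * (k + 1) * contSum (M.X ω) s0 K + C * Real.exp (-k / 2) * (n * M.d)) (by
    intro ω hω
    obtain ⟨l, h1, h2, h3⟩ := M.X_eq_prod ω
    obtain ⟨K0, hK0⟩ := hF l M.d h2 s0 k hs0 hk0
    refine ⟨K0, fun K hK => ?_⟩
    have := hK0 K hK
    rw [← h3, h1, hω] at this
    exact this)
  have hpt : ∀ ω : List M.T, ω.length = n → ent (M.X ω) ≤
      HB (M.X ω) (c * |M.R ω|) + |Real.log |M.R ω| + n * M.chi| +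
        4 * (k + 1) * contSum (M.X ω) s0 K0 +
        (Real.log (1 + 2 * c) + 2 * δ * n + C * Real.exp (-k / 2) * (n * M.d)) := by
    intro ω hω
    have h1 := hK0 ω hω K0 le_rfl
    have hR := M.R_pos ω
    have h2 := hCmp (M.X ω) 1 0 s0 (c * |M.R ω|) (M.prob_X ω) prob_one bd_one le_rfl hs0
      (by positivity)
    rw [mul_one] at h2
    have h3 : Real.log ((2 * c * |M.R ω| + s0) / s0) ≤
        Real.log (1 + 2 * c) + (|Real.log |M.R ω| + n * M.chi| + 2 * δ * n) := by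
      refine Entx.log_bound (by positivity) hR.le hs0 (by positivity) ?_
      rw [hs0def, ← Real.exp_add, ← Real.exp_log hR, Real.exp_le_exp, Real.log_exp]
      have := le_abs_self (Real.log |M.R ω| + n * M.chi)
      linarith
    have h4 : 2 * (c * |M.R ω|) + 4 * 0 + s0 = 2 * c * |M.R ω| + s0 := by ring
    rw [h4] at h2
    linarith
  have h5 := M.E_mono hpt
  rw [M.E_add, M.E_add, M.E_add, M.E_const, M.E_mul] at h5
  have h6 := (hV n δ hδ).2.1
  have h7 := hK n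
  have h8 := hlt K0
  have h9 : 4 * (k + 1) * M.E n (fun ω => contSum (M.X ω) s0 K0) ≤ γ / 4 * n := by
    rw [← hα', mul_assoc (4 * (k + 1))]
    exact mul_le_mul_of_nonneg_left h8.le (by positivity)
  have hn' : (n0 : ℝ) ≤ n := by exact_mod_cast (by omega : n0 ≤ n)
  have h10 : Real.log (1 + 2 * c) + V / δ < γ / 4 * n := by
    rw [div_lt_iff₀ (by linarith)] at hn0
    nlinarith
  have h11 : C * Real.exp (-k / 2) * (n * M.d) ≤ γ / 4 * n := by
    have := mul_le_mul_of_nonneg_right hk (Nat.cast_nonneg (α := ℝ) n)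
    linarith
  have h12 : s * (n * M.chi) = n * h - γ * n := by rw [hγdef]; ring
  have h13 : δ * n = γ * n / 12 := by rw [hδdef]; ring
  rw [h12]
  linarith

end Vale.Agent.P114
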