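import Vale.Agent.P114.Spec

open Finset

namespace Vale.Agent.P114

namespace Fx

/-- summing a backward recursion -/
theorem back {u c : ℕ → ℝ} {a b : ℝ} {K : ℕ} (h0 : 0 ≤ u 0) (hK : u K = 0)
    (h : ∀ i, u i ≤ a * u (i + 1) + b * c i) :
    (1 - a) * ∑ i ∈ range K, u (i + 1) ≤ b * ∑ i ∈ range K, c i := by
  have h1 : ∑ i ∈ range K, u i ≤ ∑ i ∈ range K, (a * u (i + 1) + b * c i) :=
    sum_le_sum fun i _ => h i
  rw [sum_add_distrib, ← mul_sum, ← mul_sum] at h1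
  have h2 := sum_range_succ u K
  rw [sum_range_succ'] at h2
  linarith

theorem sq_step {x y z : ℝ} (hy : 0 ≤ y) (hz : 0 ≤ z) (h : x ≤ y / 2 + 2 * z) :
    √x ≤ 3 / 4 * √y + 3 / 2 * √z := by
  refine Real.sqrt_le_iff.2 ⟨by positivity, h.trans ?_⟩
  have h1 := Real.sq_sqrt hy
  have h2 := Real.sq_sqrt hz
  nlinarith [mul_nonneg (Real.sqrt_nonneg y) (Real.sqrt_nonneg z)]

end Fx

theorem stmtF (hA : StmtA) (hB : StmtB) (hO : StmtO) (hD : StmtD) (hC2 : StmtC2) : StmtF := by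
  obtain ⟨C, hC, hC2⟩ := hC2
  refine ⟨6 * C, by positivity, fun l d hl s k hs hk => ?_⟩
  have hX : Prob l.prod := prob_prod fun ν hν => (hl ν hν).1
  obtain ⟨-, -, s0, hs0, h0⟩ := hB _ hX
  obtain ⟨K0, hK0⟩ := pow_unbounded_of_one_lt (s / s0) (one_lt_two (α := ℝ))
  refine ⟨K0, fun K hK => ?_⟩
  have hp : ∀ i : ℕ, 0 < s / 2 ^ i := fun i => by positivity
  have h2 : ∀ i : ℕ, 2 * (s / 2 ^ (i + 1)) = s / 2 ^ i := fun i => by rw [pow_succ]; field_simp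
  obtain ⟨e1, e2⟩ := h0 (s / 2 ^ K) (hp K) (by
    rw [div_lt_iff₀ hs0] at hK0
    rw [div_le_iff₀ (by positivity)]
    have := pow_le_pow_right₀ (one_le_two (α := ℝ)) hK
    nlinarith)
  have hu : ∀ i : ℕ, 0 ≤ ov l.prod (s / 2 ^ i) (s / 2 ^ i) := fun i =>
    (hO.1 _ _ _ hX.1 (hp i)).1
  have hr : ∀ i : ℕ, ov l.prod (s / 2 ^ i) (s / 2 ^ i) ≤
      ov l.prod (s / 2 ^ (i + 1)) (s / 2 ^ (i + 1)) / 2 + 2 * cont l.prod (s / 2 ^ (i + 1)) :=
    fun i => by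
      have := hO.2.2.2.2.2 _ _ hX.1 (hp (i + 1))
      rwa [h2] at this
  have b1 := Fx.back (u := fun i => ov l.prod (s / 2 ^ i) (s / 2 ^ i))
    (c := fun i => cont l.prod (s / 2 ^ (i + 1))) (a := 1 / 2) (b := 2) (K := K) (hu 0) e2
    fun i => by linarith [hr i]
  have b2 := Fx.back (u := fun i => √(ov l.prod (s / 2 ^ i) (s / 2 ^ i)))
    (c := fun i => √(cont l.prod (s / 2 ^ (i + 1)))) (a := 3 / 4) (b := 3 / 2) (K := K)
    (Real.sqrt_nonneg _) (by simp only [e2, Real.sqrt_zero])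
    fun i => Fx.sq_step (hu _) (hD _ _ hX (hp _)).2.1 (hr i)
  have b3 := hC2 l d hl s K hs
  have t1 := sum_range_sub (fun i => Hs l.prod (s / 2 ^ i)) K
  have t2 : ∑ i ∈ range K, (Hs l.prod (s / 2 ^ (i + 1)) - Hs l.prod (s / 2 ^ i)) ≤
      ∑ i ∈ range K, ((k + 1) * ov l.prod (s / 2 ^ (i + 1)) (s / 2 ^ (i + 1)) +
        Real.exp (-k / 2) * √(ov l.prod (s / 2 ^ (i + 1)) (s / 2 ^ (i + 1)))) :=
    sum_le_sum fun i _ => by
      have := (hA _ _ hX (hp (i + 1))).2 k hk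
      rwa [h2] at this
  rw [t1, e1, pow_zero, div_one, sum_add_distrib, ← mul_sum, ← mul_sum] at t2
  refine t2.trans (add_le_add ?_ ?_)
  · rw [mul_comm 4, mul_assoc, contSum]
    exact mul_le_mul_of_nonneg_left (by linarith) (by linarith)
  · rw [mul_comm (6 * C), mul_assoc]
    exact mul_le_mul_of_nonneg_left (by linarith) (Real.exp_pos _).le

end Vale.Agent.P114
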