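import Vale.Agent.P114.Spec

open MeasureTheory Set

noncomputable section

namespace Vale.Agent.P114

namespace Kx

/-- many jumps give a large overlap -/
theorem base (hO : StmtO) {A s lo hi : ℝ} {m0 : ℕ} (hA : 0 ≤ A) (hs : 0 < s)
    (h : ∀ D : List ℝ, (∀ d ∈ D, lo ≤ d ∧ d ≤ hi) → m0 ≤ D.length → A ≤ ov (bits D) s s)
    (D : List ℝ) (hD : ∀ d ∈ D, lo ≤ d ∧ d ≤ hi) :
    A * (1 - 2 ^ m0 * (1 / 2) ^ D.length) ≤ ov (bits D) s s := by
  have h0 : (0 : ℝ) ≤ 2 ^ m0 * (1 / 2) ^ D.length := by positivity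
  by_cases hl : m0 ≤ D.length
  · have := h D hD hl
    nlinarith
  · have h1 : (1 : ℝ) ≤ 2 ^ m0 * (1 / 2) ^ D.length := by
      rw [one_div, inv_pow, ← div_eq_mul_inv, one_le_div (by positivity)]
      exact pow_le_pow_right₀ (by norm_num) (by omega)
    have := (hO.1 _ s s (prob_bits D).1 hs).1
    nlinarith

theorem mix {S : Finset (ℝ × ℝ)} {κ F : ℝ × ℝ → ℝ} {c A B f z : ℝ} (hκ : ∀ q ∈ S, 0 ≤ κ q)
    (hc : ∑ q ∈ S, κ q = c) (hc1 : c ≤ 1) (h1 : A * (1 - B) - f ≤ z)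
    (h2 : ∀ q ∈ S, A * (1 - B * (1 / 2)) - f ≤ F q) :
    A * (1 - B * (1 - c / 2)) - f ≤ (1 - c) * z + ∑ q ∈ S, κ q * F q := by
  have a1 : ∑ q ∈ S, κ q * (A * (1 - B * (1 / 2)) - f) ≤ ∑ q ∈ S, κ q * F q :=
    Finset.sum_le_sum fun q hq => mul_le_mul_of_nonneg_left (h2 q hq) (hκ q hq)
  rw [← Finset.sum_mul, hc] at a1
  have a2 := mul_le_mul_of_nonneg_left h1 (sub_nonneg.2 hc1)
  nlinarith

end Kx

open Kx in
theorem stmtK (hO : StmtO) (hD : StmtD) (hS : StmtS) (hT : StmtT) : StmtK := by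
  obtain ⟨l, m0, hT⟩ := hT (1 / 4) 4 (by norm_num) (by norm_num)
  have hp : (1 : ℝ) < 3 * 2 ^ m0 := by
    have : (1 : ℝ) ≤ 2 ^ m0 := one_le_pow₀ (by norm_num)
    linarith
  refine ⟨l, 2 * Real.log (3 * 2 ^ m0), by have := Real.log_pos hp; linarith,
    fun X s r hX hs hr => ?_⟩
  obtain ⟨hdec, hc0, hc1⟩ := hD X s hX hs
  obtain ⟨S, κ, hκ, hSq, hc, hov⟩ := hS.2 X s (4 * s) _ hX hdec
  generalize cont X s = c at *
  have hs' : (0 : ℝ) < 2 ^ l * s := by positivity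
  have key : ∀ r : ℕ, ∀ D : List ℝ, (∀ d ∈ D, s ≤ d ∧ d ≤ 4 * s) →
      (1 - 1 / 4) * (1 - 2 ^ m0 * (1 / 2) ^ D.length * (1 - c / 2) ^ r) ≤
        ov (bits D * X ^ r) (2 ^ l * s) (2 ^ l * s) := by
    intro r
    induction r with
    | zero =>
      intro D hD
      simpa using base hO (by norm_num) hs' (fun D h1 h2 => hT s D hs h1 h2) D hD
    | succ r ih =>
      intro D hD
      have h1 := hov (bits D * X ^ r) _ (2 ^ l * s) ((prob_bits D).mul (hX.pow r)).1 hs'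
      have e : X * (bits D * X ^ r) = bits D * X ^ (r + 1) := by ring
      rw [e] at h1
      have h2 := mix (F := fun q => ov (bit q.2 * (bits D * X ^ r)) (2 ^ l * s) (2 ^ l * s))
        (f := 0) hκ hc hc1 ((sub_zero _).le.trans (ih D hD)) (fun q hq => by
          have := ih (q.2 :: D) (fun d hd => by
            rcases List.mem_cons.1 hd with rfl | hd
            exacts [hSq q hq, hD d hd])
          rw [bits_cons, mul_assoc (bit q.2), List.length_cons, pow_succ] at this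
          linarith)
      rw [pow_succ (1 - c / 2), ← mul_assoc]
      linarith
  have h1 := key r [] (by simp)
  simp only [List.length_nil, pow_zero, mul_one, bits_nil, one_mul] at h1
  have h2 : (1 - c / 2) ^ r ≤ Real.exp (-(c / 2)) ^ r :=
    pow_le_pow_left₀ (by linarith) (by linarith [Real.add_one_le_exp (-(c / 2))]) r
  rw [← Real.exp_nat_mul] at h2
  have h3 : Real.exp (r * -(c / 2)) ≤ (3 * 2 ^ m0)⁻¹ := by
    rw [← Real.exp_log (by positivity : (0 : ℝ) < (3 * 2 ^ m0)⁻¹), Real.log_inv]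
    exact Real.exp_le_exp.2 (by linarith)
  have h4 : (2 : ℝ) ^ m0 * (1 - c / 2) ^ r ≤ 1 / 3 :=
    calc _ ≤ (2 : ℝ) ^ m0 * (3 * 2 ^ m0)⁻¹ := mul_le_mul_of_nonneg_left (h2.trans h3) (by positivity)
      _ = 1 / 3 := by field_simp
  linarith

end Vale.Agent.P114
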