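import Vale.Agent.P114.Spec

/-! Submultiplicativity of the ball moments. -/

open MeasureTheory Set

noncomputable section

namespace Vale.Agent.P114

namespace L1x

theorem PB_nonneg {ν : L} (h : NN ν) (θ r : ℝ) : 0 ≤ PB θ ν r :=
  ev_nonneg h (fun y => Real.rpow_nonneg (bm_nonneg h y r) θ)

theorem PB_mono {ν : L} (h : NN ν) {θ : ℝ} (hθ : 0 ≤ θ) {r r' : ℝ} (hr : r ≤ r') :
    PB θ ν r ≤ PB θ ν r' :=
  ev_mono h (fun y => Real.rpow_le_rpow (bm_nonneg h y r) (bm_mono h y hr) hθ)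

theorem PB_scale (ν : L) {R : ℝ} (hR : R ≠ 0) (θ r : ℝ) :
    PB θ (scale R ν) (|R| * r) = PB θ ν r := by
  unfold PB
  rw [ev_scale]
  simp only [bm_scale ν hR]

theorem QW_nonneg {ν : L} (h : NN ν) (θ : ℝ) {σ : ℝ} (hσ : 0 ≤ σ) : 0 ≤ QW θ ν σ :=
  div_nonneg (integral_nonneg (fun x => Real.rpow_nonneg (win_nonneg h σ x) _)) hσ

theorem main (hQ : StmtQ) (M : Model) (θ s c : ℝ) (m : ℕ) (hθ : 0 < θ) (hc : 0 < c) (j : ℕ) :
    ∀ R0 : ℝ, R0 ≠ 0 →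
      M.E (j * m) (fun ω => |M.R ω| ^ (-(θ * s)) *
        QW θ (scale R0 (M.X ω)) (4 * (c * |R0 * M.R ω|))) ≤
      M.E m (fun ω => |M.R ω| ^ (-(θ * s)) *
        PB θ (M.X ω) ((2 * M.ts + 4 * c) * |M.R ω|)) ^ j := by
  obtain ⟨hQ1, hQ2, -⟩ := hQ θ hθ
  set κ := M.E m (fun ω => |M.R ω| ^ (-(θ * s)) *
        PB θ (M.X ω) ((2 * M.ts + 4 * c) * |M.R ω|)) with hκ
  induction j with
  | zero =>
    intro R0 hR0
    have h1 : 0 < 4 * (c * |R0|) := by positivity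
    simp [hQ2 _ h1]
  | succ j ih =>
    intro R0 hR0
    rw [show (j + 1) * m = m + j * m by ring, M.E_append, pow_succ', hκ, ← M.E_mul', ← hκ]
    refine M.E_mono (fun ω _ => ?_)
    have hR1 : R0 * M.R ω ≠ 0 := mul_ne_zero hR0 (M.R_ne ω)
    have hA : 0 ≤ |M.R ω| ^ (-(θ * s)) * PB θ (M.X ω) ((2 * M.ts + 4 * c) * |M.R ω|) :=
      mul_nonneg (Real.rpow_nonneg (abs_nonneg _) _) (PB_nonneg (M.prob_X ω).1 _ _)
    refine le_trans ?_ (mul_le_mul_of_nonneg_left (ih _ hR1) hA)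
    rw [← M.E_mul]
    refine M.E_mono (fun ω' _ => ?_)
    have hσ : 0 < 4 * (c * |R0 * M.R ω * M.R ω'|) := by
      have := abs_pos.2 (mul_ne_zero hR1 (M.R_ne ω'))
      positivity
    have hβ : 0 ≤ |R0 * M.R ω| * M.ts := mul_nonneg (abs_nonneg _) M.ts_nn
    have h1 := hQ1 (scale R0 (M.X ω)) (scale (R0 * M.R ω) (M.X ω')) _ _
      ((M.prob_X ω).scale R0) ((M.prob_X ω').scale _) ((M.bd_X ω').scale _) hβ hσ
    have h2 : PB θ (scale R0 (M.X ω))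
        (2 * (|R0 * M.R ω| * M.ts) + 4 * (c * |R0 * M.R ω * M.R ω'|)) ≤
        PB θ (M.X ω) ((2 * M.ts + 4 * c) * |M.R ω|) := by
      rw [← PB_scale (M.X ω) hR0 θ ((2 * M.ts + 4 * c) * |M.R ω|)]
      refine PB_mono ((M.prob_X ω).scale R0).1 hθ.le ?_
      rw [abs_mul (R0 * M.R ω), abs_mul R0]
      have h3 := M.R_le_one ω'
      have h4 : 0 ≤ c * (|R0| * |M.R ω|) := by positivity
      nlinarith [mul_le_mul_of_nonneg_left h3 h4]
    have h3 := QW_nonneg ((M.prob_X ω').scale (R0 * M.R ω)).1 θ hσ.le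
    have h4 := h1.trans (mul_le_mul_of_nonneg_right h2 h3)
    rw [M.R_append, M.X_append, map_mul, scale_scale, ← mul_assoc R0, abs_mul (M.R ω),
      Real.mul_rpow (abs_nonneg _) (abs_nonneg _)]
    have h5 : 0 ≤ |M.R ω| ^ (-(θ * s)) * |M.R ω'| ^ (-(θ * s)) :=
      mul_nonneg (Real.rpow_nonneg (abs_nonneg _) _) (Real.rpow_nonneg (abs_nonneg _) _)
    refine (mul_le_mul_of_nonneg_left h4 h5).trans (le_of_eq ?_)
    ring

end L1x

theorem stmtL1 (hQ : StmtQ) : StmtL1 := by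
  intro M θ s c m j hθ hc
  have h := L1x.main hQ M θ s c m hθ hc j 1 one_ne_zero
  refine le_trans ?_ (mul_le_mul_of_nonneg_left h (by norm_num : (0 : ℝ) ≤ 2))
  rw [← M.E_mul]
  refine M.E_mono (fun ω _ => ?_)
  have h1 := (hQ θ hθ).2.2 (M.X ω) (c * |M.R ω|) (M.prob_X ω) (mul_pos hc (M.R_pos ω))
  rw [scale_one, one_mul]
  have h2 : 0 ≤ |M.R ω| ^ (-(θ * s)) := Real.rpow_nonneg (abs_nonneg _) _
  refine (mul_le_mul_of_nonneg_left h1 h2).trans (le_of_eq ?_)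
  ring

end Vale.Agent.P114
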