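import Vale.Agent.P114.Spec

open MeasureTheory Set

namespace Vale.Agent.P114

theorem stmtLB (hEnt : StmtEnt) (hL1 : StmtL1) (hL2 : StmtL2) (hCov : StmtCov)
    (hMDP : StmtMDP) : StmtLB := by
  intro M μ _ hSS h s hs0 hs1 hsh hK
  have hχ := M.chi_pos
  have hts := M.ts_nn
  have h1 : s < min 1 (h / M.chi) := lt_min hs1 (by rwa [lt_div_iff₀ hχ])
  obtain ⟨s', hs', hs''⟩ := exists_between h1
  have hs'1 : s' < 1 := hs''.trans_le (min_le_left _ _)
  have hs'h : s' * M.chi < h := by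
    have := hs''.trans_le (min_le_right _ _)
    rwa [lt_div_iff₀ hχ] at this
  have hc' : 0 < 2 * M.ts + 2 := by linarith
  have hc : 0 < 2 * M.ts + 4 * (2 * M.ts + 2) := by linarith
  obtain ⟨m, hm, hE⟩ := hEnt M h _ s' hc hs'1 hs'h hK
  obtain ⟨θ, hθ, hκ⟩ := hL2 M s' _ m hc hE
  refine hMDP μ s hs0 (hCov M μ hSS θ _ s s' m hm hθ ?_ hκ hs0 hs' (fun j => ?_))
  · refine M.E_nonneg (fun ω _ => mul_nonneg (Real.rpow_nonneg (abs_nonneg _) _) ?_)
    exact ev_nonneg (M.prob_X ω).1 (fun y => Real.rpow_nonneg (bm_nonneg (M.prob_X ω).1 _ _) _)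
  · exact hL1 M θ s' _ m j hθ hc'

end Vale.Agent.P114
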