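import Vale.Agent.P114.Spec

open MeasureTheory Set

noncomputable section

namespace Vale.Agent.P114

open Classical

namespace MDPx

theorem small {a c η : ℝ} (ha : 0 < a) (hη : 0 < η) : ∃ ρ : ℝ, 0 < ρ ∧ ∀ x, 0 ≤ x → x ≤ ρ →
    c * x ^ a ≤ η := by
  have hc : 0 < |c| + 1 := by positivity
  refine ⟨(η / (|c| + 1)) ^ a⁻¹, by positivity, fun x h0 hx => ?_⟩
  have h1 := Real.rpow_le_rpow h0 hx ha.le
  rw [Real.rpow_inv_rpow (by positivity) ha.ne', le_div_iff₀ hc] at h1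
  have h2 := mul_le_mul_of_nonneg_right (le_abs_self c) (Real.rpow_nonneg h0 a)
  nlinarith [Real.rpow_nonneg h0 a]

theorem scale {s ρ d η : ℝ} (hs : 0 < s) (hρ : 0 < ρ) (h0 : 0 ≤ d) (hd : d ≤ ρ) (hη : 0 < η) :
    ∃ k : ℕ, d ≤ ρ * (1 / 2) ^ k ∧ (ρ * (1 / 2) ^ k) ^ s ≤ 2 ^ s * d ^ s + η := by
  rcases h0.eq_or_lt with rfl | h0
  · obtain ⟨r, hr, h⟩ := small (c := 1) hs hη
    obtain ⟨k, hk⟩ := exists_pow_lt_of_lt_one (div_pos hr hρ) (by norm_num : (1 / 2 : ℝ) < 1)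
    rw [lt_div_iff₀ hρ, mul_comm] at hk
    refine ⟨k, by positivity, ?_⟩
    have := h _ (by positivity) hk.le
    rw [Real.zero_rpow hs.ne']; linarith
  · obtain ⟨k, h1, h2⟩ := exists_nat_pow_near_of_lt_one (div_pos h0 hρ) ((div_le_one hρ).2 hd)
      (by norm_num : (0 : ℝ) < 1 / 2) (by norm_num)
    rw [lt_div_iff₀ hρ, pow_succ] at h1
    rw [div_le_iff₀ hρ, mul_comm] at h2
    refine ⟨k, h2, le_trans ?_ (le_add_of_nonneg_right hη.le)⟩
    rw [← Real.mul_rpow zero_le_two h0.le]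
    exact Real.rpow_le_rpow (by positivity) (by linarith) hs.le

theorem fin (μ : Measure ℝ) [IsProbabilityMeasure μ] {s C γ ρ : ℝ} (hγ : 0 < γ) (hρ : 0 < ρ)
    (hC : 0 ≤ C) (h : ∀ r : ℝ, 0 < r → r ≤ ρ → ∀ F : Finset ℝ,
      μ.real (⋃ x ∈ F, Metric.closedBall x r) ≤ C * (r ^ γ + F.card * r ^ s))
    (N : ℕ) (x : ℕ → ℝ) (k : ℕ → ℕ) :
    μ.real (⋃ n ∈ Finset.range N, Metric.closedBall (x n) (ρ * (1 / 2) ^ k n)) ≤
      C * (1 - (1 / 2) ^ γ)⁻¹ * ρ ^ γ + C * ∑ n ∈ Finset.range N, (ρ * (1 / 2) ^ k n) ^ s := by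
  obtain ⟨J, hJ⟩ : ∃ J, ∀ n ∈ Finset.range N, k n ∈ Finset.range J :=
    ⟨(Finset.range N).sup k + 1, fun n hn =>
      Finset.mem_range.2 (Nat.lt_succ_of_le (Finset.le_sup hn))⟩
  have h1 : ⋃ n ∈ Finset.range N, Metric.closedBall (x n) (ρ * (1 / 2) ^ k n) ⊆
      ⋃ j ∈ Finset.range J, ⋃ y ∈ ((Finset.range N).filter fun n => k n = j).image x,
        Metric.closedBall y (ρ * (1 / 2) ^ j) := by
    intro z hz
    obtain ⟨n, hn, hz⟩ := mem_iUnion₂.1 hz
    exact mem_iUnion₂.2 ⟨k n, hJ n hn, mem_iUnion₂.2 ⟨x n,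
      Finset.mem_image_of_mem _ (Finset.mem_filter.2 ⟨hn, rfl⟩), hz⟩⟩
  refine (measureReal_mono h1 (measure_ne_top _ _)).trans
    ((measureReal_biUnion_finset_le _ _).trans ?_)
  refine (Finset.sum_le_sum fun j _ => h _ (by positivity)
    (mul_le_of_le_one_right hρ.le (pow_le_one₀ (by norm_num) (by norm_num))) _).trans ?_
  rw [← Finset.mul_sum, Finset.sum_add_distrib, mul_assoc, ← mul_add]
  refine mul_le_mul_of_nonneg_left (add_le_add ?_ ?_) hC
  · have q0 : (0 : ℝ) ≤ (1 / 2) ^ γ := by positivity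
    have q1 : (1 / 2 : ℝ) ^ γ < 1 := Real.rpow_lt_one (by norm_num) (by norm_num) hγ
    rw [Finset.sum_congr rfl fun j _ => show (ρ * (1 / 2) ^ j) ^ γ = ((1 / 2) ^ γ) ^ j * ρ ^ γ by
      rw [Real.mul_rpow hρ.le (by positivity), mul_comm, Real.rpow_pow_comm (by norm_num)],
      ← Finset.sum_mul]
    refine mul_le_mul_of_nonneg_right ?_ (by positivity)
    rw [← tsum_geometric_of_lt_one q0 q1]
    exact (summable_geometric_of_lt_one q0 q1).sum_le_tsum _ fun _ _ => by positivity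
  · rw [← Finset.sum_fiberwise_of_maps_to hJ]
    refine Finset.sum_le_sum fun j _ => ?_
    rw [Finset.sum_congr rfl fun n hn => by rw [(Finset.mem_filter.1 hn).2], Finset.sum_const,
      nsmul_eq_mul]
    exact mul_le_mul_of_nonneg_right (by exact_mod_cast Finset.card_image_le) (by positivity)

theorem null (μ : Measure ℝ) [IsProbabilityMeasure μ] {s : ℝ} (hs : 0 < s) (h : Cov μ s)
    {E : Set ℝ} (hE : μH[s] E = 0) : μ E = 0 := by
  obtain ⟨C, γ, ρ0, hγ, hρ0, h⟩ := h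
  have hC : 0 ≤ C := by
    have := h ρ0 hρ0 le_rfl ∅
    simp only [Finset.card_empty, Nat.cast_zero, zero_mul, add_zero] at this
    exact nonneg_of_mul_nonneg_left (measureReal_nonneg.trans this) (by positivity)
  refine le_antisymm (ENNReal.le_of_forall_pos_le_add fun ε hε _ => ?_) zero_le
  have hε' : (0 : ℝ) < ε / 2 := by positivity
  obtain ⟨ρ1, hρ1, h1⟩ := small (c := C * (1 - (1 / 2) ^ γ)⁻¹) hγ hε'
  obtain ⟨δ, hδ, h2⟩ := small (c := C * (2 ^ s + 1)) one_pos hε'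
  replace h2 := h2 δ hδ.le le_rfl
  rw [Real.rpow_one] at h2
  have hρ : 0 < min ρ0 ρ1 := lt_min hρ0 hρ1
  replace h1 := h1 _ hρ.le (min_le_right _ _)
  replace h := fun r h0 (hr : r ≤ min ρ0 ρ1) => h r h0 (hr.trans (min_le_left _ _))
  generalize min ρ0 ρ1 = ρ at hρ h1 h
  rw [Measure.hausdorffMeasure_apply] at hE
  have h3 := (le_iSup₂_of_le (ENNReal.ofReal ρ) (ENNReal.ofReal_pos.2 hρ) le_rfl).trans_lt
    (hE.trans_lt (ENNReal.ofReal_pos.2 hδ))
  simp only [iInf_lt_iff] at h3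
  obtain ⟨t, ht, hd, h3⟩ := h3
  have hx : ∀ n, ∃ x, t n ⊆ Metric.closedBall x (Metric.diam (t n)) := fun n => by
    rcases (t n).eq_empty_or_nonempty with e | ⟨x, hx⟩
    · exact ⟨0, by rw [e]; exact empty_subset _⟩
    · exact ⟨x, fun y hy => Metric.dist_le_diam_of_mem'
        ((hd n).trans_lt ENNReal.ofReal_lt_top).ne hy hx⟩
  choose x hx using hx
  have h4 : ∀ N, ∑ n ∈ Finset.range N, Metric.diam (t n) ^ s ≤ δ := fun N => by
    rw [← ENNReal.ofReal_le_ofReal_iff hδ.le, ENNReal.ofReal_sum_of_nonneg fun _ _ =>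
      Real.rpow_nonneg Metric.diam_nonneg _]
    refine le_trans (Finset.sum_le_sum fun n _ => ?_) ((ENNReal.sum_le_tsum _).trans h3.le)
    rcases (t n).eq_empty_or_nonempty with e | hn
    · simp [e, Real.zero_rpow hs.ne']
    · rw [iSup_pos hn, ← ENNReal.ofReal_rpow_of_nonneg Metric.diam_nonneg hs.le, Metric.diam,
        ENNReal.ofReal_toReal ((hd n).trans_lt ENNReal.ofReal_lt_top).ne]
  have hm : Monotone fun N => ⋃ n ∈ Finset.range N, t n := fun a b hab =>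
    biUnion_subset_biUnion_left fun n hn => Finset.range_mono hab hn
  refine (measure_mono (t := ⋃ N, ⋃ n ∈ Finset.range N, t n) fun z hz => ?_).trans ?_
  · obtain ⟨n, hn⟩ := mem_iUnion.1 (ht hz)
    exact mem_iUnion.2 ⟨n + 1, mem_iUnion₂.2 ⟨n, Finset.self_mem_range_succ n, hn⟩⟩
  rw [hm.measure_iUnion, zero_add]
  refine iSup_le fun N => ?_
  choose k hk1 hk2 using fun n => scale (η := δ / (N + 1)) hs hρ Metric.diam_nonneg
    (ENNReal.toReal_le_of_le_ofReal hρ.le (hd n)) (by positivity)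
  have h5 := fin μ hγ hρ hC h N x k
  have h6 := Finset.sum_le_sum fun n (_ : n ∈ Finset.range N) => hk2 n
  rw [Finset.sum_add_distrib, ← Finset.mul_sum, Finset.sum_const, Finset.card_range,
    nsmul_eq_mul] at h6
  have h7 : (N : ℝ) * (δ / (N + 1)) ≤ δ := by
    rw [← mul_div_assoc, div_le_iff₀ (by positivity)]; nlinarith
  have h8 := mul_le_mul_of_nonneg_left (h4 N) (by positivity : (0 : ℝ) ≤ 2 ^ s)
  have h9 := mul_le_mul_of_nonneg_left (h6.trans (add_le_add h8 h7)) hC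
  refine (measure_mono (iUnion₂_mono fun n _ =>
    (hx n).trans (Metric.closedBall_subset_closedBall (hk1 n)))).trans ?_
  rw [← ofReal_measureReal (measure_ne_top _ _), ← ENNReal.ofReal_coe_nnreal]
  exact ENNReal.ofReal_le_ofReal (by linarith)

end MDPx

theorem stmtMDP : StmtMDP := by
  intro μ _ s hs h
  refine le_iInf fun E => le_iInf fun _ => le_iInf fun hE => ?_
  exact le_dimH_of_hausdorffMeasure_ne_zero (d := s.toNNReal) fun h0 => hE.ne'
    (MDPx.null μ hs h (by rwa [Real.coe_toNNReal _ hs.le] at h0))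

end Vale.Agent.P114
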