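import Vale.Agent.P114.W

/-! Assembly of the two bounds. -/

open MeasureTheory Set Filter Topology
open scoped ENNReal

noncomputable section

namespace Vale.Agent.P114

open Wx

lemma exists_block (d γ : ℝ) (hγ : 0 < γ) :
    ∃ N : ℕ, 1 ≤ N ∧ d * Real.log (N + 1) < N * γ := by
  have h1 : (fun x : ℝ => Real.log x) =o[atTop] (fun x => x) := Real.isLittleO_log_id_atTop
  have h2 := (h1.const_mul_left d).bound (c := γ / 4) (by positivity)
  have h3 : Tendsto (fun N : ℕ => (N : ℝ) + 1) atTop atTop :=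
    tendsto_atTop_add_const_right _ _ tendsto_natCast_atTop_atTop
  obtain ⟨N, hN, hN1⟩ := ((h3.eventually h2).and (eventually_ge_atTop 1)).exists
  refine ⟨N, hN1, ?_⟩
  have h4 : (1:ℝ) ≤ N := by exact_mod_cast hN1
  rw [Real.norm_eq_abs, Real.norm_eq_abs, abs_of_pos (by linarith : (0:ℝ) < N + 1)] at hN
  nlinarith [le_abs_self (d * Real.log (N + 1))]

theorem stmtMain (hLB : StmtLB) (hRed : StmtRed) (hUB : StmtUB) : StmtMain := by
  intro Λ _ p r t μ h
  have := h.prob
  refine le_antisymm (hUB Λ p r t μ h) ?_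
  have hχ := lyap_pos h
  have hl := Real.log_pos one_lt_two
  refine le_of_forall_lt_imp_le_of_dense fun a ha => ?_
  have hat : a ≠ ⊤ := ne_top_of_lt ha
  rcases eq_or_ne a 0 with rfl | ha0
  · exact zero_le
  set s := a.toReal with hs
  have hs0 : 0 < s := ENNReal.toReal_pos ha0 hat
  rw [← ENNReal.ofReal_toReal hat, ← hs] at ha ⊢
  have hlt := (ENNReal.ofReal_lt_ofReal_iff_of_nonneg hs0.le).1 ha
  have hs1 : s < 1 := hlt.trans_le (min_le_left _ _)
  have hs2 : s * lyap p r < hRW p r t := by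
    have := hlt.trans_le (min_le_right _ _)
    rwa [lt_div_iff₀ hχ] at this
  obtain ⟨N, hN, hN'⟩ := exists_block (Fintype.card Λ) ((hRW p r t - s * lyap p r) * Real.log 2)
    (mul_pos (by linarith) hl)
  obtain ⟨M, hSS, hchi, hE⟩ := hRed Λ p r t μ h N hN
  refine hLB M μ hSS _ s hs0 hs1 ?_ hE
  rw [hchi]
  nlinarith

end Vale.Agent.P114
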