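import Vale.Agent.P114.Spec

/-! The window seminorm. -/

open MeasureTheory Set

noncomputable section

namespace Vale.Agent.P114

namespace Nx

theorem win_sub (ν ν' : L) (s x : ℝ) : win (ν - ν') s x = win ν s x - win ν' s x := ev_sub _ _ _

theorem nrm_add {s : ℝ} (hs : 0 < s) (ν ν' : L) : nrm (ν + ν') s ≤ nrm ν s + nrm ν' s := by
  unfold nrm
  rw [← add_div, ← integral_add (integrable_win ν s).abs (integrable_win ν' s).abs]
  refine div_le_div_of_nonneg_right ?_ hs.le
  refine integral_mono (integrable_win _ s).abs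
    ((integrable_win ν s).abs.add (integrable_win ν' s).abs) (fun x => ?_)
  simp only [win_add]
  exact abs_add_le _ _

theorem nrm_smul (s c : ℝ) (ν : L) : nrm (c • ν) s = |c| * nrm ν s := by
  unfold nrm
  simp only [win_smul, abs_mul]
  rw [integral_const_mul, mul_div_assoc]

theorem nrm_zero (s : ℝ) : nrm 0 s = 0 := by
  have := nrm_smul s 0 0
  simpa using this

theorem nrm_pt_mul (s y : ℝ) (ν : L) : nrm (pt y * ν) s = nrm ν s := by
  unfold nrm
  simp only [win_pt_mul]
  rw [integral_sub_right_eq_self (fun x => |win ν s x|) y]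

theorem nrm_sum {ι : Type*} {s : ℝ} (hs : 0 < s) (S : Finset ι) (ν : ι → L) :
    nrm (∑ i ∈ S, ν i) s ≤ ∑ i ∈ S, nrm (ν i) s := by
  classical
  induction S using Finset.induction_on with
  | empty => simp [nrm_zero]
  | insert a S ha ih =>
    rw [Finset.sum_insert ha, Finset.sum_insert ha]
    exact (nrm_add hs _ _).trans (add_le_add le_rfl ih)

theorem nrm_mul {s : ℝ} (hs : 0 < s) (ν X : L) (hX : Prob X) : nrm (ν * X) s ≤ nrm ν s := by
  have h1 : ν * X = ∑ y ∈ X.coeff.support, X.coeff y • (pt y * ν) := by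
    conv_lhs => rw [mul_comm, ev_eq_sum_pt X, Finset.sum_mul]
    exact Finset.sum_congr rfl (fun y _ => smul_mul_assoc _ _ _)
  rw [h1]
  refine (nrm_sum hs _ _).trans (le_of_eq ?_)
  have h2 : ∑ y ∈ X.coeff.support, X.coeff y = 1 := by
    have := hX.2
    simpa [mass, ev] using this
  calc ∑ y ∈ X.coeff.support, nrm (X.coeff y • (pt y * ν)) s
      = ∑ y ∈ X.coeff.support, X.coeff y * nrm ν s :=
        Finset.sum_congr rfl (fun y _ => by rw [nrm_smul, nrm_pt_mul, abs_of_nonneg (hX.1 y)])
    _ = nrm ν s := by rw [← Finset.sum_mul, h2, one_mul]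

theorem nrm_pt {s : ℝ} (hs : 0 < s) (y : ℝ) : nrm (pt y) s = 1 := by
  unfold nrm
  have : (fun x => |win (pt y) s x|) = win (pt y) s :=
    funext (fun x => abs_of_nonneg (win_nonneg (nn_pt y) s x))
  rw [this, integral_win _ hs.le, mass_pt, mul_one, div_self hs.ne']

theorem nrm_diff_le {s : ℝ} (hs : 0 < s) {y y' : ℝ} (h : y ≤ y') :
    nrm (pt y - pt y') s ≤ 2 * (y' - y) / s := by
  unfold nrm
  refine div_le_div_of_nonneg_right ?_ hs.le
  have hd : 0 ≤ y' - y := sub_nonneg.2 h
  have h1 : ∫ x, (win (pt y) (y' - y) x + win (pt (y + s)) (y' - y) x) = 2 * (y' - y) := by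
    rw [integral_add (integrable_win _ _) (integrable_win _ _), integral_win _ hd,
      integral_win _ hd, mass_pt, mass_pt]
    ring
  rw [← h1]
  refine integral_mono (integrable_win _ s).abs
    ((integrable_win _ _).add (integrable_win _ _)) (fun x => ?_)
  simp only [win_sub]
  simp only [win, ev_pt]
  by_cases a1 : x - s < y ∧ y ≤ x
  · by_cases a2 : x - s < y' ∧ y' ≤ x
    · rw [if_pos a1, if_pos a2, sub_self, abs_zero]
      split_ifs <;> norm_num
    · have a3 : x - (y' - y) < y ∧ y ≤ x := by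
        refine ⟨?_, a1.2⟩
        by_contra hc
        exact a2 ⟨by linarith [a1.1], by linarith [not_lt.1 hc]⟩
      rw [if_pos a1, if_neg a2, if_pos a3]
      split_ifs <;> norm_num
  · by_cases a2 : x - s < y' ∧ y' ≤ x
    · have a3 : x - (y' - y) < y + s ∧ y + s ≤ x := by
        refine ⟨by linarith [a2.1], ?_⟩
        by_contra hc
        exact a1 ⟨by linarith [not_le.1 hc], by linarith [a2.2]⟩
      rw [if_neg a1, if_pos a2, if_pos a3]
      split_ifs <;> norm_num
    · rw [if_neg a1, if_neg a2, sub_self, abs_zero]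
      split_ifs <;> norm_num

theorem nrm_diff {s : ℝ} (hs : 0 < s) (y y' : ℝ) : nrm (pt y - pt y') s ≤ 2 * |y - y'| / s := by
  rcases le_total y y' with h | h
  · rw [abs_sub_comm, abs_of_nonneg (sub_nonneg.2 h)]
    exact nrm_diff_le hs h
  · rw [abs_of_nonneg (sub_nonneg.2 h)]
    have h1 : pt y - pt y' = (-1 : ℝ) • (pt y' - pt y) := by simp
    rw [h1, nrm_smul]
    simpa using nrm_diff_le hs h

theorem ov_eq {s : ℝ} (hs : 0 < s) (ν : L) (hν : Prob ν) :
    ov ν s s = 1 - nrm ((1 - pt s) * ν) s / 2 := by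
  unfold ov nrm
  have h1 : ∀ x, win ((1 - pt s) * ν) s x = win ν s x - win ν s (x - s) := fun x => by
    rw [sub_mul, one_mul, win_sub, win_pt_mul]
  have h2 : (fun x => min (win ν s x) (win ν s (x - s))) = fun x =>
      (1 / 2 : ℝ) * (win ν s x + win ν s (x - s) - |win ((1 - pt s) * ν) s x|) := by
    funext x
    rw [h1]
    rcases le_total (win ν s x) (win ν s (x - s)) with h | h
    · rw [min_eq_left h, abs_of_nonpos (sub_nonpos.2 h)]; ring
    · rw [min_eq_right h, abs_of_nonneg (sub_nonneg.2 h)]; ring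
  have hi : Integrable (fun x => win ν s x + win ν s (x - s)) :=
    (integrable_win ν s).add (integrable_win_shift ν s s)
  rw [h2, integral_const_mul, integral_sub hi (integrable_win _ s).abs,
    integral_add (integrable_win ν s) (integrable_win_shift ν s s), integral_win ν hs.le,
    integral_win_shift ν hs.le, hν.2]
  field_simp
  ring

end Nx

theorem stmtN : StmtN := fun _ hs =>
  ⟨Nx.nrm_add hs, fun c ν => Nx.nrm_smul _ c ν, Nx.nrm_mul hs, Nx.nrm_pt hs, Nx.nrm_diff hs,
    Nx.ov_eq hs⟩

end Vale.Agent.P114
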