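import Vale.Agent.P114.Spec

/-! Elementary properties of the overlap. -/

open MeasureTheory Set

noncomputable section

namespace Vale.Agent.P114

namespace Ox

theorem o1 (ν : L) (s e : ℝ) (h : NN ν) (hs : 0 < s) : 0 ≤ ov ν s e ∧ ov ν s e ≤ mass ν := by
  unfold ov
  refine ⟨div_nonneg (integral_nonneg fun x =>
    le_min (win_nonneg h s x) (win_nonneg h s _)) hs.le, ?_⟩
  rw [div_le_iff₀ hs, mul_comm, ← integral_win ν hs.le]
  exact integral_mono (integrable_min_win ν s e) (integrable_win ν s) fun x => min_le_left _ _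

theorem o2 (ν ν' : L) (s e : ℝ) (hs : 0 < s) : ov ν s e + ov ν' s e ≤ ov (ν + ν') s e := by
  unfold ov
  rw [← add_div, ← integral_add (integrable_min_win ν s e) (integrable_min_win ν' s e)]
  refine div_le_div_of_nonneg_right (integral_mono
    ((integrable_min_win ν s e).add (integrable_min_win ν' s e))
    (integrable_min_win _ s e) fun x => ?_) hs.le
  simp only [win_add]
  exact le_min (add_le_add (min_le_left _ _) (min_le_left _ _))
    (add_le_add (min_le_right _ _) (min_le_right _ _))

theorem o3 (ν : L) (c s e : ℝ) (hc : 0 ≤ c) : ov (c • ν) s e = c * ov ν s e := by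
  unfold ov
  simp only [win_smul, ← mul_min_of_nonneg _ _ hc]
  rw [integral_const_mul, mul_div_assoc]

theorem shift (ν : L) (y s e : ℝ) :
    ∫ x, min (win ν s (x - y)) (win ν s (x - y - e)) = ∫ x, min (win ν s x) (win ν s (x - e)) :=
  integral_sub_right_eq_self (fun x => min (win ν s x) (win ν s (x - e))) y

theorem o4 (ν : L) (y s e : ℝ) : ov (pt y * ν) s e = ov ν s e := by
  unfold ov
  simp only [win_pt_mul]
  rw [← shift ν y s e]
  simp only [sub_right_comm _ e y]

theorem ov_zero (s e : ℝ) : ov 0 s e = 0 := by simp [ov, win]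

theorem o5 (X Z : L) (s e : ℝ) (hX : NN X) (hs : 0 < s) :
    mass X * ov Z s e ≤ ov (X * Z) s e := by
  have key : ∀ S : Finset ℝ, (∑ y ∈ S, X.coeff y) * ov Z s e ≤
      ov ((∑ y ∈ S, X.coeff y • pt y) * Z) s e := by
    intro S
    classical
    induction S using Finset.induction_on with
    | empty => simp [ov_zero]
    | insert a S ha ih =>
      rw [Finset.sum_insert ha, Finset.sum_insert ha, add_mul, add_mul]
      refine le_trans ?_ (o2 _ _ s e hs)
      rw [smul_mul_assoc, o3 _ _ _ _ (hX a), o4]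
      exact add_le_add le_rfl ih
  have h := key X.coeff.support
  rw [← ev_eq_sum_pt X] at h
  simpa [mass, ev] using h

theorem min_four {a b c d : ℝ} (ha : 0 ≤ a) (hb : 0 ≤ b) (hc : 0 ≤ c) (hd : 0 ≤ d) :
    min (a + b) (c + d) ≤ min a c + min a d + min b c + min b d := by
  simp only [min_def]
  split_ifs <;> linarith

theorem int_min (ν : L) (s e e' : ℝ) :
    Integrable (fun x => min (win ν s (x - e)) (win ν s (x - e'))) :=
  integrable_comp_win ν ν s s e e' (ψ := fun q => min q.1 q.2)
    (measurable_fst.min measurable_snd) (by simp)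

theorem o6 (ν : L) (s : ℝ) (h : NN ν) (hs : 0 < s) :
    ov ν (2 * s) (2 * s) ≤ ov ν s s / 2 + 2 * cont ν s := by
  have h3 := (o1 ν s (3 * s) h hs).1
  have i1 := integrable_min_win ν s (2 * s)
  have i2 := integrable_min_win ν s (3 * s)
  have i3 := int_min ν s s (2 * s)
  have i4 := int_min ν s s (3 * s)
  have e3 : ∫ x, min (win ν s (x - s)) (win ν s (x - 2 * s)) =
      ∫ x, min (win ν s x) (win ν s (x - s)) := by
    rw [← shift ν s s s]
    congr 1
    funext x
    rw [show x - 2 * s = x - s - s by ring]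
  have e4 : ∫ x, min (win ν s (x - s)) (win ν s (x - 3 * s)) =
      ∫ x, min (win ν s x) (win ν s (x - 2 * s)) := by
    rw [← shift ν s s (2 * s)]
    congr 1
    funext x
    rw [show x - 3 * s = x - s - 2 * s by ring]
  have key : ∫ x, min (win ν (2 * s) x) (win ν (2 * s) (x - 2 * s)) ≤
      ∫ x, (min (win ν s x) (win ν s (x - 2 * s)) + min (win ν s x) (win ν s (x - 3 * s)) +
        min (win ν s (x - s)) (win ν s (x - 2 * s)) +
        min (win ν s (x - s)) (win ν s (x - 3 * s))) := by
    refine integral_mono (integrable_min_win ν _ _) (((i1.add i2).add i3).add i4) fun x => ?_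
    simp only [win_two ν hs.le]
    rw [show x - 2 * s - s = x - 3 * s by ring]
    exact min_four (win_nonneg h _ _) (win_nonneg h _ _) (win_nonneg h _ _) (win_nonneg h _ _)
  have i12 : Integrable (fun x => min (win ν s x) (win ν s (x - 2 * s)) +
      min (win ν s x) (win ν s (x - 3 * s))) := i1.add i2
  have i123 : Integrable (fun x => min (win ν s x) (win ν s (x - 2 * s)) +
      min (win ν s x) (win ν s (x - 3 * s)) + min (win ν s (x - s)) (win ν s (x - 2 * s))) :=
    i12.add i3
  rw [integral_add i123 i4, integral_add i12 i3, integral_add i1 i2, e3, e4] at key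
  unfold cont
  unfold ov at h3 ⊢
  rw [div_le_iff₀ (by positivity)]
  refine key.trans ?_
  have h4 : 0 ≤ ∫ x, min (win ν s x) (win ν s (x - 3 * s)) := by
    have := mul_nonneg h3 hs.le
    rwa [div_mul_cancel₀ _ hs.ne'] at this
  have e : ∀ A B C : ℝ, (A / s / 2 + 2 * ((B / s + C / s) / 2)) * (2 * s) = A + 2 * B + 2 * C := by
    intro A B C
    field_simp
    ring
  rw [e]
  linarith

end Ox

theorem stmtO : StmtO :=
  ⟨Ox.o1, fun ν ν' s e _ _ hs => Ox.o2 ν ν' s e hs, Ox.o3, Ox.o4,
    fun X Z s e hX _ hs => Ox.o5 X Z s e hX hs, Ox.o6⟩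

end Vale.Agent.P114
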