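import Vale.Agent.P114.Spec

open MeasureTheory Set

namespace Vale.Agent.P114

namespace Onex

theorem log_bound {A x σ u : ℝ} (hA : 0 ≤ A) (hx : 0 ≤ x) (hσ : 0 < σ) {B : ℝ} (hB : 0 ≤ B)
    (hu : 0 ≤ u) (h : x ≤ σ * (B * Real.exp u)) :
    Real.log ((A * x + σ) / σ) ≤ Real.log (1 + A * B) + u := by
  have h1 : 1 ≤ Real.exp u := Real.one_le_exp hu
  have hpos : 0 < (A * x + σ) / σ := by positivity
  have h2 : (A * x + σ) / σ ≤ (1 + A * B) * Real.exp u := by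
    rw [div_le_iff₀ hσ]
    have := mul_le_mul_of_nonneg_left h hA
    nlinarith
  calc Real.log ((A * x + σ) / σ) ≤ Real.log ((1 + A * B) * Real.exp u) :=
        Real.log_le_log hpos h2
    _ = Real.log (1 + A * B) + u := by
      rw [Real.log_mul (by positivity) (Real.exp_pos u).ne', Real.log_exp]

theorem tele (hA : StmtA) (hB : StmtB) {ν : L} (hν : Prob ν) {S : ℝ} (hS : 0 < S) (T : ℕ) :
    Real.log 2 * ∑ i ∈ Finset.range T, ov ν (S / 2 ^ (i + 1)) (S / 2 ^ (i + 1)) ≤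
      Hs ν (S / 2 ^ T) := by
  induction T with
  | zero => simpa using ((hB ν hν).1 S hS).1
  | succ T ih =>
    rw [Finset.sum_range_succ, mul_add]
    have h1 := (hA ν (S / 2 ^ (T + 1)) hν (by positivity)).1
    have h2 : 2 * (S / 2 ^ (T + 1)) = S / 2 ^ T := by rw [pow_succ]; field_simp
    rw [h2] at h1
    linarith

end Onex

theorem stmtOne (hA : StmtA) (hB : StmtB) (hSat : StmtSat) (hCmp : StmtCmp) (hV : StmtV) :
    StmtOne := by
  intro M c s hc hs1 hR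
  obtain ⟨V, hV0, hV⟩ := hV M
  have hχ := M.chi_pos
  have hts := M.ts_nn
  obtain ⟨ε, hε, hε1, hε2⟩ : ∃ ε : ℝ, 0 < ε ∧ ε ≤ (1 - s) / 6 ∧ ε ≤ 1 / 6 :=
    ⟨min ((1 - s) / 6) (1 / 6), lt_min (by linarith) (by norm_num), min_le_left _ _,
      min_le_right _ _⟩
  obtain ⟨l, m0, hSat⟩ := hSat M ε hε
  obtain ⟨tg, hne, htg, hG, hfail⟩ := hR (2 * Real.log (2 ^ m0 / ε)) ε hε
  have hexp : 2 ^ m0 * Real.exp (-M.gain tg / 2) ≤ ε := by
    have h1 : Real.exp (-M.gain tg / 2) ≤ Real.exp (-Real.log (2 ^ m0 / ε)) :=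
      Real.exp_le_exp.2 (by linarith)
    rw [Real.exp_neg, Real.exp_log (by positivity)] at h1
    calc 2 ^ m0 * Real.exp (-M.gain tg / 2) ≤ 2 ^ m0 * (2 ^ m0 / ε)⁻¹ :=
          mul_le_mul_of_nonneg_left h1 (by positivity)
      _ = ε := by field_simp
  obtain ⟨q0, tl, rfl⟩ := List.exists_cons_of_ne_nil hne
  have hq0 := htg q0 (by simp)
  obtain ⟨N, hN⟩ : ∃ N, N = ((q0 :: tl).map Prod.fst).sum := ⟨_, rfl⟩
  obtain ⟨S0, hS0def⟩ : ∃ S0 : ℝ, S0 = 2 ^ l * q0.2 := ⟨_, rfl⟩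
  have hS0 : 0 < S0 := by rw [hS0def]; have := hq0.1; positivity
  -- entropy at small scales
  have hmain : ∀ T : ℕ, ∃ K0, ∀ K, K0 ≤ K →
      Real.log 2 * (T * (1 - 3 * ε)) ≤ M.E K (fun ω => Hs (M.X ω) (S0 / 2 ^ T)) := by
    intro T
    obtain ⟨j, hj⟩ := exists_pow_lt_of_lt_one (x := q0.2 / 2 ^ T) (y := M.b)
      (by have := hq0.1; positivity) M.b_lt
    refine ⟨N + j, fun K hK => ?_⟩
    refine le_trans ?_ (M.E_mono (fun ω _ => Onex.tele hA hB (M.prob_X ω) hS0 T))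
    rw [M.E_mul, M.E_sum]
    refine mul_le_mul_of_nonneg_left ?_ (Real.log_nonneg (by norm_num))
    have : (T : ℝ) * (1 - 3 * ε) = ∑ _i ∈ Finset.range T, (1 - 3 * ε) := by
      rw [Finset.sum_const, Finset.card_range, nsmul_eq_mul]
    rw [this]
    refine Finset.sum_le_sum (fun i hi => ?_)
    have hi' : i + 1 ≤ T := Finset.mem_range.1 hi
    have hσ : 0 < q0.2 / 2 ^ (i + 1) := by have := hq0.1; positivity
    have h1 := hSat (q0 :: tl) (q0.2 / 2 ^ (i + 1)) K hσ htg (by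
      intro q hq
      simp only [List.head?_cons, Option.mem_def, Option.some.injEq] at hq
      subst hq
      exact div_le_self hq0.1.le (one_le_pow₀ (by norm_num))) (by rw [← hN]; omega) (by
      rw [← hN]
      calc M.b ^ (K - N) ≤ M.b ^ j := pow_le_pow_of_le_one M.b_pos.le M.b_lt.le (by omega)
        _ ≤ q0.2 / 2 ^ T := hj.le
        _ ≤ q0.2 / 2 ^ (i + 1) :=
          div_le_div_of_nonneg_left hq0.1.le (by positivity)
            (pow_le_pow_right₀ (by norm_num) hi'))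
    have h2 : 2 ^ l * (q0.2 / 2 ^ (i + 1)) = S0 / 2 ^ (i + 1) := by rw [hS0def]; ring
    rw [h2] at h1
    linarith
  obtain ⟨δ, hδdef⟩ : ∃ δ, δ = ε * M.chi := ⟨_, rfl⟩
  have hδ : 0 < δ := by rw [hδdef]; positivity
  obtain ⟨A, hAdef⟩ : ∃ A, A = Real.log (1 + (2 * c + 4 * M.ts) * S0⁻¹) := ⟨_, rfl⟩
  obtain ⟨n0, hn0⟩ := exists_nat_gt ((Real.log 2 + A + V / δ) / δ)
  refine ⟨n0 + 1, by omega, ?_⟩
  obtain ⟨m, hm⟩ : ∃ m, m = n0 + 1 := ⟨_, rfl⟩
  rw [← hm]
  have hlog2 : 0 < Real.log 2 := Real.log_pos (by norm_num)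
  obtain ⟨T, hTdef⟩ : ∃ T, T = ⌊m * M.chi / Real.log 2⌋₊ := ⟨_, rfl⟩
  have hT1 : T * Real.log 2 ≤ m * M.chi := by
    rw [← le_div_iff₀ hlog2, hTdef]; exact Nat.floor_le (by positivity)
  have hT2 : m * M.chi < (T + 1) * Real.log 2 := by
    rw [← div_lt_iff₀ hlog2, hTdef]; exact Nat.lt_floor_add_one _
  obtain ⟨K0, hK0⟩ := hmain T
  have h1 := hK0 (m + K0) (by omega)
  rw [M.E_append] at h1
  have hσ : 0 < S0 / 2 ^ T := by positivity
  have hpt : ∀ ω : List M.T, ω.length = m →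
      M.E K0 (fun ω' => Hs (M.X (ω ++ ω')) (S0 / 2 ^ T)) ≤
        HB (M.X ω) (c * |M.R ω|) + |Real.log |M.R ω| + m * M.chi| + A := by
    intro ω _
    refine le_trans (M.E_mono (g := fun _ =>
      HB (M.X ω) (c * |M.R ω|) + |Real.log |M.R ω| + m * M.chi| + A) (fun ω' _ => ?_))
      (M.E_const _ _).le
    have hRp := M.R_pos ω
    rw [M.X_append]
    have h2 := hCmp (M.X ω) (scale (M.R ω) (M.X ω')) (|M.R ω| * M.ts) (S0 / 2 ^ T)
      (c * |M.R ω|) (M.prob_X ω) ((M.prob_X ω').scale _) ((M.bd_X ω').scale _)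
      (by positivity) hσ (by positivity)
    have h4 : 2 * (c * |M.R ω|) + 4 * (|M.R ω| * M.ts) + S0 / 2 ^ T =
        (2 * c + 4 * M.ts) * |M.R ω| + S0 / 2 ^ T := by ring
    rw [h4] at h2
    have h3 : Real.log (((2 * c + 4 * M.ts) * |M.R ω| + S0 / 2 ^ T) / (S0 / 2 ^ T)) ≤
        Real.log (1 + (2 * c + 4 * M.ts) * S0⁻¹) + |Real.log |M.R ω| + m * M.chi| := by
      refine Onex.log_bound (by positivity) hRp.le hσ (by positivity) (abs_nonneg _) ?_
      have h5 : S0 / 2 ^ T * (S0⁻¹ * Real.exp |Real.log |M.R ω| + m * M.chi|) =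
          Real.exp (|Real.log |M.R ω| + m * M.chi| - T * Real.log 2) := by
        rw [Real.exp_sub, Real.exp_nat_mul, Real.exp_log (by norm_num)]
        field_simp
      rw [h5]
      calc |M.R ω| = Real.exp (Real.log |M.R ω|) := (Real.exp_log hRp).symm
        _ ≤ _ := Real.exp_le_exp.2 (by
          have := le_abs_self (Real.log |M.R ω| + m * M.chi)
          linarith)
    rw [← hAdef] at h3
    linarith
  have h5 := h1.trans (M.E_mono hpt)
  rw [M.E_add, M.E_add, M.E_const] at h5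
  have h6 := (hV m δ hδ).2.1
  have hm' : (n0 : ℝ) ≤ m := by exact_mod_cast (by omega : n0 ≤ m)
  have h10 : Real.log 2 + A + V / δ < δ * m := by
    rw [div_lt_iff₀ hδ] at hn0
    nlinarith
  have h11 : (m * M.chi - Real.log 2) * (1 - 3 * ε) ≤ Real.log 2 * (T * (1 - 3 * ε)) := by
    have : m * M.chi - Real.log 2 ≤ Real.log 2 * T := by linarith
    rw [← mul_assoc]
    exact mul_le_mul_of_nonneg_right this (by linarith)
  have h12 : 0 ≤ (m : ℝ) * M.chi := by positivity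
  have h13 : s * (m * M.chi) ≤ (1 - 6 * ε) * (m * M.chi) :=
    mul_le_mul_of_nonneg_right (by linarith) h12
  have h14 : δ * m = ε * (m * M.chi) := by rw [hδdef]; ring
  have h15 : 0 ≤ ε * (m * M.chi) := by positivity
  have h16 : 0 ≤ ε * Real.log 2 := by positivity
  nlinarith

end Vale.Agent.P114
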