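import Vale.Agent.P114.Cmp

open MeasureTheory Set

noncomputable section

namespace Vale.Agent.P114

open Classical

namespace Qx

theorem hold {ι : Type} (B : Finset ι) (w g : ι → ℝ) {θ : ℝ} (hθ : 0 < θ) (hw : ∀ i, 0 ≤ w i)
    (hg : ∀ i, 0 ≤ g i) : (∑ i ∈ B, w i * g i) ^ (1 + θ) ≤
      (∑ i ∈ B, w i) ^ θ * ∑ i ∈ B, w i * g i ^ (1 + θ) := by
  have hp : 0 < 1 + θ := by linarith
  have h1 := Real.inner_le_weight_mul_Lp_of_nonneg B (p := 1 + θ) (by linarith) w g hw hg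
  have h2 : 0 ≤ ∑ i ∈ B, w i := Finset.sum_nonneg fun i _ => hw i
  have h3 : 0 ≤ ∑ i ∈ B, w i * g i ^ (1 + θ) :=
    Finset.sum_nonneg fun i _ => mul_nonneg (hw i) (Real.rpow_nonneg (hg i) _)
  refine (Real.rpow_le_rpow (Finset.sum_nonneg fun i _ => mul_nonneg (hw i) (hg i)) h1
    hp.le).trans (le_of_eq ?_)
  rw [Real.mul_rpow (Real.rpow_nonneg h2 _) (Real.rpow_nonneg h3 _), ← Real.rpow_mul h2,
    ← Real.rpow_mul h3, inv_mul_cancel₀ hp.ne', Real.rpow_one]
  congr 2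
  field_simp
  ring

theorem pw1 {ν ν' : L} {β σ θ : ℝ} (hθ : 0 < θ) (h : Prob ν) (h' : Prob ν') (hb : Bd ν' β)
    (x : ℝ) : win (ν * ν') σ x ^ (1 + θ) ≤
      ev ν (fun y => bm ν y (2 * β + σ) ^ θ * win ν' σ (x - y) ^ (1 + θ)) := by
  set B := ν.coeff.support.filter fun y => win ν' σ (x - y) ≠ 0 with hB
  have e1 : win (ν * ν') σ x = ∑ y ∈ B, ν.coeff y * win ν' σ (x - y) := by
    rw [win_mul, hB, Finset.sum_filter_of_ne fun y _ h => right_ne_zero_of_mul h]; rfl
  rw [e1]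
  refine (hold B _ _ hθ h.1 fun y => win_nonneg h'.1 _ _).trans ?_
  rw [Finset.mul_sum]
  refine le_trans (Finset.sum_le_sum fun y hy => ?_) (Finset.sum_le_sum_of_subset_of_nonneg
    (Finset.filter_subset _ _) fun y _ _ => mul_nonneg (h.1 y) (mul_nonneg
      (Real.rpow_nonneg (bm_nonneg h.1 _ _) _) (Real.rpow_nonneg (win_nonneg h'.1 _ _) _)))
  rw [mul_left_comm]
  refine mul_le_mul_of_nonneg_left (mul_le_mul_of_nonneg_right (Real.rpow_le_rpow
    (Finset.sum_nonneg fun i _ => h.1 i) ?_ hθ.le) (Real.rpow_nonneg (win_nonneg h'.1 _ _) _))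
    (h.1 y)
  obtain ⟨a1, a2⟩ := Cmpx.near hb (Finset.mem_filter.1 hy).2
  rw [hB, Finset.sum_filter]
  refine Finset.sum_le_sum fun z _ => ?_
  by_cases hz : win ν' σ (x - z) ≠ 0
  · obtain ⟨b1, b2⟩ := Cmpx.near hb hz
    simp only [if_pos hz]
    rw [if_pos (abs_le.2 ⟨by linarith, by linarith⟩), mul_one]
  · simp only [if_neg hz]
    exact mul_nonneg (h.1 z) (by split_ifs <;> norm_num)

theorem pw3 {ν : L} {r θ : ℝ} (hθ : 0 < θ) (h : Prob ν) (hr : 0 < r) (x : ℝ) :
    ev ν (fun y => bm ν y r ^ θ * win 1 (2 * r) (x - (y + r))) ≤ win ν (4 * r) x ^ (1 + θ) := by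
  have hF := win_nonneg h.1 (4 * r) x
  rw [Real.rpow_add' hF (by linarith), Real.rpow_one, mul_comm (win ν (4 * r) x)]
  conv_rhs => enter [2]; unfold win
  rw [← ev_fun_mul]
  refine ev_mono h.1 fun y => ?_
  rw [win, ev_one]
  split_ifs with h1 h2
  · refine mul_le_mul_of_nonneg_right (Real.rpow_le_rpow (bm_nonneg h.1 _ _)
      (ev_mono h.1 fun z => ?_) hθ.le) zero_le_one
    split_ifs with h3 h4
    · exact le_rfl
    · exact absurd ⟨by linarith [(abs_le.1 h3).1, h1.1], by linarith [(abs_le.1 h3).2, h1.2]⟩ h4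
    · exact zero_le_one
    · exact le_rfl
  · exact absurd ⟨by linarith [h1.1], by linarith [h1.2]⟩ h2
  · rw [mul_zero]; positivity
  · simp

theorem integ (ν : L) (s e : ℝ) {θ : ℝ} (hθ : 0 < θ) :
    Integrable fun x => win ν s (x - e) ^ (1 + θ) :=
  integrable_comp_win1 ν s e (ψ := fun u => u ^ (1 + θ)) (measurable_id.pow_const _)
    (Real.zero_rpow (by linarith))

end Qx

theorem stmtQ : StmtQ := by
  intro θ hθ
  refine ⟨fun ν ν' β σ h h' hb _ hσ => ?_, fun σ hσ => ?_, fun ν r h hr => ?_⟩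
  · have i1 : ∀ y, Integrable fun x => bm ν y (2 * β + σ) ^ θ * win ν' σ (x - y) ^ (1 + θ) :=
      fun y => (Qx.integ ν' σ y hθ).const_mul _
    have i0 := Qx.integ (ν * ν') σ 0 hθ
    simp only [sub_zero] at i0
    have h1 := integral_mono i0 (Cmpx.integrable_ev ν i1) (Qx.pw1 hθ h h' hb)
    rw [Cmpx.integral_ev ν i1] at h1
    simp only [integral_const_mul,
      integral_sub_right_eq_self (fun x => win ν' σ x ^ (1 + θ)),
      mul_comm _ (∫ x, win ν' σ x ^ (1 + θ)), ev_fun_mul] at h1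
    rw [QW, QW, ← mul_div_assoc, mul_comm (PB _ _ _)]
    exact div_le_div_of_nonneg_right h1 hσ.le
  · have e : ∀ x, win 1 σ x ^ (1 + θ) = win 1 σ x := fun x => by
      rw [win, ev_one]
      split_ifs
      · exact Real.one_rpow _
      · exact Real.zero_rpow (by linarith)
    simp only [QW, e, integral_win _ hσ.le, mass_one, mul_one, div_self hσ.ne']
  · have i1 : ∀ y, Integrable fun x => bm ν y r ^ θ * win 1 (2 * r) (x - (y + r)) :=
      fun y => (integrable_win_shift 1 _ _).const_mul _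
    have i0 := Qx.integ ν (4 * r) 0 hθ
    simp only [sub_zero] at i0
    have h1 := integral_mono (Cmpx.integrable_ev ν i1) i0 (Qx.pw3 hθ h hr)
    rw [Cmpx.integral_ev ν i1] at h1
    simp only [integral_const_mul, integral_win_shift _ (by positivity : 0 ≤ 2 * r), mass_one,
      mul_one, mul_comm _ (2 * r), ev_fun_mul] at h1
    rw [QW, ← mul_div_assoc, le_div_iff₀ (by positivity)]
    unfold PB
    linarith

end Vale.Agent.P114
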