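import Vale.Agent.P114.W

/-! Reduction to the block model. -/

open MeasureTheory Set

noncomputable section

namespace Vale.Agent.P114

open Classical Wx

namespace Redx

/-- entropy of a mixture over words of types -/
lemma ent_mix (M : Model) {G : Type*} (I : Finset G) (K : ℕ) (A : G → List M.T → ℝ)
    (h0 : ∀ g ω, 0 ≤ A g ω) (h1 : ∀ ω, ∑ g ∈ I, A g ω ≤ 1) :
    ∑ g ∈ I, Real.negMulLog (M.E K (A g)) ≤
      K * Real.log (Fintype.card M.T) + M.E K (fun ω => ∑ g ∈ I, Real.negMulLog (A g ω)) := by
  induction K generalizing A with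
  | zero => simp
  | succ K ih =>
    set a : M.T → G → ℝ := fun θ g => M.E K (fun ω => A g (θ :: ω)) with ha
    have ha0 : ∀ θ g, 0 ≤ a θ g := fun θ g => M.E_nonneg fun ω _ => h0 _ _
    have ha1 : ∀ θ, ∑ g ∈ I, a θ g ≤ 1 := by
      intro θ
      rw [ha]
      simp only
      rw [← M.E_sum, ← M.E_const K 1]
      exact M.E_mono fun ω _ => h1 _
    have hw1 : ∀ θ, M.w θ ≤ 1 := fun θ => by
      rw [← M.w_sum]
      exact Finset.single_le_sum (f := M.w) (fun θ _ => M.w_nn θ) (Finset.mem_univ θ)
    calc ∑ g ∈ I, Real.negMulLog (M.E (K + 1) (A g))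
        ≤ ∑ g ∈ I, ∑ θ, Real.negMulLog (M.w θ * a θ g) :=
          Finset.sum_le_sum fun g _ => eta_sum _ fun θ _ => mul_nonneg (M.w_nn θ) (ha0 θ g)
      _ = ∑ θ, ((∑ g ∈ I, a θ g) * Real.negMulLog (M.w θ) +
            M.w θ * ∑ g ∈ I, Real.negMulLog (a θ g)) := by
          rw [Finset.sum_comm]
          refine Finset.sum_congr rfl fun θ _ => ?_
          rw [Finset.sum_mul, Finset.mul_sum, ← Finset.sum_add_distrib]
          exact Finset.sum_congr rfl fun g _ => Real.negMulLog_mul _ _
      _ ≤ ∑ θ, (Real.negMulLog (M.w θ) + M.w θ * (K * Real.log (Fintype.card M.T) +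
            M.E K (fun ω => ∑ g ∈ I, Real.negMulLog (A g (θ :: ω))))) := by
          refine Finset.sum_le_sum fun θ _ => add_le_add ?_ ?_
          · exact mul_le_of_le_one_left (Real.negMulLog_nonneg (M.w_nn θ) (hw1 θ)) (ha1 θ)
          · exact mul_le_mul_of_nonneg_left
              (ih (fun g ω => A g (θ :: ω)) (fun g ω => h0 _ _) (fun ω => h1 _)) (M.w_nn θ)
      _ ≤ _ := by
          rw [M.E_succ]
          simp only [mul_add, Finset.sum_add_distrib]
          rw [← Finset.sum_mul, M.w_sum]
          have := sum_eta_le M.w_nn M.w_sum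
          push_cast
          linarith

lemma sum_ind_le {G : Type*} (I : Finset G) (g0 : G) {c : ℝ} (hc : 0 ≤ c) :
    ∑ g ∈ I, (if g0 = g then c else 0) ≤ c := by
  rw [Finset.sum_ite_eq]
  split_ifs
  · exact le_rfl
  · exact hc

lemma ent_push {G : Type*} (I : Finset G) {X : L} (hX : Prob X) (F : ℝ → G) :
    (∑ g ∈ I, ev X (fun y => if F y = g then 1 else 0) ≤ 1) ∧
    ∑ g ∈ I, Real.negMulLog (ev X (fun y => if F y = g then 1 else 0)) ≤ ent X := by
  constructor
  · rw [← ev_fun_sum]
    exact (ev_mono hX.1 fun y => sum_ind_le I _ zero_le_one).trans (hX.ev_const 1).le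
  · have hle : ∀ y, X.coeff y ≤ 1 := fun y => by
      rw [← hX.2]
      exact (coeff_le_bm hX.1 y le_rfl).trans (bm_le_mass hX.1 _ _)
    calc ∑ g ∈ I, Real.negMulLog (ev X (fun y => if F y = g then 1 else 0))
        ≤ ∑ g ∈ I, ∑ y ∈ X.coeff.support,
            (if F y = g then Real.negMulLog (X.coeff y) else 0) := by
          refine Finset.sum_le_sum fun g _ => ?_
          refine (eta_sum _ fun y _ => mul_nonneg (hX.1 y) (by split_ifs <;> norm_num)).trans
            (le_of_eq (Finset.sum_congr rfl fun y _ => ?_))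
          split_ifs <;> simp
      _ ≤ ent X := by
          rw [Finset.sum_comm]
          exact Finset.sum_le_sum fun y _ =>
            sum_ind_le I _ (Real.negMulLog_nonneg (hX.1 y) (hle y))

lemma ev_E (M : Model) (ν : L) (K : ℕ) (f : ℝ → List M.T → ℝ) :
    ev ν (fun y => M.E K (f y)) = M.E K (fun ω => ev ν (fun y => f y ω)) := by
  unfold ev
  rw [M.E_sum]
  exact Finset.sum_congr rfl fun y _ => (M.E_mul _ _ _).symm

/-- the model of a finite system, grouped by slope -/
lemma model {ι : Type} [Fintype ι] (P S B : ι → ℝ) (hP : ∀ u, 0 < P u) (hs : ∑ u, P u = 1)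
    (h0 : ∀ u, S u ≠ 0) (h1 : ∀ u, |S u| < 1) :
    ∃ M : Model, Fintype.card M.T = (Finset.univ.image S).card ∧
      ∀ g : ℝ → ℝ → ℝ, ∑ u, P u * g (S u) (B u) = ∑ θ, M.w θ * ev (M.ν θ) (g (M.ρ θ)) := by
  obtain ⟨a, b, ha, -, hb, hab⟩ := Cut.bounds h0 h1
  set T := {x // x ∈ Finset.univ.image S} with hT
  set w : T → ℝ := fun θ => ∑ u, if S u = θ.1 then P u else 0 with hw
  have hwp : ∀ θ, 0 < w θ := by
    intro θ
    obtain ⟨u, -, hu⟩ := Finset.mem_image.1 θ.2
    refine Finset.sum_pos' (fun v _ => ?_) ⟨u, Finset.mem_univ _, by rw [if_pos hu]; exact hP u⟩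
    split_ifs
    · exact (hP v).le
    · exact le_rfl
  set ν : T → L := fun θ => ∑ u, (if S u = θ.1 then P u / w θ else 0) • pt (B u) with hν
  have hev : ∀ θ f, w θ * ev (ν θ) f = ∑ u, if S u = θ.1 then P u * f (B u) else 0 := by
    intro θ f
    rw [hν]
    simp only
    rw [ev_sum, Finset.mul_sum]
    refine Finset.sum_congr rfl fun u _ => ?_
    rw [ev_smul, ev_pt]
    have := (hwp θ).ne'
    split_ifs
    · field_simp
    · simp
  have hkey : ∀ g : ℝ → ℝ → ℝ, ∑ u, P u * g (S u) (B u) = ∑ θ, w θ * ev (ν θ) (g θ.1) := by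
    intro g
    simp only [hev]
    rw [Finset.sum_comm]
    refine Finset.sum_congr rfl fun u _ => ?_
    rw [Finset.sum_eq_single (⟨S u, Finset.mem_image_of_mem _ (Finset.mem_univ u)⟩ : T)]
    · simp
    · intro θ _ hθ
      rw [if_neg fun h => hθ (Subtype.ext h.symm)]
    · intro h; exact absurd (Finset.mem_univ _) h
  have hmass : ∀ θ, mass (ν θ) = 1 := by
    intro θ
    have := hev θ (fun _ => 1)
    simp only [mul_one] at this
    exact mul_left_cancel₀ (hwp θ).ne' (by rw [mul_one]; exact this)
  have hsupp : ∀ θ, (ν θ).coeff.support ⊆ Finset.univ.image B := by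
    intro θ y hy
    by_contra hne
    apply Finsupp.mem_support_iff.1 hy
    rw [coeff_eq_ev, hν]
    simp only
    rw [ev_sum]
    refine Finset.sum_eq_zero fun u _ => ?_
    rw [ev_smul, ev_pt, if_neg (c := B u = y), mul_zero]
    intro h
    exact hne (h ▸ Finset.mem_image_of_mem _ (Finset.mem_univ u))
  have hab' : ∀ θ : T, a ≤ |θ.1| ∧ |θ.1| ≤ b := by
    intro θ
    obtain ⟨u, -, hu⟩ := Finset.mem_image.1 θ.2
    rw [← hu]; exact hab u
  refine ⟨{ T := T
            w := w
            ρ := fun θ => θ.1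
            ν := ν
            d := Fintype.card ι
            a := a
            b := b
            t := ∑ u, |B u|
            w_nn := fun θ => (hwp θ).le
            w_sum := ?_
            a_pos := ha
            a_le := fun θ => (hab' θ).1
            le_b := fun θ => (hab' θ).2
            b_lt := hb
            prob := fun θ => ⟨?_, hmass θ⟩
            card := fun θ => ?_
            bd := fun θ y hy => ?_
            t_nn := Finset.sum_nonneg fun u _ => abs_nonneg _ }, Fintype.card_coe _, hkey⟩
  · have := hkey (fun _ _ => 1)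
    simp only [mul_one, hs] at this
    rw [this]
    refine Finset.sum_congr rfl fun θ _ => ?_
    change _ = w θ * mass (ν θ)
    rw [hmass, mul_one]
  · refine NN.sum _ fun u _ => (nn_pt _).smul ?_
    split_ifs
    · exact div_nonneg (hP u).le (hwp θ).le
    · exact le_rfl
  · exact (Finset.card_le_card (hsupp θ)).trans Finset.card_image_le
  · obtain ⟨u, -, rfl⟩ := Finset.mem_image.1 (hsupp θ hy)
    exact Finset.single_le_sum (f := fun u => |B u|) (fun _ _ => abs_nonneg _) (Finset.mem_univ u)

lemma card_slopes {Λ : Type} [Fintype Λ] (r : Λ → ℝ) (N : ℕ) :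
    (Finset.univ.image (fun u : Fin N → Λ => sl r (List.ofFn u))).card ≤
      (N + 1) ^ Fintype.card Λ := by
  calc _ ≤ (Finset.univ.image (fun c : Λ → Fin (N + 1) => ∏ i, r i ^ (c i : ℕ))).card := by
        refine Finset.card_le_card fun x hx => ?_
        obtain ⟨u, -, rfl⟩ := Finset.mem_image.1 hx
        refine Finset.mem_image.2 ⟨fun i => ⟨(Finset.univ.filter (fun k => u k = i)).card, ?_⟩,
          Finset.mem_univ _, ?_⟩
        · have := Finset.card_filter_le (Finset.univ : Finset (Fin N)) (fun k => u k = i)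
          rw [Finset.card_univ, Fintype.card_fin] at this
          omega
        · rw [sl_ofFn, ← Finset.prod_fiberwise Finset.univ u (fun k => r (u k))]
          refine Finset.prod_congr rfl fun i _ => ?_
          rw [Finset.prod_congr rfl (g := fun _ => r i)
            (fun k hk => by rw [(Finset.mem_filter.1 hk).2]), Finset.prod_const]
    _ ≤ _ := Finset.card_image_le.trans (by simp)

end Redx

open Redx

theorem stmtRed : StmtRed := by
  intro Λ _ p r t μ h N hN
  have hp : ∀ i, 0 ≤ p i := fun i => (h.p_pos i).le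
  have hr : ∀ i, r i ≠ 0 := fun i => abs_pos.1 (h.r_pos i)
  obtain ⟨M, hcard, hM⟩ := model (ι := Fin N → Λ) (fun u => ∏ k, p (u k))
    (fun u => sl r (List.ofFn u)) (fun u => tr r t (List.ofFn u))
    (fun u => Finset.prod_pos fun k _ => h.p_pos _) (sum_prod_p h.p_sum N)
    (fun u => by rw [sl_ofFn]; exact Finset.prod_ne_zero_iff.2 fun k _ => hr _)
    (fun u => by
      rw [sl_ofFn, Finset.abs_prod]
      obtain ⟨n, rfl⟩ := Nat.exists_eq_add_of_le' hN
      rw [Fin.prod_univ_succ]
      exact mul_lt_one_of_nonneg_of_lt_one_left (abs_nonneg _) (h.r_lt _)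
        (Finset.prod_le_one (fun _ _ => abs_nonneg _) fun k _ => (h.r_lt _).le))
  have OI : ∀ g : ℝ → ℝ → ℝ, EW p N (fun u => g (sl r u) (tr r t u)) =
      ∑ θ, M.w θ * ev (M.ν θ) (g (M.ρ θ)) := fun g => by rw [EW_eq_sum, ← hM g]
  have KI : ∀ (K : ℕ) (f : ℝ → ℝ → ℝ), EW p (K * N) (fun u => f (sl r u) (tr r t u)) =
      M.E K (fun ω => ev (M.X ω) (f (M.R ω))) := by
    intro K
    induction K with
    | zero => intro f; simp [EW, sl, tr]
    | succ K ih =>
      intro f
      rw [Nat.succ_mul, add_comm, EW_append, M.E_succ]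
      simp only [sl_append, tr_append]
      have e1 : ∀ u : List Λ, EW p (K * N)
          (fun v => f (sl r u * sl r v) (sl r u * tr r t v + tr r t u)) =
          M.E K (fun ω => ev (M.X ω) (fun y => f (sl r u * M.R ω) (sl r u * y + tr r t u))) :=
        fun u => ih (fun a y => f (sl r u * a) (sl r u * y + tr r t u))
      simp only [e1]
      rw [OI (fun a b => M.E K (fun ω => ev (M.X ω) (fun y => f (a * M.R ω) (a * y + b))))]
      refine Finset.sum_congr rfl fun θ _ => ?_
      rw [ev_E]
      congr 2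
      funext ω
      rw [M.X_cons, ev_mul, M.R_cons]
      simp only [ev_scale, add_comm]
  refine ⟨M, fun U hU => ?_, ?_, fun K => ?_⟩
  · have := h.prob
    rw [(rss_of_sys h).iter N hU, OI (fun a b => μ.real ((fun x => a * x + b) ⁻¹' U))]
  · have e := OI (fun a _ => Real.log |a|)
    rw [EW_log h.p_sum hr] at e
    simp only [(M.prob _).ev_const] at e
    rw [Model.chi, ← e, lyap_eq]; ring
  · have e1 := hRW_le hp h.p_sum r t (K * N)
    have e2 := entropyG_eq p r t (K * N)
    set I := Finset.univ.image (fun w : Fin (K * N) → Λ => wordMap r t (List.ofFn w)) with hI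
    have e3 : ∀ g, lawG p r t (K * N) g = M.E K (fun ω => ev (M.X ω)
        (fun y => if (fun x => M.R ω * x + y) = g then 1 else 0)) := fun g => by
      rw [lawG_eq, KI K (fun a b => if (fun x => a * x + b) = g then 1 else 0)]
    simp only [e3] at e2
    have e4 := ent_mix M I K (fun g ω => ev (M.X ω)
        (fun y => if (fun x => M.R ω * x + y) = g then 1 else 0))
      (fun g ω => ev_nonneg (M.prob_X ω).1 fun y => by split_ifs <;> norm_num)
      (fun ω => (ent_push I (M.prob_X ω) (fun y x => M.R ω * x + y)).1)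
    have e5 := M.E_mono (n := K)
      (fun ω _ => (ent_push I (M.prob_X ω) (fun y x => M.R ω * x + y)).2)
    have e6 : Real.log (Fintype.card M.T) ≤ Fintype.card Λ * Real.log (N + 1) := by
      have := M.T_nonempty
      rw [← Real.log_pow]
      refine Real.log_le_log (by exact_mod_cast Fintype.card_pos) ?_
      rw [hcard]
      exact_mod_cast card_slopes r N
    have e7 := mul_le_mul_of_nonneg_right e1 (Real.log_pos one_lt_two).le
    have e8 := mul_le_mul_of_nonneg_left e6 (Nat.cast_nonneg (α := ℝ) K)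
    push_cast at e7
    nlinarith

end Vale.Agent.P114
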