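import Vale.Agent.P114.DecAux

/-! Module S: scaling and use of decompositions. -/

open MeasureTheory Set

noncomputable section

namespace Vale.Agent.P114

open Classical

namespace Sx

theorem ov_sum (hO : StmtO) {ι : Type*} (T : Finset ι) (ν : ι → L) (h : ∀ i ∈ T, NN (ν i))
    {s : ℝ} (hs : 0 < s) (e : ℝ) : ∑ i ∈ T, ov (ν i) s e ≤ ov (∑ i ∈ T, ν i) s e := by
  induction T using Finset.induction_on with
  | empty => simpa using (hO.1 0 s e NN.zero hs).1
  | insert a T ha ih =>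
    rw [Finset.sum_insert ha, Finset.sum_insert ha]
    have h1 := ih (fun i hi => h i (Finset.mem_insert_of_mem hi))
    have h2 := hO.2.1 (ν a) (∑ i ∈ T, ν i) s e (h a (Finset.mem_insert_self _ _))
      (NN.sum T (fun i hi => h i (Finset.mem_insert_of_mem hi))) hs
    linarith

theorem scale_pos (R y d : ℝ) : scale R (pt y * bit d) = pt (R * y) * bit (R * d) :=
  ext_ev (fun f => by rw [ev_scale, DecAux.ev_pt_bit, DecAux.ev_pt_bit, mul_add])

theorem scale_neg (R y d : ℝ) :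
    scale R (pt y * bit d) = pt (R * y + R * d) * bit (-R * d) :=
  ext_ev (fun f => by
    rw [ev_scale, DecAux.ev_pt_bit, DecAux.ev_pt_bit, mul_add,
      show R * y + R * d + -R * d = R * y by ring, add_comm])

theorem dec_scale (ν : L) (lo hi c R lo' hi' : ℝ) (h : Dec ν lo hi c) (hR : R ≠ 0)
    (h1 : lo' ≤ |R| * lo) (h2 : |R| * hi ≤ hi') : Dec (scale R ν) lo' hi' c := by
  obtain ⟨S, κ, rest, a1, a2, a3, a4, a5⟩ := h
  have hb : ∀ q ∈ S, lo' ≤ |R| * q.2 ∧ |R| * q.2 ≤ hi' := fun q hq =>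
    ⟨h1.trans (mul_le_mul_of_nonneg_left (a3 q hq).1 (abs_nonneg R)),
      (mul_le_mul_of_nonneg_left (a3 q hq).2 (abs_nonneg R)).trans h2⟩
  rcases lt_or_gt_of_ne hR with hneg | hpos
  · refine DecAux.dec_of_index S (fun q => (R * q.1 + R * q.2, -R * q.2)) κ _ (scale R rest) _ _ _
      (a1.scale R) a2 (fun q hq _ => ?_) a4 ?_
    · have := hb q hq
      rwa [abs_of_neg hneg] at this
    · rw [a5, map_add, map_sum]
      simp only [scale_smul, scale_neg]
  · refine DecAux.dec_of_index S (fun q => (R * q.1, R * q.2)) κ _ (scale R rest) _ _ _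
      (a1.scale R) a2 (fun q hq _ => ?_) a4 ?_
    · have := hb q hq
      rwa [abs_of_pos hpos] at this
    · rw [a5, map_add, map_sum]
      simp only [scale_smul, scale_pos]

end Sx

theorem stmtS (hO : StmtO) : StmtS := by
  refine ⟨Sx.dec_scale, ?_⟩
  intro X lo hi c hX h
  obtain ⟨S, κ, rest, a1, a2, a3, a4, a5⟩ := h
  refine ⟨S, κ, a2, a3, a4, fun Z s e hZ hs => ?_⟩
  have hm : mass rest = 1 - c := by
    have := hX.2
    rw [a5, mass_add, mass_sum] at this
    simp only [mass_smul, mass_mul, mass_pt, (prob_bit _).2, mul_one] at this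
    linarith
  have hXZ : X * Z = rest * Z + ∑ q ∈ S, κ q • (pt q.1 * (bit q.2 * Z)) := by
    rw [a5, add_mul, Finset.sum_mul]
    simp only [smul_mul_assoc, mul_assoc]
  have hnn : ∀ q ∈ S, NN (κ q • (pt q.1 * (bit q.2 * Z))) := fun q hq =>
    ((nn_pt _).mul ((prob_bit _).1.mul hZ)).smul (a2 q hq)
  have h1 := hO.2.1 (rest * Z) _ s e (a1.mul hZ) (NN.sum S hnn) hs
  have h2 := Sx.ov_sum hO S _ hnn hs e
  have h3 := hO.2.2.2.2.1 rest Z s e a1 hZ hs
  have h4 : ∑ q ∈ S, ov (κ q • (pt q.1 * (bit q.2 * Z))) s e =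
      ∑ q ∈ S, κ q * ov (bit q.2 * Z) s e :=
    Finset.sum_congr rfl (fun q hq => by rw [hO.2.2.1 _ _ _ _ (a2 q hq), hO.2.2.2.1])
  rw [hXZ, ← hm, ← h4]
  linarith

end Vale.Agent.P114
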