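import Vale.Agent.P114.K

open MeasureTheory Set

noncomputable section

namespace Vale.Agent.P114

namespace Satx

open Kx

variable (M : Model)

def PP (tg : List (ℕ × ℝ)) : ℝ :=
  (tg.map fun q => 1 - M.E q.1 (fun ω => cont (M.X ω) q.2) / 2).prod

theorem fail_cons (q : ℕ × ℝ) (rest : List (ℕ × ℝ)) : ∃ ind : List M.T → ℝ,
    M.fail (q :: rest) = M.E q.1 ind + M.fail rest ∧ ∀ ω, 0 ≤ ind ω ∧
      ((∀ q' ∈ rest.head?, q.2 ≤ |M.R ω| * q'.2) ∨ ind ω = 1) := by
  cases rest with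
  | nil => exact ⟨fun _ => 0, by simp [Model.fail, M.E_const], fun _ => ⟨le_rfl, Or.inl (by simp)⟩⟩
  | cons q' l =>
    refine ⟨fun ω => if |M.R ω| * q'.2 < q.2 then 1 else 0, rfl, fun ω => ?_⟩
    by_cases h : |M.R ω| * q'.2 < q.2
    · simp [h]
    · simp only [if_neg h]
      exact ⟨le_rfl, Or.inl (by simpa using not_lt.1 h)⟩

theorem fail_nn (tg : List (ℕ × ℝ)) : 0 ≤ M.fail tg := by
  induction tg with
  | nil => exact le_rfl
  | cons q rest ih =>
    obtain ⟨ind, h1, h2⟩ := fail_cons M q rest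
    rw [h1]
    exact add_nonneg (M.E_nonneg fun ω _ => (h2 ω).1) ih

theorem PP_bd (hD : StmtD) (tg : List (ℕ × ℝ)) (h : ∀ q ∈ tg, 0 < q.2 ∧ q.2 ≤ 1) :
    0 ≤ PP M tg ∧ PP M tg ≤ Real.exp (-M.gain tg / 2) := by
  induction tg with
  | nil => simp [PP, Model.gain]
  | cons q rest ih =>
    obtain ⟨h1, h2⟩ := ih fun q' hq' => h q' (List.mem_cons_of_mem _ hq')
    have h3 : M.E q.1 (fun ω => cont (M.X ω) q.2) ≤ 1 := by
      have := M.E_mono (n := q.1) (g := fun _ => 1) fun ω _ =>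
        (hD _ _ (M.prob_X ω) (h q List.mem_cons_self).1).2.2
      rwa [M.E_const] at this
    have e1 : PP M (q :: rest) = (1 - M.E q.1 (fun ω => cont (M.X ω) q.2) / 2) * PP M rest := by
      simp [PP]
    have e2 : M.gain (q :: rest) = M.E q.1 (fun ω => cont (M.X ω) q.2) + M.gain rest := by
      simp [Model.gain]
    rw [e1, e2]
    generalize M.E q.1 (fun ω => cont (M.X ω) q.2) = c at *
    refine ⟨mul_nonneg (by linarith) h1, ?_⟩
    rw [show -(c + M.gain rest) / 2 = -(c / 2) + -M.gain rest / 2 by ring, Real.exp_add]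
    exact mul_le_mul (by linarith [Real.add_one_le_exp (-(c / 2))]) h2 h1 (Real.exp_pos _).le

/-- the statement proved by induction -/
def Cl (A σ s : ℝ) (m0 : ℕ) (tg : List (ℕ × ℝ)) (K : ℕ) : Prop :=
  ∀ (R : ℝ) (D : List ℝ), R ≠ 0 → (∀ d ∈ D, σ ≤ d ∧ d ≤ 4 / M.a * σ) →
    (∀ q ∈ tg.head?, σ ≤ |R| * q.2) → (tg.map Prod.fst).sum ≤ K →
    |R| * M.b ^ (K - (tg.map Prod.fst).sum) ≤ σ →
    A * (1 - 2 ^ m0 * (1 / 2) ^ D.length * PP M tg) - M.fail tg ≤
      M.E K (fun ω => ov (bits D * scale R (M.X ω)) s s)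

theorem drop (hO : StmtO) {X Z : L} {s : ℝ} (hX : Prob X) (hZ : Prob Z) (hs : 0 < s) :
    ov Z s s ≤ ov (X * Z) s s := by
  have := hO.2.2.2.2.1 X Z s s hX.1 hZ.1 hs
  rwa [hX.2, one_mul] at this

theorem use (hO : StmtO) (hD : StmtD) (hS : StmtS) {A σ s : ℝ} {m0 : ℕ} (hA0 : 0 ≤ A) (hA1 : A ≤ 1)
    (hs : 0 < s) {q : ℕ × ℝ} {rest : List (ℕ × ℝ)} (hq : 0 < q.2)
    (hr : ∀ q ∈ rest, 0 < q.2 ∧ q.2 ≤ 1) (ih : ∀ K, Cl M A σ s m0 rest K) (K' : ℕ) {R : ℝ}
    {D : List ℝ} (hR : R ≠ 0) (hDd : ∀ d ∈ D, σ ≤ d ∧ d ≤ 4 / M.a * σ) (h1 : σ ≤ |R| * q.2)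
    (h2 : |R| * q.2 ≤ σ / M.a) (h3 : (rest.map Prod.fst).sum ≤ K')
    (h4 : |R| * M.b ^ (K' - (rest.map Prod.fst).sum) ≤ σ) :
    A * (1 - 2 ^ m0 * (1 / 2) ^ D.length * PP M (q :: rest)) - M.fail (q :: rest) ≤
      M.E (q.1 + K') (fun ω => ov (bits D * scale R (M.X ω)) s s) := by
  obtain ⟨ind, hf, hind⟩ := fail_cons M q rest
  have hP := (PP_bd M hD rest hr).1
  have hfn := fail_nn M rest
  have e1 : PP M (q :: rest) = (1 - M.E q.1 (fun ω => cont (M.X ω) q.2) / 2) * PP M rest := by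
    simp [PP]
  obtain ⟨B, hB⟩ : ∃ B : ℝ, B = 2 ^ m0 * (1 / 2) ^ D.length * PP M rest := ⟨_, rfl⟩
  have hB0 : 0 ≤ B := by rw [hB]; positivity
  have key : ∀ ω, A * (1 - B * (1 - cont (M.X ω) q.2 / 2)) - M.fail rest - ind ω ≤
      M.E K' (fun ω' => ov (bits D * scale R (M.X (ω ++ ω'))) s s) := by
    intro ω
    obtain ⟨hdec, hc0, hc1⟩ := hD _ _ (M.prob_X ω) hq
    rcases (hind ω).2 with hg | hb
    swap
    · have a1 : 0 ≤ M.E K' (fun ω' => ov (bits D * scale R (M.X (ω ++ ω'))) s s) :=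
        M.E_nonneg fun ω' _ => (hO.1 _ s s ((prob_bits D).mul ((M.prob_X _).scale R)).1 hs).1
      have a2 : 0 ≤ A * (B * (1 - cont (M.X ω) q.2 / 2)) :=
        mul_nonneg hA0 (mul_nonneg hB0 (by linarith))
      rw [hb]; linarith
    have hdec' := hS.1 _ _ _ _ R σ (4 / M.a * σ) hdec hR h1 (by
      rw [show 4 / M.a * σ = 4 * (σ / M.a) by ring]; linarith)
    obtain ⟨S, κ, hκ, hSq, hc, hov⟩ := hS.2 _ _ _ _ ((M.prob_X ω).scale R) hdec'
    have ih' : ∀ D' : List ℝ, (∀ d ∈ D', σ ≤ d ∧ d ≤ 4 / M.a * σ) →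
        A * (1 - 2 ^ m0 * (1 / 2) ^ D'.length * PP M rest) - M.fail rest ≤
          M.E K' (fun ω' => ov (bits D' * scale (R * M.R ω) (M.X ω')) s s) := fun D' hD' => by
      refine ih K' _ D' (mul_ne_zero hR (M.R_ne ω)) hD' (fun q' hq' => ?_) h3 ?_
      · rw [abs_mul, mul_assoc]
        exact h1.trans (mul_le_mul_of_nonneg_left (hg q' hq') (abs_nonneg _))
      · refine le_trans (mul_le_mul_of_nonneg_right ?_ (pow_nonneg M.b_pos.le _)) h4
        rw [abs_mul]
        exact mul_le_of_le_one_right (abs_nonneg _) (M.R_le_one ω)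
    have a1 := mix (F := fun p => M.E K' (fun ω' =>
      ov (bit p.2 * (bits D * scale (R * M.R ω) (M.X ω'))) s s)) (B := B) hκ hc hc1
      (hB ▸ ih' D hDd) (fun p hp => by
        have := ih' (p.2 :: D) (fun d hd => by
          rcases List.mem_cons.1 hd with rfl | hd
          exacts [hSq p hp, hDd d hd])
        simp only [bits_cons, mul_assoc (bit p.2), List.length_cons, pow_succ] at this
        rw [hB]
        linarith)
    simp only [← M.E_mul, ← M.E_sum, ← M.E_add] at a1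
    have a2 := M.E_mono (n := K') fun ω' _ => hov (bits D * scale (R * M.R ω) (M.X ω')) s s
      ((prob_bits D).mul ((M.prob_X ω').scale _)).1 hs
    have a3 : (fun ω' => ov (bits D * scale R (M.X (ω ++ ω'))) s s) = fun ω' =>
        ov (scale R (M.X ω) * (bits D * scale (R * M.R ω) (M.X ω'))) s s := by
      funext ω'
      rw [M.X_append, map_mul, scale_scale, mul_left_comm]
    rw [a3]
    linarith [(hind ω).1]
  have a4 := M.E_mono (n := q.1) fun ω _ => key ω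
  have a5 : (fun ω => A * (1 - B * (1 - cont (M.X ω) q.2 / 2)) - M.fail rest - ind ω) =
      fun ω => ((A * (1 - B) - M.fail rest) + A * B / 2 * cont (M.X ω) q.2) - ind ω := by
    funext ω; ring
  rw [a5, M.E_sub, M.E_add, M.E_const, M.E_mul] at a4
  rw [M.E_append, hf, e1]
  rw [hB] at a4
  linarith

theorem main (hO : StmtO) (hD : StmtD) (hS : StmtS) {A σ s : ℝ} {m0 : ℕ} (hA0 : 0 ≤ A) (hA1 : A ≤ 1)
    (hs : 0 < s) (hσ : 0 < σ)
    (hT : ∀ D : List ℝ, (∀ d ∈ D, σ ≤ d ∧ d ≤ 4 / M.a * σ) → m0 ≤ D.length → A ≤ ov (bits D) s s)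
    (tg : List (ℕ × ℝ)) (h : ∀ q ∈ tg, 0 < q.2 ∧ q.2 ≤ 1) : ∀ K, Cl M A σ s m0 tg K := by
  induction tg with
  | nil =>
    intro K R D _ hDd _ _ _
    have h1 := base hO hA0 hs hT D hDd
    have h2 := M.E_mono (n := K) (f := fun _ => ov (bits D) s s) fun ω _ =>
      (drop hO ((M.prob_X ω).scale R) (prob_bits D) hs).trans_eq (by rw [mul_comm])
    rw [M.E_const] at h2
    simp only [PP, Model.fail, List.map_nil, List.prod_nil, mul_one, sub_zero]
    exact h1.trans h2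
  | cons q rest ih =>
    have hr : ∀ q ∈ rest, 0 < q.2 ∧ q.2 ≤ 1 := fun q' hq' => h q' (List.mem_cons_of_mem _ hq')
    have hq := h q List.mem_cons_self
    have hu : ∀ K R D, R ≠ 0 → (∀ d ∈ D, σ ≤ d ∧ d ≤ 4 / M.a * σ) →
        (∀ q' ∈ (q :: rest).head?, σ ≤ |R| * q'.2) → ((q :: rest).map Prod.fst).sum ≤ K →
        |R| * M.b ^ (K - ((q :: rest).map Prod.fst).sum) ≤ σ → |R| * q.2 ≤ σ / M.a →
        A * (1 - 2 ^ m0 * (1 / 2) ^ D.length * PP M (q :: rest)) - M.fail (q :: rest) ≤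
          M.E K (fun ω => ov (bits D * scale R (M.X ω)) s s) := by
      intro K R D hR hDd h1 h2 h3 h4
      simp only [List.map_cons, List.sum_cons] at h2 h3
      obtain ⟨K', rfl⟩ : ∃ K', K = q.1 + K' := ⟨K - q.1, by omega⟩
      refine use M hO hD hS hA0 hA1 hs hq.1 hr (ih hr) K' hR hDd (h1 q (by simp)) h4 (by omega) ?_
      rwa [Nat.add_sub_add_left] at h3
    have hle : ∀ R : ℝ, |R| ≤ σ → |R| * q.2 ≤ σ / M.a := fun R hR => by
      have a1 : σ ≤ σ / M.a := by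
        rw [le_div_iff₀ M.a_pos]; exact mul_le_of_le_one_right hσ.le M.a_lt_one.le
      exact (mul_le_of_le_one_right (abs_nonneg _) hq.2).trans (hR.trans a1)
    intro K
    induction K with
    | zero =>
      intro R D hR hDd h1 h2 h3
      exact hu 0 R D hR hDd h1 h2 h3 (hle R (by simpa using h3))
    | succ K ihK =>
      intro R D hR hDd h1 h2 h3
      by_cases h4 : |R| * q.2 ≤ σ / M.a
      · exact hu _ R D hR hDd h1 h2 h3 h4
      have h5 : ((q :: rest).map Prod.fst).sum ≤ K := by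
        by_contra h6
        rw [show K + 1 - ((q :: rest).map Prod.fst).sum = 0 by omega] at h3
        exact h4 (hle R (by simpa using h3))
      push Not at h4
      rw [M.E_succ]
      have h7 : ∀ θ, A * (1 - 2 ^ m0 * (1 / 2) ^ D.length * PP M (q :: rest)) -
          M.fail (q :: rest) ≤ M.E K (fun ω => ov (bits D * scale R (M.X (θ :: ω))) s s) := by
        intro θ
        refine (ihK (R * M.ρ θ) D (mul_ne_zero hR (M.ρ_ne θ)) hDd (fun q' hq' => ?_) h5 ?_).trans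
          (M.E_mono fun ω _ => ?_)
        · obtain rfl : q = q' := by simpa using hq'
          rw [div_lt_iff₀ M.a_pos] at h4
          have := mul_le_mul_of_nonneg_left (M.a_le θ) (mul_nonneg (abs_nonneg R) hq.1.le)
          rw [abs_mul]
          linarith
        · rw [show K + 1 - ((q :: rest).map Prod.fst).sum =
            (K - ((q :: rest).map Prod.fst).sum) + 1 by omega, pow_succ'] at h3
          refine le_trans ?_ h3
          rw [abs_mul, mul_assoc]
          exact mul_le_mul_of_nonneg_left (mul_le_mul_of_nonneg_right (M.le_b θ)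
            (pow_nonneg M.b_pos.le _)) (abs_nonneg _)
        · rw [M.X_cons, map_mul, scale_scale, mul_left_comm]
          exact drop hO ((M.prob θ).scale R) ((prob_bits D).mul ((M.prob_X ω).scale _)) hs
      have h8 := Finset.sum_le_sum (s := Finset.univ) fun θ _ =>
        mul_le_mul_of_nonneg_left (h7 θ) (M.w_nn θ)
      rwa [← Finset.sum_mul, M.w_sum, one_mul] at h8

end Satx

open Satx in
theorem stmtSat (hO : StmtO) (hD : StmtD) (hS : StmtS) (hT : StmtT) : StmtSat := by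
  intro M ε hε
  by_cases h1 : 1 ≤ ε
  · refine ⟨0, 0, fun tg σ K hσ _ _ _ _ => ?_⟩
    have a1 := fail_nn M tg
    have a3 : 0 ≤ (2 : ℝ) ^ (0 : ℕ) * Real.exp (-M.gain tg / 2) := by positivity
    refine le_trans ?_ (M.E_nonneg fun ω _ => (hO.1 _ _ _ (M.prob_X ω).1 (by positivity)).1)
    linarith
  push Not at h1
  have hW : 1 ≤ 4 / M.a := by
    rw [le_div_iff₀ M.a_pos]; linarith [M.a_lt_one]
  obtain ⟨l, m0, hT⟩ := hT ε (4 / M.a) hε hW
  refine ⟨l, m0, fun tg σ K hσ h2 h3 h4 h5 => ?_⟩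
  have key := main M hO hD hS (A := 1 - ε) (s := 2 ^ l * σ) (m0 := m0) (by linarith) (by linarith)
    (by positivity) hσ (fun D a b => hT σ D hσ a b) tg h2 K 1 [] one_ne_zero (by simp)
    (by simpa using h3) h4 (by simpa using h5)
  simp only [List.length_nil, pow_zero, mul_one, bits_nil, one_mul, scale_one] at key
  obtain ⟨p1, p2⟩ := PP_bd M hD tg h2
  have a1 := mul_le_mul_of_nonneg_left p2 (by positivity : (0 : ℝ) ≤ 2 ^ m0)
  have a2 : 0 ≤ ε * (2 ^ m0 * PP M tg) := by positivity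
  linarith

end Vale.Agent.P114
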