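import Vale.Agent.P114.Spec

/-! Selection of targets with large gain and small failure. -/

open MeasureTheory Set

noncomputable section

namespace Vale.Agent.P114

namespace Selx

open Classical

theorem sum_blocks (f : ℕ → ℝ) (g J : ℕ) :
    ∑ i ∈ Finset.range (J * g), f i =
      ∑ r ∈ Finset.range g, ∑ j ∈ Finset.range J, f (r + j * g) := by
  induction J with
  | zero => simp
  | succ J ih =>
    rw [Nat.succ_mul, Finset.sum_range_add, ih, ← Finset.sum_add_distrib]
    refine Finset.sum_congr rfl fun r _ => ?_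
    rw [Finset.sum_range_succ, add_comm (J * g) r]

/-- Entries of one level put in front of a list. -/
def pre (n : ℕ) (σ : ℕ → ℝ) (tg : List (ℕ × ℝ)) : ℕ → List (ℕ × ℝ)
  | 0 => (n, σ 0) :: tg
  | J + 1 => (n, σ (J + 1)) :: pre n σ tg J

theorem pre_eq (n : ℕ) (σ : ℕ → ℝ) (tg : List (ℕ × ℝ)) (J : ℕ) :
    ∃ l, pre n σ tg J = (n, σ J) :: l := by
  cases J with
  | zero => exact ⟨_, rfl⟩
  | succ J => exact ⟨_, rfl⟩

theorem mem_pre {n : ℕ} {σ : ℕ → ℝ} {tg : List (ℕ × ℝ)} {J : ℕ} {q : ℕ × ℝ}
    (h : q ∈ pre n σ tg J) : q ∈ tg ∨ ∃ j, q = (n, σ j) := by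
  induction J with
  | zero =>
    rcases List.mem_cons.1 h with h | h
    · exact Or.inr ⟨0, h⟩
    · exact Or.inl h
  | succ J ih =>
    rcases List.mem_cons.1 h with h | h
    · exact Or.inr ⟨_, h⟩
    · exact ih h

theorem gain_cons (M : Model) (q : ℕ × ℝ) (l : List (ℕ × ℝ)) :
    M.gain (q :: l) = M.E q.1 (fun ω => cont (M.X ω) q.2) + M.gain l := by
  simp [Model.gain]

theorem gain_pre (M : Model) (n : ℕ) (σ : ℕ → ℝ) (tg : List (ℕ × ℝ)) (J : ℕ) :
    M.gain (pre n σ tg J) =
      ∑ j ∈ Finset.range (J + 1), M.E n (fun ω => cont (M.X ω) (σ j)) + M.gain tg := by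
  induction J with
  | zero => rw [pre, gain_cons]; simp
  | succ J ih => rw [pre, gain_cons, ih, Finset.sum_range_succ _ (J + 1)]; ring

theorem fail_pre (M : Model) (n : ℕ) (σ : ℕ → ℝ) (tg : List (ℕ × ℝ))
    (h : ∀ j, ∀ ω : List M.T, ω.length = n → σ (j + 1) ≤ |M.R ω| * σ j) (J : ℕ) :
    M.fail (pre n σ tg J) = M.fail ((n, σ 0) :: tg) := by
  induction J with
  | zero => rfl
  | succ J ih =>
    obtain ⟨l, hl⟩ := pre_eq n σ tg J
    rw [pre, ← ih, hl, Model.fail]
    rw [M.E_congr (g := fun _ => 0) fun ω hω => if_neg (not_lt.2 (h J ω hω)), M.E_const, zero_add]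

end Selx

open Selx in
theorem stmtSel (hD : StmtD) (hV : StmtV) : StmtSel := by
  classical
  intro M δ α n1 hδ hα H
  obtain ⟨V, hV0, hV⟩ := hV M
  obtain ⟨k, hk⟩ := pow_unbounded_of_one_lt (1 / M.a) (one_lt_two (α := ℝ))
  have ha := M.a_pos
  have hg0 : 1 ≤ M.a * 2 ^ (k + 1) := by
    rw [div_lt_iff₀ ha] at hk
    rw [pow_succ]
    nlinarith [pow_pos (two_pos (α := ℝ)) k]
  have hc : ∀ (n : ℕ) (s : ℝ), 0 < s → 0 ≤ M.E n (fun ω => cont (M.X ω) s) := fun n s hs =>
    M.E_nonneg fun ω _ => (hD _ s (M.prob_X ω) hs).2.1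
  have key : ∀ (J : ℕ) (η : ℝ), 0 < η → ∃ tg : List (ℕ × ℝ), tg ≠ [] ∧
      (∀ q ∈ tg, 0 < q.2 ∧ q.2 ≤ 1) ∧ J * (α / (k + 1)) ≤ M.gain tg ∧ M.fail tg ≤ η := by
    intro J
    induction J with
    | zero =>
      intro η hη
      refine ⟨[(0, 1)], by simp, by simp, ?_, hη.le⟩
      rw [gain_cons]
      simpa [Model.gain] using hc 0 1 one_pos
    | succ J ih =>
      intro η hη
      obtain ⟨tg, hne, hsc, hgain, hfail⟩ := ih (η / 2) (half_pos hη)
      obtain ⟨q, l, rfl⟩ := List.exists_cons_of_ne_nil hne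
      have hq := (hsc q (by simp)).1
      obtain ⟨n, hn⟩ := exists_nat_ge
        (max (max (n1 : ℝ) 1) (max (-Real.log q.2 / δ) (2 * V / (δ ^ 2 * η))))
      simp only [max_le_iff] at hn
      obtain ⟨⟨h1, h2⟩, h3, h4⟩ := hn
      have hn1 : n1 ≤ n := by exact_mod_cast h1
      have hn2 : 1 ≤ n := by exact_mod_cast h2
      have hn0 : (0 : ℝ) < n := by linarith
      obtain ⟨K, hK⟩ := H n hn1
      set s := Real.exp (-((M.chi + 2 * δ) * n)) with hs
      have hs0 : 0 < s := Real.exp_pos _
      have hs1 : s ≤ 1 := by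
        rw [hs, Real.exp_le_one_iff]
        have := M.chi_pos
        have : 0 ≤ (M.chi + 2 * δ) * n := by positivity
        linarith
      set g := (k + 1) * n with hg
      have hg1 : 1 ≤ g := Nat.mul_pos (Nat.succ_pos k) hn2
      set c : ℕ → ℝ := fun i => M.E n (fun ω => cont (M.X ω) (s / 2 ^ (i + 1))) with hcdef
      have hc0 : ∀ i, 0 ≤ c i := fun i => hc n _ (by positivity)
      have e1 : M.E n (fun ω => contSum (M.X ω) s K) = ∑ i ∈ Finset.range K, c i := by
        unfold contSum
        exact M.E_sum n (Finset.range K) (fun i ω => cont (M.X ω) (s / 2 ^ (i + 1)))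
      have e2 : ∑ i ∈ Finset.range K, c i ≤ ∑ i ∈ Finset.range ((K + 1) * g), c i :=
        Finset.sum_le_sum_of_subset_of_nonneg
          (Finset.range_subset_range.2 (by nlinarith)) fun i _ _ => hc0 i
      rw [sum_blocks] at e2
      obtain ⟨r, -, hr⟩ := Finset.exists_le_of_sum_le (s := Finset.range g)
        (f := fun _ => α / (k + 1)) (g := fun r => ∑ j ∈ Finset.range (K + 1), c (r + j * g))
        ⟨0, Finset.mem_range.2 hg1⟩ (by
          refine le_trans (le_of_eq ?_) (hK.trans (e1.le.trans e2))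
          rw [Finset.sum_const, Finset.card_range, nsmul_eq_mul, hg]
          push_cast
          field_simp)
      set σ : ℕ → ℝ := fun j => s / 2 ^ (r + j * g + 1) with hσ
      have hσ0 : ∀ j, 0 < σ j := fun j => by positivity
      have hσ1 : ∀ j, σ j ≤ s := fun j =>
        div_le_self hs0.le (one_le_pow₀ one_le_two)
      refine ⟨pre n σ (q :: l) K, ?_, ?_, ?_, ?_⟩
      · obtain ⟨l', hl'⟩ := pre_eq n σ (q :: l) K
        rw [hl']; simp
      · intro p hp
        rcases mem_pre hp with hp | ⟨j, rfl⟩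
        · exact hsc p hp
        · exact ⟨hσ0 j, (hσ1 j).trans hs1⟩
      · rw [gain_pre]
        push_cast
        have : ∑ j ∈ Finset.range (K + 1), M.E n (fun ω => cont (M.X ω) (σ j)) =
            ∑ j ∈ Finset.range (K + 1), c (r + j * g) := rfl
        rw [this]
        linarith
      · rw [fail_pre M n σ _ (fun j ω hω => ?_), Model.fail]
        · have h5 : M.E n (fun ω => if |M.R ω| * q.2 < σ 0 then 1 else 0) ≤
              M.E n (fun ω => if |M.R ω| < Real.exp (-((M.chi + δ) * n)) then 1 else 0) := by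
            refine M.E_mono fun ω _ => ?_
            by_cases hb : |M.R ω| * q.2 < σ 0
            · rw [if_pos hb, if_pos]
              have h6 : Real.exp (-(δ * n)) ≤ q.2 := by
                rw [← Real.exp_log hq, Real.exp_le_exp]
                rw [div_le_iff₀ hδ] at h3
                linarith
              have h7 : s = Real.exp (-((M.chi + δ) * n)) * Real.exp (-(δ * n)) := by
                rw [hs, ← Real.exp_add]; congr 1; ring
              have h8 := mul_le_mul_of_nonneg_left h6 (abs_nonneg (M.R ω))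
              have h9 := (h8.trans_lt hb).trans_le ((hσ1 0).trans h7.le)
              exact lt_of_mul_lt_mul_right h9 (Real.exp_pos _).le
            · rw [if_neg hb]; split_ifs <;> norm_num
          have h6 := (hV n δ hδ).2.2 hn2
          have h7 : V / (δ ^ 2 * n) ≤ η / 2 := by
            rw [div_le_iff₀ (by positivity)] at h4 ⊢
            nlinarith
          exact le_trans (add_le_add (h5.trans (h6.trans h7)) hfail) (by linarith)
        · have h5 := M.pow_le_R ω
          rw [hω] at h5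
          have h6 : 1 ≤ M.a ^ n * 2 ^ g := by
            rw [hg, pow_mul, ← mul_pow]; exact one_le_pow₀ hg0
          have h7 : σ j = σ (j + 1) * 2 ^ g := by
            simp only [hσ]
            rw [show r + (j + 1) * g + 1 = r + j * g + 1 + g by ring, pow_add _ _ g]
            field_simp
          rw [h7]
          have h8 : 1 ≤ |M.R ω| * 2 ^ g :=
            h6.trans (mul_le_mul_of_nonneg_right h5 (by positivity))
          nlinarith [hσ0 (j + 1)]
  intro G η hη
  have hp : 0 < α / (k + 1) := by positivity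
  obtain ⟨J, hJ⟩ := exists_nat_ge (G / (α / (k + 1)))
  obtain ⟨tg, h1, h2, h3, h4⟩ := key J η hη
  rw [div_le_iff₀ hp] at hJ
  exact ⟨tg, h1, h2, hJ.trans h3, h4⟩

end Vale.Agent.P114
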