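import Vale.Agent.P114.Spec

/-! The self similar measure lives on `[-ts, ts]`. -/

open MeasureTheory Set Filter Topology

noncomputable section

namespace Vale.Agent.P114

namespace Suppx

/-- Far set. -/
def far (a : ℝ) : Set ℝ := {x | a < |x|}

theorem meas_far (a : ℝ) : MeasurableSet (far a) :=
  measurableSet_lt measurable_const measurable_id.abs

theorem step (M : Model) (μ : Measure ℝ) [IsProbabilityMeasure μ] (h : M.SS μ) (η : ℝ) :
    μ.real (far (M.ts + η)) ≤ μ.real (far (M.ts + η / M.b)) := by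
  rw [h _ (meas_far _)]
  calc ∑ θ, M.w θ * ev (M.ν θ)
        (fun y => μ.real ((fun x => M.ρ θ * x + y) ⁻¹' far (M.ts + η)))
      ≤ ∑ θ, M.w θ * μ.real (far (M.ts + η / M.b)) := by
        refine Finset.sum_le_sum (fun θ _ => mul_le_mul_of_nonneg_left ?_ (M.w_nn θ))
        rw [← (M.prob θ).ev_const (μ.real (far (M.ts + η / M.b)))]
        refine ev_mono_on (M.prob θ).1 (fun y hy => ?_)
        refine measureReal_mono (fun x hx => ?_)
        simp only [far, mem_preimage, mem_setOf_eq] at hx ⊢
        have h1 : |M.ρ θ * x + y| ≤ M.b * |x| + M.t := by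
          refine (abs_add_le _ _).trans (add_le_add ?_ (M.bd θ y hy))
          rw [abs_mul]
          exact mul_le_mul_of_nonneg_right (M.le_b θ) (abs_nonneg _)
        have h2 : M.b * M.ts + η < M.b * |x| := by linarith [M.ts_eq]
        have hb := M.b_pos
        have h3 : M.ts + η / M.b = (M.b * M.ts + η) / M.b := by field_simp
        rw [h3, div_lt_iff₀ hb]
        linarith
    _ = μ.real (far (M.ts + η / M.b)) := by rw [← Finset.sum_mul, M.w_sum, one_mul]

theorem iter (M : Model) (μ : Measure ℝ) [IsProbabilityMeasure μ] (h : M.SS μ) (η : ℝ) (n : ℕ) :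
    μ.real (far (M.ts + η)) ≤ μ.real (far (M.ts + η / M.b ^ n)) := by
  induction n with
  | zero => simp
  | succ n ih =>
    refine ih.trans ((step M μ h _).trans (le_of_eq ?_))
    rw [pow_succ, div_div]

theorem tendsto_far (μ : Measure ℝ) [IsProbabilityMeasure μ] :
    Tendsto (fun n : ℕ => μ (far n)) atTop (𝓝 0) := by
  have h1 : Antitone (fun n : ℕ => far n) := by
    intro a b hab x hx
    simp only [far, mem_setOf_eq] at hx ⊢
    exact lt_of_le_of_lt (by exact_mod_cast hab) hx
  have h2 := tendsto_measure_iInter_atTop (μ := μ) (s := fun n : ℕ => far n)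
    (fun n => (meas_far _).nullMeasurableSet) h1 ⟨0, measure_ne_top _ _⟩
  have h3 : (⋂ n : ℕ, far n) = ∅ := by
    ext x
    simp only [mem_iInter, far, mem_setOf_eq, mem_empty_iff_false, iff_false, not_forall, not_lt]
    exact exists_nat_ge _
  rw [h3, measure_empty] at h2
  exact h2

theorem far_zero (M : Model) (μ : Measure ℝ) [IsProbabilityMeasure μ] (h : M.SS μ) {η : ℝ}
    (hη : 0 < η) : μ (far (M.ts + η)) = 0 := by
  refine le_antisymm (ge_of_tendsto' (tendsto_far μ) (fun n => ?_)) zero_le
  obtain ⟨k, hk⟩ := exists_pow_lt_of_lt_one (x := η / (n + 1)) (by positivity) M.b_lt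
  have hb := pow_pos M.b_pos k
  have h1 : (n : ℝ) ≤ M.ts + η / M.b ^ k := by
    have : (n : ℝ) + 1 ≤ η / M.b ^ k := by
      rw [le_div_iff₀ hb]
      rw [lt_div_iff₀ (by positivity)] at hk
      linarith
    linarith [M.ts_nn]
  have h2 := iter M μ h η k
  have h3 : μ (far (M.ts + η)) ≤ μ (far (M.ts + η / M.b ^ k)) := by
    rwa [Measure.real, Measure.real,
      ENNReal.toReal_le_toReal (measure_ne_top _ _) (measure_ne_top _ _)] at h2
  refine h3.trans (measure_mono (fun x hx => ?_))
  simp only [far, mem_setOf_eq] at hx ⊢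
  exact lt_of_le_of_lt h1 hx

end Suppx

theorem stmtSupp : StmtSupp := by
  intro M μ _ h
  have h1 : (Icc (-M.ts) M.ts)ᶜ ⊆ ⋃ n : ℕ, Suppx.far (M.ts + 1 / ((n : ℝ) + 1)) := by
    intro x hx
    have hx' : M.ts < |x| := by
      by_contra hc
      exact hx (abs_le.1 (not_lt.1 hc))
    obtain ⟨n, hn⟩ := exists_nat_one_div_lt (sub_pos.2 hx')
    refine mem_iUnion.2 ⟨n, ?_⟩
    simp only [Suppx.far, mem_setOf_eq]
    linarith
  refine measure_mono_null h1 (measure_iUnion_null (fun n => ?_))
  exact Suppx.far_zero M μ h (by positivity)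

end Vale.Agent.P114
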