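import Vale.Agent.P114.Spec

/-! Long products of two point laws with comparable jumps are nearly flat. -/

open MeasureTheory Set

noncomputable section

namespace Vale.Agent.P114

namespace Tx

open Classical

theorem sum_filter_len (f : ℝ → ℕ) (N : ℕ) (D : List ℝ) (h : ∀ d ∈ D, f d < N) :
    ∑ i ∈ Finset.range N, (D.filter (fun d => f d = i)).length = D.length := by
  induction D with
  | nil => simp
  | cons d D ih =>
    have h1 : ∀ i, ((d :: D).filter (fun d => f d = i)).length =
        (D.filter (fun d => f d = i)).length + (if f d = i then 1 else 0) := by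
      intro i
      by_cases hi : f d = i
      · simp [hi]
      · simp [hi]
    simp only [h1]
    rw [Finset.sum_add_distrib, ih (fun x hx => h x (by simp [hx])), Finset.sum_ite_eq,
      if_pos (Finset.mem_range.2 (h d (by simp))), List.length_cons]

theorem bits_append (D D' : List ℝ) : bits (D ++ D') = bits D * bits D' := by
  simp [bits]

theorem bits_perm {D D' : List ℝ} (h : D.Perm D') : bits D = bits D' :=
  (h.map bit).prod_eq

theorem nrm_neg (hN : StmtN) {s : ℝ} (hs : 0 < s) (ν : L) : nrm (-ν) s = nrm ν s := by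
  have := (hN s hs).2.1 (-1) ν
  simpa using this

theorem nrm_zero (hN : StmtN) {s : ℝ} (hs : 0 < s) : nrm 0 s = 0 := by
  have := (hN s hs).2.1 0 0
  simpa using this

theorem nrm_bit (hN : StmtN) {s : ℝ} (hs : 0 < s) (d d0 : ℝ) :
    nrm (bit d - bit d0) s ≤ |d - d0| / s := by
  have e : bit d - bit d0 = (1 / 2 : ℝ) • (pt d - pt d0) := by
    unfold bit
    rw [← smul_sub]
    congr 1
    ring
  rw [e, (hN s hs).2.1]
  have := (hN s hs).2.2.2.2.1 d d0
  rw [abs_of_pos (by norm_num : (0 : ℝ) < 1 / 2)]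
  have e2 : 2 * |d - d0| / s = 2 * (|d - d0| / s) := by ring
  linarith

theorem nrm_bits (hN : StmtN) {s : ℝ} (hs : 0 < s) (d0 η : ℝ) (D : List ℝ)
    (h : ∀ d ∈ D, |d - d0| ≤ η) : nrm (bits D - bit d0 ^ D.length) s ≤ D.length * (η / s) := by
  induction D with
  | nil => simp [nrm_zero hN hs]
  | cons d D ih =>
    have e : bits (d :: D) - bit d0 ^ (d :: D).length =
        (bit d - bit d0) * bits D + (bits D - bit d0 ^ D.length) * bit d0 := by
      rw [bits_cons, List.length_cons]; ring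
    rw [e]
    have h1 := (hN s hs).1 ((bit d - bit d0) * bits D) ((bits D - bit d0 ^ D.length) * bit d0)
    have h2 := (hN s hs).2.2.1 (bit d - bit d0) _ (prob_bits D)
    have h3 := (hN s hs).2.2.1 (bits D - bit d0 ^ D.length) _ (prob_bit d0)
    have h4 := ih (fun x hx => h x (by simp [hx]))
    have h5 := nrm_bit hN hs d d0
    have h6 : |d - d0| / s ≤ η / s := div_le_div_of_nonneg_right (h d (by simp)) hs.le
    rw [List.length_cons]
    push_cast
    linarith

theorem nrm_tele (hN : StmtN) {s : ℝ} (hs : 0 < s) (d0 η : ℝ) (b : L)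
    (h : nrm ((1 - pt d0) * b) s ≤ η) (j : ℕ) : nrm ((1 - pt (j * d0)) * b) s ≤ j * η := by
  induction j with
  | zero => simp [pt_zero, nrm_zero hN hs]
  | succ j ih =>
    have e : (1 - pt (((j + 1 : ℕ) : ℝ) * d0)) * b =
        (1 - pt (j * d0)) * b + ((1 - pt d0) * b) * pt (j * d0) := by
      have : pt (((j + 1 : ℕ) : ℝ) * d0) = pt d0 * pt (j * d0) := by
        rw [pt_mul]; congr 1; push_cast; ring
      rw [this]; ring
    rw [e]
    have h1 := (hN s hs).1 ((1 - pt (j * d0)) * b) (((1 - pt d0) * b) * pt (j * d0))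
    have h2 := (hN s hs).2.2.1 ((1 - pt d0) * b) _ (prob_pt (j * d0))
    push_cast
    linarith

end Tx

open Tx in
theorem stmtT (hO : StmtO) (hN : StmtN) (hBin : StmtBin) : StmtT := by
  classical
  intro ε W hε hW
  obtain ⟨l, hl⟩ : ∃ l : ℕ, (2 + 2 * W) / ε < 2 ^ l := pow_unbounded_of_one_lt _ (by norm_num)
  set Lr : ℝ := 2 ^ l with hLr
  have hL : 0 < Lr := by positivity
  obtain ⟨m, hm⟩ := hBin (ε / Lr) (by positivity)
  set N : ℕ := ⌈W⌉₊ * (m + 1) + 1 with hNdef
  refine ⟨l, N * (m + 1), fun σ D hσ hD hlen => ?_⟩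
  have hm1 : (0 : ℝ) < (m : ℝ) + 1 := by positivity
  set f : ℝ → ℕ := fun d => ⌊(d / σ - 1) * (m + 1)⌋₊ with hf
  have hfN : ∀ d ∈ D, f d < N := by
    intro d hd
    have h1 : d / σ ≤ W := (div_le_iff₀ hσ).2 (hD d hd).2
    have h2 : W ≤ ⌈W⌉₊ := Nat.le_ceil W
    refine Nat.lt_succ_of_le ?_
    have h3 : (d / σ - 1) * (m + 1) ≤ ((⌈W⌉₊ * (m + 1) : ℕ) : ℝ) := by
      push_cast
      exact mul_le_mul_of_nonneg_right (by linarith) hm1.le
    exact Nat.floor_le_of_le h3
  have hsum := sum_filter_len f N D hfN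
  obtain ⟨i, -, hi⟩ : ∃ i ∈ Finset.range N, m + 1 ≤ (D.filter (fun d => f d = i)).length := by
    refine Finset.exists_le_of_sum_le (f := fun _ => m + 1) ⟨0, by simp [hNdef]⟩ ?_
    rw [hsum]
    simpa using hlen
  set D1 := D.filter (fun d => f d = i) with hD1
  set D' := D1.take (m + 1) with hD'
  have hlen' : D'.length = m + 1 := by rw [hD', List.length_take]; omega
  have hsplit : bits D = bits (D1.drop (m + 1) ++ D.filter (fun d => !decide (f d = i))) * bits D' := by
    rw [← bits_perm (List.filter_append_perm (fun d => decide (f d = i)) D), bits_append,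
      bits_append, ← hD1]
    conv_lhs => rw [← List.take_append_drop (m + 1) D1, bits_append]
    ring
  set d0 : ℝ := σ * (1 + i / (m + 1)) with hd0
  have hmem : ∀ d ∈ D', d ∈ D ∧ f d = i := by
    intro d hd
    have := List.mem_filter.1 (List.mem_of_mem_take hd)
    exact ⟨this.1, by simpa using this.2⟩
  have hbin : ∀ d ∈ D', d0 ≤ d ∧ d ≤ d0 + σ / (m + 1) := by
    intro d hd
    obtain ⟨h1, h2⟩ := hmem d hd
    have h0 : 0 ≤ (d / σ - 1) * (m + 1) := by
      have : 1 ≤ d / σ := (one_le_div hσ).2 (hD d h1).1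
      exact mul_nonneg (by linarith) hm1.le
    have h3 : (i : ℝ) ≤ (d / σ - 1) * (m + 1) := by rw [← h2]; exact Nat.floor_le h0
    have h4 : (d / σ - 1) * (m + 1) < i + 1 := by rw [← h2]; exact Nat.lt_floor_add_one _
    have h5 : (i : ℝ) / (m + 1) ≤ d / σ - 1 := (div_le_iff₀ hm1).2 h3
    have h6 : d / σ - 1 ≤ (i + 1) / (m + 1) := (le_div_iff₀ hm1).2 h4.le
    have e : d = σ * (d / σ) := by field_simp
    constructor
    · rw [hd0, e]; exact mul_le_mul_of_nonneg_left (by linarith) hσ.le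
    · have e2 : d0 + σ / (m + 1) = σ * (1 + (i + 1) / (m + 1)) := by rw [hd0]; ring
      rw [e2, e]; exact mul_le_mul_of_nonneg_left (by linarith) hσ.le
  have hd0σ : σ ≤ d0 := by
    rw [hd0]
    have : (0 : ℝ) ≤ i / (m + 1) := by positivity
    nlinarith
  have hd0pos : 0 < d0 := hσ.trans_le hd0σ
  have hd0W : d0 ≤ W * σ := by
    obtain ⟨d, hd⟩ : ∃ d, d ∈ D' := List.exists_mem_of_length_pos (by omega)
    exact (hbin d hd).1.trans (hD d (hmem d hd).1).2
  set S : ℝ := Lr * σ with hS
  have hSpos : 0 < S := by positivity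
  set b := bits D' with hb
  set b' := bit d0 ^ (m + 1) with hb'
  have hpb' : Prob b' := (prob_bit d0).pow _
  have h1 : nrm (b - b') S ≤ 1 / Lr := by
    have := nrm_bits hN hSpos d0 (σ / (m + 1)) D' (fun d hd => by
      rw [abs_le]; constructor
      · have : 0 ≤ σ / (m + 1) := by positivity
        linarith [(hbin d hd).1]
      · linarith [(hbin d hd).2])
    rw [hlen'] at this
    refine this.trans (le_of_eq ?_)
    rw [hS]; push_cast; field_simp
  have h2 : nrm ((1 - pt d0) * b') S ≤ ε / Lr := by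
    have e : (1 - pt d0) * b' = ((1 - pt d0) * bit d0 ^ m) * bit d0 := by rw [hb']; ring
    rw [e]
    exact ((hN S hSpos).2.2.1 _ _ (prob_bit d0)).trans (hm d0 S hSpos)
  set j : ℕ := ⌊S / d0⌋₊ with hj
  have hj1 : (j : ℝ) ≤ S / d0 := Nat.floor_le (by positivity)
  have hj2 : S / d0 < j + 1 := Nat.lt_floor_add_one _
  have hjL : (j : ℝ) ≤ Lr := by
    refine hj1.trans ((div_le_iff₀ hd0pos).2 ?_)
    rw [hS]; exact mul_le_mul_of_nonneg_left hd0σ hL.le
  have h3 : nrm ((1 - pt (j * d0)) * b') S ≤ ε := by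
    refine (nrm_tele hN hSpos d0 _ b' h2 j).trans ?_
    have := mul_le_mul_of_nonneg_right hjL (show 0 ≤ ε / Lr by positivity)
    refine this.trans (le_of_eq ?_)
    field_simp
  have h4 : nrm ((pt (j * d0) - pt S) * b') S ≤ 2 * W / Lr := by
    refine ((hN S hSpos).2.2.1 _ _ hpb').trans (((hN S hSpos).2.2.2.2.1 _ _).trans ?_)
    have h5 : |j * d0 - S| ≤ W * σ := by
      have a1 := (le_div_iff₀ hd0pos).1 hj1
      have a2 := (div_lt_iff₀ hd0pos).1 hj2
      rw [abs_le]; constructor
      · nlinarith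
      · nlinarith
    have h6 : 2 * |j * d0 - S| / S ≤ 2 * (W * σ) / S :=
      div_le_div_of_nonneg_right (by linarith) hSpos.le
    refine h6.trans (le_of_eq ?_)
    rw [hS]; field_simp
  have h5 : nrm ((1 - pt S) * b) S ≤ 2 * ε := by
    have e : (1 - pt S) * b = ((b - b') + -((b - b') * pt S)) +
        ((1 - pt (j * d0)) * b' + (pt (j * d0) - pt S) * b') := by ring
    rw [e]
    have a1 := (hN S hSpos).1 ((b - b') + -((b - b') * pt S))
      ((1 - pt (j * d0)) * b' + (pt (j * d0) - pt S) * b')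
    have a2 := (hN S hSpos).1 (b - b') (-((b - b') * pt S))
    have a3 := (hN S hSpos).1 ((1 - pt (j * d0)) * b') ((pt (j * d0) - pt S) * b')
    have a4 := nrm_neg hN hSpos ((b - b') * pt S)
    have a5 := (hN S hSpos).2.2.1 (b - b') _ (prob_pt S)
    have a6 : (2 + 2 * W) / Lr ≤ ε := by
      rw [div_le_iff₀ hL]
      have := (div_lt_iff₀ hε).1 hl
      linarith
    have a7 : (2 + 2 * W) / Lr = 1 / Lr + 1 / Lr + 2 * W / Lr := by ring
    linarith
  have h6 := (hN S hSpos).2.2.2.2.2 b (prob_bits D')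
  have h7 := hO.2.2.2.2.1 (bits (D1.drop (m + 1) ++ D.filter (fun d => !decide (f d = i)))) b S S
    (prob_bits _).1 (prob_bits _).1 hSpos
  rw [(prob_bits _).2, one_mul, ← hsplit] at h7
  linarith

end Vale.Agent.P114
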