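import Vale.Agent.P114.W

/-! The upper bound. -/

open MeasureTheory Set Filter Topology Metric
open scoped ENNReal

noncomputable section

namespace Vale.Agent.P114

open Classical Wx

namespace UBx

lemma dimM_le {μ : Measure ℝ} {E : Set ℝ} (hE : MeasurableSet E) (h : 0 < μ E) :
    dimM μ ≤ dimH E :=
  iInf_le_of_le E (iInf_le_of_le hE (iInf_le _ h))

lemma exists_theta {ι : Type} [Fintype ι] {q g : ι → ℝ} (hq : ∀ i, 0 ≤ q i) (hs : ∑ i, q i = 1)
    (hg : ∑ i, q i * g i < 0) : ∃ θ : ℝ, 0 < θ ∧ ∑ i, q i * Real.exp (θ * g i) < 1 := by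
  set B : ℝ := ∑ i, |g i| + 1 with hB
  have hB1 : ∀ i, |g i| ≤ B := fun i =>
    (Finset.single_le_sum (f := fun i => |g i|) (fun _ _ => abs_nonneg _)
      (Finset.mem_univ i)).trans (by linarith)
  have hB0 : 0 < B := by
    have : 0 ≤ ∑ i, |g i| := Finset.sum_nonneg fun _ _ => abs_nonneg _
    linarith
  set γ : ℝ := -∑ i, q i * g i with hγ
  have hγ0 : 0 < γ := by linarith
  set θ : ℝ := min (1 / B) (γ / (2 * B ^ 2)) with hθ
  have hθ0 : 0 < θ := lt_min (by positivity) (by positivity)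
  have h1 : θ * B ≤ 1 := by
    have := min_le_left (1 / B) (γ / (2 * B ^ 2))
    rwa [← hθ, le_div_iff₀ hB0] at this
  have h2 : θ * (2 * B ^ 2) ≤ γ := by
    have := min_le_right (1 / B) (γ / (2 * B ^ 2))
    rwa [← hθ, le_div_iff₀ (by positivity)] at this
  refine ⟨θ, hθ0, ?_⟩
  have pt : ∀ i, Real.exp (θ * g i) ≤ 1 + θ * g i + θ ^ 2 * B ^ 2 := by
    intro i
    have ha : |θ * g i| ≤ θ * B := by
      rw [abs_mul, abs_of_pos hθ0]; gcongr; exact hB1 i
    have := Real.abs_exp_sub_one_sub_id_le (ha.trans h1)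
    have h3 : (θ * g i) ^ 2 ≤ (θ * B) ^ 2 := by
      rw [← sq_abs]; gcongr
    linarith [le_abs_self (Real.exp (θ * g i) - 1 - θ * g i), mul_pow θ B 2]
  calc ∑ i, q i * Real.exp (θ * g i) ≤ ∑ i, q i * (1 + θ * g i + θ ^ 2 * B ^ 2) :=
        Finset.sum_le_sum fun i _ => mul_le_mul_of_nonneg_left (pt i) (hq i)
    _ = 1 - θ * γ + θ ^ 2 * B ^ 2 := by
        simp only [mul_add, Finset.sum_add_distrib, mul_one]
        rw [← Finset.sum_mul, hs, hγ, mul_neg, Finset.mul_sum]
        simp only [mul_left_comm θ]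
        ring
    _ < 1 := by nlinarith

/-- covering bound for an abstract system -/
lemma ub0 {ι : Type} [Fintype ι] {q r t : ι → ℝ} {μ : Measure ℝ} [IsProbabilityMeasure μ]
    (hq : ∀ i, 0 < q i) (hs : ∑ i, q i = 1) (h0 : ∀ i, r i ≠ 0) (h1 : ∀ i, |r i| < 1)
    (h : RSS q r t μ) {R : ℝ} (hR : 0 < R) (hK : μ {x | R < |x|} = 0) {α : ℝ} (hα : 0 < α)
    (hlt : ∑ i, Real.negMulLog (q i) < α * -∑ i, q i * Real.log |r i|) :
    dimM μ ≤ ENNReal.ofReal α := by
  obtain ⟨c, ρ, hc, hcρ, hρ, hb⟩ := Cut.bounds h0 h1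
  have hρ0 : 0 < ρ := hc.trans_le hcρ
  set g : ι → ℝ := fun i => α * Real.log |r i| - Real.log (q i) with hg
  obtain ⟨θ, hθ, hf⟩ := exists_theta (g := g) (fun i => (hq i).le) hs (by
    have : ∑ i, q i * g i = ∑ i, Real.negMulLog (q i) + α * ∑ i, q i * Real.log |r i| := by
      rw [Finset.mul_sum, ← Finset.sum_add_distrib]
      refine Finset.sum_congr rfl fun i _ => ?_
      rw [hg, Real.negMulLog]; ring
    linarith)
  set f := ∑ i, q i * Real.exp (θ * g i) with hfd
  have hf0 : 0 ≤ f := Finset.sum_nonneg fun i _ => mul_nonneg (hq i).le (Real.exp_pos _).le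
  set C : ∀ m : ℕ, (Fin m → ι) → Set ℝ := fun m W => if ∑ k, g (W k) ≤ 0 then
    closedBall (tr r t (List.ofFn W)) (R * |sl r (List.ofFn W)|) else ∅ with hC
  have hCm : ∀ m, MeasurableSet (⋃ W, C m W) := fun m =>
    MeasurableSet.iUnion fun W => by
      rw [hC]; simp only
      split_ifs
      · exact measurableSet_closedBall
      · exact MeasurableSet.empty
  have bad : ∀ m, μ (⋃ W, C m W)ᶜ ≤ ENNReal.ofReal f ^ m := by
    intro m
    rw [← ofReal_measureReal (measure_ne_top _ _), ← ENNReal.ofReal_pow hf0]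
    refine ENNReal.ofReal_le_ofReal ?_
    rw [h.iter m (hCm m).compl, EW_eq_sum, hfd, Fintype.sum_pow]
    refine Finset.sum_le_sum fun W _ => ?_
    rw [Finset.prod_mul_distrib, ← Real.exp_sum, ← Finset.mul_sum]
    refine mul_le_mul_of_nonneg_left ?_ (Finset.prod_nonneg fun k _ => (hq _).le)
    by_cases hW : ∑ k, g (W k) ≤ 0
    · refine le_trans (le_of_eq ?_) (Real.exp_pos _).le
      rw [measureReal_eq_zero_iff (measure_ne_top _ _)]
      refine measure_mono_null (fun x hx => ?_) hK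
      by_contra hx'
      refine hx (mem_iUnion.2 ⟨W, ?_⟩)
      rw [hC]; simp only
      rw [if_pos hW, mem_closedBall, Real.dist_eq, add_sub_cancel_right, abs_mul, mul_comm]
      simp only [mem_ofPred_eq, not_lt] at hx'
      gcongr
    · exact measureReal_le_one.trans (Real.one_le_exp (mul_nonneg hθ.le (not_le.1 hW).le))
  have hsum : ∑' m : ℕ, μ (⋃ W, C m W)ᶜ ≠ ∞ := by
    refine ne_top_of_le_ne_top ?_ (ENNReal.tsum_le_tsum bad)
    rw [ENNReal.tsum_geometric]
    exact ENNReal.inv_ne_top.2 (tsub_pos_of_lt (ENNReal.ofReal_lt_one.2 hf)).ne'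
  set F : ℕ → Set ℝ := fun M => ⋂ m, ⋂ (_ : M ≤ m), ⋃ W, C m W with hF
  have hFm : ∀ M, MeasurableSet (F M) := fun M =>
    MeasurableSet.iInter fun m => MeasurableSet.iInter fun _ => hCm m
  obtain ⟨M, hM⟩ : ∃ M, μ (F M) ≠ 0 := by
    by_contra hne
    push Not at hne
    have e1 : μ (⋃ M, F M) = 0 := measure_iUnion_null hne
    have e2 : μ univ ≤ μ (⋃ M, F M) := by
      refine measure_mono_ae ?_
      filter_upwards [ae_eventually_notMem hsum] with y hy _
      obtain ⟨M, hM⟩ := eventually_atTop.1 hy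
      exact mem_iUnion.2 ⟨M, mem_iInter₂.2 fun m hm => not_not.1 (hM m hm)⟩
    rw [e1, measure_univ] at e2
    simp at e2
  refine (dimM_le (hFm M) (pos_iff_ne_zero.2 hM)).trans ?_
  have hsl : ∀ m (W : Fin m → ι), |sl r (List.ofFn W)| = ∏ k, |r (W k)| := fun m W => by
    rw [sl_ofFn, Finset.abs_prod]
  have hd : ∀ m (W : Fin m → ι), ediam (C m W) ≤ ENNReal.ofReal (2 * R * |sl r (List.ofFn W)|) := by
    intro m W
    rw [hC]; simp only
    split_ifs
    · rw [Real.closedBall_eq_Icc, Real.ediam_Icc]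
      exact le_of_eq (by congr 1; ring)
    · simp
  have hH := Measure.hausdorffMeasure_le_liminf_sum α (F M) (l := atTop)
    (fun m : ℕ => ENNReal.ofReal (2 * R * ρ ^ m)) (by
      have := ENNReal.tendsto_ofReal ((tendsto_pow_atTop_nhds_zero_of_lt_one hρ0.le hρ).const_mul
        (2 * R))
      simpa using this) C
    (Eventually.of_forall fun m W => (hd m W).trans (ENNReal.ofReal_le_ofReal (by
      rw [hsl]
      gcongr
      calc ∏ k, |r (W k)| ≤ ∏ _k : Fin m, ρ :=
            Finset.prod_le_prod (fun _ _ => abs_nonneg _) fun k _ => (hb _).2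
        _ = ρ ^ m := by simp)))
    (eventually_atTop.2 ⟨M, fun m hm => iInter₂_subset m hm⟩)
  have hS : ∀ m, ∑ W, ediam (C m W) ^ α ≤ ENNReal.ofReal ((2 * R) ^ α) := by
    intro m
    calc ∑ W, ediam (C m W) ^ α ≤ ∑ W : Fin m → ι,
          ENNReal.ofReal ((2 * R) ^ α * ∏ k, q (W k)) := by
          refine Finset.sum_le_sum fun W _ => ?_
          by_cases hW : ∑ k, g (W k) ≤ 0
          · refine (ENNReal.rpow_le_rpow (hd m W) hα.le).trans ?_
            rw [ENNReal.ofReal_rpow_of_nonneg (by positivity) hα.le,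
              Real.mul_rpow (by positivity) (abs_nonneg _)]
            refine ENNReal.ofReal_le_ofReal ?_
            gcongr
            have hp1 : 0 < ∏ k, |r (W k)| := Finset.prod_pos fun k _ => abs_pos.2 (h0 _)
            have hp2 : 0 < ∏ k, q (W k) := Finset.prod_pos fun k _ => hq _
            rw [hsl, Real.rpow_le_iff_le_log hp1 hp2, Real.log_prod fun k _ => (hq _).ne',
              Real.log_prod fun k _ => abs_ne_zero.2 (h0 _), Finset.mul_sum]
            simp only [hg, Finset.sum_sub_distrib] at hW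
            linarith
          · rw [hC]; simp only
            rw [if_neg hW, ediam_empty, ENNReal.zero_rpow_of_pos hα]
            exact zero_le
      _ = _ := by
          rw [← ENNReal.ofReal_sum_of_nonneg fun W _ => mul_nonneg (by positivity)
            (Finset.prod_nonneg fun k _ => (hq _).le), ← Finset.mul_sum, sum_prod_p hs, mul_one]
  have hne : μH[α] (F M) ≠ ∞ :=
    ne_top_of_le_ne_top ENNReal.ofReal_ne_top
      (hH.trans (liminf_le_of_frequently_le' (Frequently.of_forall hS)))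
  have := dimH_le_of_hausdorffMeasure_ne_top (d := ⟨α, hα.le⟩) hne
  rwa [ENNReal.ofReal_eq_coe_nnreal hα.le]

lemma level {Λ : Type} [Fintype Λ] {p r t : Λ → ℝ} {μ : Measure ℝ} (h : Sys p r t μ) (n : ℕ)
    {α : ℝ} (hα : 0 < α) (hlt : entropyG p r t (n + 1) < α * ((n + 1 : ℕ) * lyap p r)) :
    dimM μ ≤ ENNReal.ofReal α := by
  have := h.prob
  have hp : ∀ i, 0 ≤ p i := fun i => (h.p_pos i).le
  have hr : ∀ i, r i ≠ 0 := fun i => abs_pos.1 (h.r_pos i)
  obtain ⟨R, hR, hK⟩ := Cut.support (μ := μ) hr h.r_lt hp h.p_sum h.ss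
  set I := Finset.univ.image (fun w : Fin (n + 1) → Λ => wordMap r t (List.ofFn w)) with hI
  have hkey : ∀ F : ℝ → ℝ → ℝ, EW p (n + 1) (fun w => F (sl r w) (tr r t w)) =
      ∑ g : {g // g ∈ I}, lawG p r t (n + 1) g.1 * F (g.1 1 - g.1 0) (g.1 0) := by
    intro F
    rw [EW_eq_sum]
    simp only [lawG, Finset.sum_mul]
    rw [Finset.sum_comm]
    refine Finset.sum_congr rfl fun u _ => ?_
    rw [Finset.sum_eq_single (⟨wordMap r t (List.ofFn u),
      Finset.mem_image_of_mem _ (Finset.mem_univ u)⟩ : {g // g ∈ I})]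
    · simp [wordMap_eq]
    · intro θ _ hθ
      rw [if_neg fun h => hθ (Subtype.ext h.symm), zero_mul]
    · intro h; exact absurd (Finset.mem_univ _) h
  have hrep : ∀ g : {g // g ∈ I}, ∃ u : Fin (n + 1) → Λ, wordMap r t (List.ofFn u) = g.1 ∧
      g.1 1 - g.1 0 = ∏ k, r (u k) := by
    intro g
    obtain ⟨u, -, hu⟩ := Finset.mem_image.1 g.2
    refine ⟨u, hu, ?_⟩
    rw [← hu, wordMap_eq, ← sl_ofFn]; simp
  refine ub0 (ι := {g // g ∈ I}) (q := fun g => lawG p r t (n + 1) g.1)
    (r := fun g => g.1 1 - g.1 0) (t := fun g => g.1 0) (fun g => ?_) ?_ (fun g => ?_)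
    (fun g => ?_) (fun U hU => ?_) hR hK hα ?_
  · obtain ⟨u, hu, -⟩ := hrep g
    refine Finset.sum_pos' (fun v _ => ?_) ⟨u, Finset.mem_univ _, ?_⟩
    · split_ifs
      · exact Finset.prod_nonneg fun k _ => hp _
      · exact le_rfl
    · rw [if_pos hu]; exact Finset.prod_pos fun k _ => h.p_pos _
  · have := hkey (fun _ _ => 1)
    rw [EW_eq_sum] at this
    simp only [mul_one, sum_prod_p h.p_sum] at this
    exact this.symm
  · obtain ⟨u, -, hu⟩ := hrep g
    rw [hu]; exact Finset.prod_ne_zero_iff.2 fun k _ => hr _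
  · obtain ⟨u, -, hu⟩ := hrep g
    rw [hu, Finset.abs_prod, Fin.prod_univ_succ]
    exact mul_lt_one_of_nonneg_of_lt_one_left (abs_nonneg _) (h.r_lt _)
      (Finset.prod_le_one (fun _ _ => abs_nonneg _) fun k _ => (h.r_lt _).le)
  · rw [(rss_of_sys h).iter (n + 1) hU, hkey (fun a b => μ.real ((fun x => a * x + b) ⁻¹' U))]
  · rw [← hkey (fun a _ => Real.log |a|), EW_log h.p_sum hr,
      Finset.sum_coe_sort I (fun g => Real.negMulLog (lawG p r t (n + 1) g)), ← entropyG_eq]
    have e := lyap_eq p r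
    have := mul_lt_mul_of_pos_right hlt (Real.log_pos one_lt_two)
    calc _ < _ := this
      _ = α * ((n + 1 : ℕ) * (lyap p r * Real.log 2)) := by ring
      _ = _ := by rw [e]; ring

end UBx

open UBx

theorem stmtUB : StmtUB := by
  intro Λ _ p r t μ h
  have := h.prob
  have hp : ∀ i, 0 ≤ p i := fun i => (h.p_pos i).le
  have hχ := lyap_pos h
  have h0 := hRW_nn hp h.p_sum r t
  rcases le_total 1 (hRW p r t / lyap p r) with h1 | h1
  · rw [min_eq_left h1, ENNReal.ofReal_one]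
    exact (dimM_le MeasurableSet.univ (by simp)).trans Real.dimH_univ.le
  · rw [min_eq_right h1]
    refine ENNReal.le_of_forall_pos_le_add fun ε hε _ => ?_
    have hε' : (0:ℝ) < ε := hε
    have hq : 0 ≤ hRW p r t / lyap p r := div_nonneg h0 hχ.le
    have hlt : hRW p r t < (hRW p r t / lyap p r + ε) * lyap p r := by
      rw [add_mul, div_mul_cancel₀ _ hχ.ne']
      linarith [mul_pos hε' hχ]
    obtain ⟨n, hn⟩ := exists_lt_of_ciInf_lt hlt
    rw [div_lt_iff₀ (by positivity)] at hn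
    have := level h n (α := hRW p r t / lyap p r + ε) (by linarith) (by linarith)
    rwa [ENNReal.ofReal_add hq hε'.le, ENNReal.ofReal_coe_nnreal] at this

end Vale.Agent.P114
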