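import Vale.Agent.P114.Spec

open Finset

namespace Vale.Agent.P114

namespace Vx

variable (M : Model)

/-- centred logarithm of the slope -/
noncomputable def S (ω : List M.T) : ℝ := Real.log |M.R ω| + ω.length * M.chi

theorem S_cons (θ : M.T) (ω : List M.T) :
    S M (θ :: ω) = (Real.log |M.ρ θ| + M.chi) + S M ω := by
  rw [S, S, M.R_cons, abs_mul, Real.log_mul (abs_pos.2 (M.ρ_ne θ)).ne' (M.R_pos ω).ne',
    List.length_cons]
  push_cast; ring

theorem cen : ∑ θ, M.w θ * (Real.log |M.ρ θ| + M.chi) = 0 := by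
  simp only [mul_add, sum_add_distrib, ← sum_mul, M.w_sum, Model.chi]; ring

theorem E1 : ∀ n, M.E n (S M) = 0
  | 0 => by simp [S]
  | n + 1 => by
    rw [M.E_succ]
    simp only [S_cons, M.E_add, M.E_const]
    rw [show M.E n (fun ω => S M ω) = 0 from E1 n]
    simpa using cen M

theorem E2 : ∀ n, M.E n (fun ω => S M ω ^ 2) = n * ∑ θ, M.w θ * (Real.log |M.ρ θ| + M.chi) ^ 2
  | 0 => by simp [S]
  | n + 1 => by
    rw [M.E_succ]
    simp only [S_cons, add_sq, M.E_add, M.E_const, M.E_mul, E2 n]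
    rw [show M.E n (fun ω => S M ω) = 0 from E1 M n]
    simp only [mul_zero, add_zero, mul_add, sum_add_distrib, ← sum_mul, M.w_sum]
    push_cast; ring

end Vx

theorem stmtV : StmtV := by
  intro M
  set V := ∑ θ, M.w θ * (Real.log |M.ρ θ| + M.chi) ^ 2 with hV
  have V0 : 0 ≤ V := sum_nonneg fun θ _ => mul_nonneg (M.w_nn θ) (sq_nonneg _)
  refine ⟨V, V0, fun n δ hδ => ⟨?_, ?_, fun hn => ?_⟩⟩
  · have h1 := M.E_congr (n := n) (f := fun ω => Real.log |M.R ω|)
      (g := fun ω => Vx.S M ω - n * M.chi) fun ω hω => by simp [Vx.S, hω]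
    rw [h1, M.E_sub, M.E_const, Vx.E1]; ring
  · rcases Nat.eq_zero_or_pos n with rfl | hn
    · simp only [Model.E_zero, Model.R_nil, abs_one, Real.log_one, Nat.cast_zero, zero_mul,
        add_zero, abs_zero, mul_zero, zero_add]
      positivity
    have hn' : (0 : ℝ) < δ * n := by positivity
    refine (M.E_mono (g := fun ω => δ * n + (δ * n)⁻¹ * Vx.S M ω ^ 2) fun ω hω => ?_).trans ?_
    · rw [Vx.S, hω, ← sq_abs]
      generalize |Real.log |M.R ω| + n * M.chi| = x
      rw [inv_mul_eq_div, ← sub_le_iff_le_add', le_div_iff₀ hn']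
      nlinarith [sq_nonneg (x - δ * n), sq_nonneg x]
    · rw [M.E_add, M.E_const, M.E_mul, Vx.E2, ← hV]
      refine le_of_eq ?_
      field_simp
  · have hn' : (0 : ℝ) < δ * n := by positivity
    refine (M.E_mono (g := fun ω => ((δ * n) ^ 2)⁻¹ * Vx.S M ω ^ 2) fun ω hω => ?_).trans ?_
    · split_ifs with h
      · have h1 := (Real.log_lt_iff_lt_exp (M.R_pos ω)).2 h
        rw [inv_mul_eq_div, le_div_iff₀ (by positivity), one_mul, Vx.S, hω]
        nlinarith
      · positivity
    · rw [M.E_mul, Vx.E2, ← hV]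
      refine le_of_eq ?_
      field_simp

end Vale.Agent.P114
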