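import Vale.Agent.P114.A
import Vale.Agent.P114.B
import Vale.Agent.P114.O
import Vale.Agent.P114.D
import Vale.Agent.P114.S
import Vale.Agent.P114.N
import Vale.Agent.P114.Bin
import Vale.Agent.P114.T
import Vale.Agent.P114.K
import Vale.Agent.P114.C1
import Vale.Agent.P114.C2
import Vale.Agent.P114.F
import Vale.Agent.P114.Sat
import Vale.Agent.P114.V
import Vale.Agent.P114.Sel
import Vale.Agent.P114.Cmp
import Vale.Agent.P114.One
import Vale.Agent.P114.Ent
import Vale.Agent.P114.Q
import Vale.Agent.P114.L1
import Vale.Agent.P114.L2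
import Vale.Agent.P114.Supp
import Vale.Agent.P114.Cov
import Vale.Agent.P114.MDP
import Vale.Agent.P114.LB
import Vale.Agent.P114.Red
import Vale.Agent.P114.UB
import Vale.Agent.P114.Main

namespace Vale.Agent.P114

theorem mainAll : StmtMain := by
  have hA := stmtA
  have hB := stmtB
  have hO := stmtO
  have hD := stmtD hO
  have hS := stmtS hO
  have hN := stmtN
  have hBin := stmtBin hN
  have hT := stmtT hO hN hBin
  have hK := stmtK hO hD hS hT
  have hC1 := stmtC1
  have hC2 := stmtC2 hA hB hO hD hK hC1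
  have hF := stmtF hA hB hO hD hC2
  have hSat := stmtSat hO hD hS hT
  have hV := stmtV
  have hSel := stmtSel hD hV
  have hCmp := stmtCmp
  have hOne := stmtOne hA hB hSat hCmp hV
  have hEnt := stmtEnt hF hV hSel hCmp hOne
  have hLB := stmtLB hEnt (stmtL1 stmtQ) (stmtL2 hV) (stmtCov stmtSupp) stmtMDP
  exact stmtMain hLB stmtRed stmtUB

end Vale.Agent.P114
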