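import Mathlib

/-! Finitely supported laws on the line, sliding windows, and the block model. -/

open MeasureTheory Set

noncomputable section

namespace Vale.Agent.P114

open Classical

/-- Finitely supported signed measures on the line; the product is convolution. -/
abbrev L := AddMonoidAlgebra ℝ ℝ

/-- Integral of `f` against `ν`. -/
def ev (ν : L) (f : ℝ → ℝ) : ℝ := ∑ y ∈ ν.coeff.support, ν.coeff y * f y

/-- Point mass. -/
def pt (y : ℝ) : L := AddMonoidAlgebra.single y 1

def NN (ν : L) : Prop := ∀ y, 0 ≤ ν.coeff y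

def mass (ν : L) : ℝ := ev ν (fun _ => 1)

def Prob (ν : L) : Prop := NN ν ∧ mass ν = 1

/-- Support inside `[-β, β]`. -/
def Bd (ν : L) (β : ℝ) : Prop := ∀ y ∈ ν.coeff.support, |y| ≤ β

/-- Number of atoms. -/
def cardS (ν : L) : ℕ := ν.coeff.support.card

/-- Push forward by `x ↦ R x`. -/
def scale (R : ℝ) : L →+* L :=
  AddMonoidAlgebra.mapDomainRingHom ℝ (AddMonoidHom.mulLeft R)

/-- Fair two point law on `0, d`. -/
def bit (d : ℝ) : L := (1 / 2 : ℝ) • (1 + pt d)

def bits (D : List ℝ) : L := (D.map bit).prod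

/-- Mass of the window `(x - s, x]`. -/
def win (ν : L) (s x : ℝ) : ℝ := ev ν (fun y => if x - s < y ∧ y ≤ x then 1 else 0)

/-- Mass of the closed ball. -/
def bm (ν : L) (y r : ℝ) : ℝ := ev ν (fun z => if |z - y| ≤ r then 1 else 0)

/-- Shannon entropy (natural logarithm). -/
def ent (ν : L) : ℝ := ∑ y ∈ ν.coeff.support, Real.negMulLog (ν.coeff y)

/-- Entropy at scale `s`. -/
def Hs (ν : L) (s : ℝ) : ℝ := (∫ x, Real.negMulLog (win ν s x)) / s

/-- Overlap of the window function with its shift by `e`. -/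
def ov (ν : L) (s e : ℝ) : ℝ := (∫ x, min (win ν s x) (win ν s (x - e))) / s

/-- Content at scale `s`. -/
def cont (ν : L) (s : ℝ) : ℝ := (ov ν s (2 * s) + ov ν s (3 * s)) / 2

/-- Partial sums of contents below the scale `s`. -/
def contSum (ν : L) (s : ℝ) (K : ℕ) : ℝ := ∑ i ∈ Finset.range K, cont ν (s / 2 ^ (i + 1))

/-- Ball entropy. -/
def HB (ν : L) (r : ℝ) : ℝ := ev ν (fun y => -Real.log (bm ν y r))

/-- Ball moment. -/
def PB (θ : ℝ) (ν : L) (r : ℝ) : ℝ := ev ν (fun y => bm ν y r ^ θ)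

/-- Window moment. -/
def QW (θ : ℝ) (ν : L) (s : ℝ) : ℝ := (∫ x, win ν s x ^ (1 + θ)) / s

/-- `ν` contains two point laws with jumps in `[lo, hi]` of total mass `c`. -/
def Dec (ν : L) (lo hi c : ℝ) : Prop :=
  ∃ (S : Finset (ℝ × ℝ)) (κ : ℝ × ℝ → ℝ) (rest : L), NN rest ∧ (∀ q ∈ S, 0 ≤ κ q) ∧
    (∀ q ∈ S, lo ≤ q.2 ∧ q.2 ≤ hi) ∧ (∑ q ∈ S, κ q) = c ∧
    ν = rest + ∑ q ∈ S, κ q • (pt q.1 * bit q.2)

/-! ### API for `ev` -/

theorem ev_eq_sum (ν : L) (f : ℝ → ℝ) : ev ν f = ν.coeff.sum (fun y w => w * f y) := rfl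

theorem ev_eq_of_subset (ν : L) (f : ℝ → ℝ) {S : Finset ℝ} (h : ν.coeff.support ⊆ S) :
    ev ν f = ∑ y ∈ S, ν.coeff y * f y := by
  unfold ev
  refine Finset.sum_subset h (fun y _ hy => ?_)
  rw [Finsupp.notMem_support_iff.1 hy, zero_mul]

@[simp] theorem ev_zero (f : ℝ → ℝ) : ev 0 f = 0 := by simp [ev]

theorem ev_add (ν ν' : L) (f : ℝ → ℝ) : ev (ν + ν') f = ev ν f + ev ν' f := by
  rw [ev_eq_sum, ev_eq_sum, ev_eq_sum, AddMonoidAlgebra.coeff_add]
  exact Finsupp.sum_add_index' (by simp) (fun a b c => by ring)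

theorem ev_smul (c : ℝ) (ν : L) (f : ℝ → ℝ) : ev (c • ν) f = c * ev ν f := by
  rw [ev_eq_of_subset (c • ν) f (S := ν.coeff.support) Finsupp.support_smul, ev, Finset.mul_sum]
  refine Finset.sum_congr rfl (fun y _ => ?_)
  simp [mul_assoc]

theorem ev_neg (ν : L) (f : ℝ → ℝ) : ev (-ν) f = -ev ν f := by
  have := ev_smul (-1) ν f
  simpa using this

theorem ev_sub (ν ν' : L) (f : ℝ → ℝ) : ev (ν - ν') f = ev ν f - ev ν' f := by
  rw [sub_eq_add_neg, ev_add, ev_neg]; ring

theorem ev_sum {ι : Type*} (S : Finset ι) (ν : ι → L) (f : ℝ → ℝ) :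
    ev (∑ i ∈ S, ν i) f = ∑ i ∈ S, ev (ν i) f := by
  induction S using Finset.induction_on with
  | empty => simp
  | insert a S ha ih => rw [Finset.sum_insert ha, Finset.sum_insert ha, ev_add, ih]

@[simp] theorem ev_single (y w : ℝ) (f : ℝ → ℝ) :
    ev (AddMonoidAlgebra.single y w) f = w * f y := by
  rw [ev_eq_sum, AddMonoidAlgebra.coeff_single]
  exact Finsupp.sum_single_index (by simp)

@[simp] theorem ev_pt (y : ℝ) (f : ℝ → ℝ) : ev (pt y) f = f y := by simp [pt]

theorem pt_zero : pt 0 = 1 := rfl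

@[simp] theorem ev_one (f : ℝ → ℝ) : ev 1 f = f 0 := by rw [← pt_zero, ev_pt]

theorem pt_mul (y z : ℝ) : pt y * pt z = pt (y + z) := by
  simp [pt, AddMonoidAlgebra.single_mul_single]

theorem ev_fun_add (ν : L) (f g : ℝ → ℝ) : ev ν (fun y => f y + g y) = ev ν f + ev ν g := by
  simp [ev, mul_add, Finset.sum_add_distrib]

theorem ev_fun_sub (ν : L) (f g : ℝ → ℝ) : ev ν (fun y => f y - g y) = ev ν f - ev ν g := by
  simp [ev, mul_sub, Finset.sum_sub_distrib]

theorem ev_fun_mul (ν : L) (c : ℝ) (f : ℝ → ℝ) : ev ν (fun y => c * f y) = c * ev ν f := by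
  simp only [ev, Finset.mul_sum]
  exact Finset.sum_congr rfl (fun y _ => by ring)

theorem ev_const (ν : L) (c : ℝ) : ev ν (fun _ => c) = c * mass ν := by
  have := ev_fun_mul ν c (fun _ => 1)
  simpa [mass] using this

theorem ev_fun_sum {ι : Type*} (ν : L) (S : Finset ι) (f : ι → ℝ → ℝ) :
    ev ν (fun y => ∑ i ∈ S, f i y) = ∑ i ∈ S, ev ν (f i) := by
  simp only [ev, Finset.mul_sum]
  exact Finset.sum_comm

theorem ev_mul (ν ν' : L) (f : ℝ → ℝ) :
    ev (ν * ν') f = ev ν (fun y => ev ν' (fun z => f (y + z))) := by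
  induction ν using AddMonoidAlgebra.induction_linear with
  | zero => simp
  | add a b ha hb => rw [add_mul, ev_add, ev_add, ha, hb]
  | single y w =>
    induction ν' using AddMonoidAlgebra.induction_linear with
    | zero => simp
    | add a b ha hb =>
      rw [mul_add, ev_add, ha, hb, ← ev_fun_add]
      simp only [ev_add]
    | single z v => simp [AddMonoidAlgebra.single_mul_single, mul_assoc]

theorem scale_single (R y w : ℝ) :
    scale R (AddMonoidAlgebra.single y w) = AddMonoidAlgebra.single (R * y) w := by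
  simp [scale]

theorem scale_pt (R y : ℝ) : scale R (pt y) = pt (R * y) := scale_single R y 1

theorem scale_smul (R c : ℝ) (ν : L) : scale R (c • ν) = c • scale R ν := by
  induction ν using AddMonoidAlgebra.induction_linear with
  | zero => simp
  | add a b ha hb => rw [smul_add, map_add, map_add, ha, hb, smul_add]
  | single y w => simp [scale_single]

theorem ev_scale (R : ℝ) (ν : L) (f : ℝ → ℝ) : ev (scale R ν) f = ev ν (fun y => f (R * y)) := by
  induction ν using AddMonoidAlgebra.induction_linear with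
  | zero => simp
  | add a b ha hb => rw [map_add, ev_add, ev_add, ha, hb]
  | single y w => simp [scale_single]

theorem coeff_eq_ev (ν : L) (x : ℝ) : ν.coeff x = ev ν (fun y => if y = x then 1 else 0) := by
  unfold ev
  by_cases hx : x ∈ ν.coeff.support
  · rw [Finset.sum_eq_single x (fun b _ hb => by simp [hb]) (fun h => absurd hx h)]; simp
  · rw [Finsupp.notMem_support_iff.1 hx]
    refine (Finset.sum_eq_zero (fun y hy => ?_)).symm
    have : y ≠ x := fun h => hx (h ▸ hy)
    simp [this]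

theorem ext_ev {ν ν' : L} (h : ∀ f, ev ν f = ev ν' f) : ν = ν' := by
  ext x
  rw [coeff_eq_ev, coeff_eq_ev, h]

theorem scale_scale (R R' : ℝ) (ν : L) : scale R (scale R' ν) = scale (R * R') ν :=
  ext_ev (fun f => by simp only [ev_scale, mul_assoc])

@[simp] theorem scale_one (ν : L) : scale 1 ν = ν := ext_ev (fun f => by simp [ev_scale])

theorem ev_eq_sum_pt (ν : L) : ν = ∑ y ∈ ν.coeff.support, ν.coeff y • pt y :=
  ext_ev (fun f => by simp only [ev_sum, ev_smul, ev_pt]; rfl)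

theorem ev_mono_on {ν : L} (h : NN ν) {f g : ℝ → ℝ} (hfg : ∀ y ∈ ν.coeff.support, f y ≤ g y) :
    ev ν f ≤ ev ν g :=
  Finset.sum_le_sum (fun y hy => mul_le_mul_of_nonneg_left (hfg y hy) (h y))

theorem ev_mono {ν : L} (h : NN ν) {f g : ℝ → ℝ} (hfg : ∀ y, f y ≤ g y) : ev ν f ≤ ev ν g :=
  ev_mono_on h (fun y _ => hfg y)

theorem ev_congr {ν : L} {f g : ℝ → ℝ} (hfg : ∀ y ∈ ν.coeff.support, f y = g y) :
    ev ν f = ev ν g :=
  Finset.sum_congr rfl (fun y hy => by rw [hfg y hy])

theorem ev_nonneg {ν : L} (h : NN ν) {f : ℝ → ℝ} (hf : ∀ y, 0 ≤ f y) : 0 ≤ ev ν f :=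
  Finset.sum_nonneg (fun y _ => mul_nonneg (h y) (hf y))

theorem nn_of_ev {ν : L} (h : ∀ f : ℝ → ℝ, (∀ y, 0 ≤ f y) → 0 ≤ ev ν f) : NN ν := fun x => by
  rw [coeff_eq_ev]; exact h _ (fun y => by split_ifs <;> norm_num)

theorem NN.zero : NN 0 := fun _ => by simp

theorem NN.add {ν ν' : L} (h : NN ν) (h' : NN ν') : NN (ν + ν') := fun y => by
  simpa using add_nonneg (h y) (h' y)

theorem NN.smul {ν : L} (h : NN ν) {c : ℝ} (hc : 0 ≤ c) : NN (c • ν) := fun y => by
  simpa using mul_nonneg hc (h y)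

theorem NN.sum {ι : Type*} (S : Finset ι) {ν : ι → L} (h : ∀ i ∈ S, NN (ν i)) :
    NN (∑ i ∈ S, ν i) :=
  nn_of_ev (fun f hf => by
    rw [ev_sum]; exact Finset.sum_nonneg (fun i hi => ev_nonneg (h i hi) hf))

theorem NN.mul {ν ν' : L} (h : NN ν) (h' : NN ν') : NN (ν * ν') :=
  nn_of_ev (fun f hf => by
    rw [ev_mul]; exact ev_nonneg h (fun y => ev_nonneg h' (fun z => hf _)))

theorem NN.scale {ν : L} (h : NN ν) (R : ℝ) : NN (scale R ν) :=
  nn_of_ev (fun f hf => by rw [ev_scale]; exact ev_nonneg h (fun y => hf _))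

theorem nn_pt (y : ℝ) : NN (pt y) := nn_of_ev (fun f hf => by simpa using hf y)

theorem nn_one : NN 1 := nn_pt 0

theorem mass_nonneg {ν : L} (h : NN ν) : 0 ≤ mass ν := ev_nonneg h (fun _ => zero_le_one)

theorem mass_add (ν ν' : L) : mass (ν + ν') = mass ν + mass ν' := ev_add _ _ _

theorem mass_smul (c : ℝ) (ν : L) : mass (c • ν) = c * mass ν := ev_smul _ _ _

theorem mass_sum {ι : Type*} (S : Finset ι) (ν : ι → L) :
    mass (∑ i ∈ S, ν i) = ∑ i ∈ S, mass (ν i) := ev_sum _ _ _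

theorem mass_mul (ν ν' : L) : mass (ν * ν') = mass ν * mass ν' := by
  unfold mass
  rw [ev_mul, ev_const, mul_comm]; rfl

theorem mass_scale (R : ℝ) (ν : L) : mass (scale R ν) = mass ν := ev_scale _ _ _

@[simp] theorem mass_pt (y : ℝ) : mass (pt y) = 1 := by simp [mass]

@[simp] theorem mass_one : mass (1 : L) = 1 := by simp [mass]

theorem Prob.ev_const {ν : L} (h : Prob ν) (c : ℝ) : ev ν (fun _ => c) = c := by
  rw [Vale.Agent.P114.ev_const, h.2, mul_one]

theorem Prob.mul {ν ν' : L} (h : Prob ν) (h' : Prob ν') : Prob (ν * ν') :=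
  ⟨h.1.mul h'.1, by rw [mass_mul, h.2, h'.2, mul_one]⟩

theorem Prob.scale {ν : L} (h : Prob ν) (R : ℝ) : Prob (scale R ν) :=
  ⟨h.1.scale R, by rw [mass_scale, h.2]⟩

theorem prob_pt (y : ℝ) : Prob (pt y) := ⟨nn_pt y, mass_pt y⟩

theorem prob_one : Prob 1 := prob_pt 0

theorem Prob.pow {ν : L} (h : Prob ν) (n : ℕ) : Prob (ν ^ n) := by
  induction n with
  | zero => simpa using prob_one
  | succ n ih => rw [pow_succ]; exact ih.mul h

theorem prob_prod {l : List L} (h : ∀ ν ∈ l, Prob ν) : Prob l.prod := by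
  induction l with
  | nil => simpa using prob_one
  | cons a l ih =>
    rw [List.prod_cons]
    exact (h a (by simp)).mul (ih (fun ν hν => h ν (by simp [hν])))

theorem ev_bit (d : ℝ) (f : ℝ → ℝ) : ev (bit d) f = (f 0 + f d) / 2 := by
  rw [bit, ev_smul, ev_add, ev_one, ev_pt]; ring

theorem prob_bit (d : ℝ) : Prob (bit d) :=
  ⟨(nn_one.add (nn_pt d)).smul (by norm_num), by rw [mass, ev_bit]; norm_num⟩

@[simp] theorem bits_nil : bits [] = 1 := rfl

theorem bits_cons (d : ℝ) (D : List ℝ) : bits (d :: D) = bit d * bits D := by simp [bits]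

theorem prob_bits (D : List ℝ) : Prob (bits D) :=
  prob_prod (fun ν hν => by
    obtain ⟨d, _, rfl⟩ := List.mem_map.1 hν
    exact prob_bit d)

theorem support_mul_subset (ν ν' : L) {x : ℝ} (hx : x ∈ (ν * ν').coeff.support) :
    ∃ y ∈ ν.coeff.support, ∃ z ∈ ν'.coeff.support, x = y + z := by
  by_contra hc
  push Not at hc
  apply Finsupp.mem_support_iff.1 hx
  rw [coeff_eq_ev, ev_mul]
  rw [ev_congr (g := fun _ => 0), ev_const, zero_mul]
  intro y hy
  rw [ev_congr (g := fun _ => 0), ev_const, zero_mul]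
  intro z hz
  rw [if_neg (fun h => hc y hy z hz h.symm)]

theorem support_scale_subset (R : ℝ) (ν : L) {x : ℝ} (hx : x ∈ (scale R ν).coeff.support) :
    ∃ y ∈ ν.coeff.support, x = R * y := by
  by_contra hc
  push Not at hc
  apply Finsupp.mem_support_iff.1 hx
  rw [coeff_eq_ev, ev_scale, ev_congr (g := fun _ => 0), ev_const, zero_mul]
  intro y hy
  rw [if_neg (fun h => hc y hy h.symm)]

theorem Bd.mul {ν ν' : L} {β β' : ℝ} (h : Bd ν β) (h' : Bd ν' β') : Bd (ν * ν') (β + β') := by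
  intro x hx
  obtain ⟨y, hy, z, hz, rfl⟩ := support_mul_subset ν ν' hx
  exact (abs_add_le _ _).trans (add_le_add (h y hy) (h' z hz))

theorem Bd.scale {ν : L} {β : ℝ} (h : Bd ν β) (R : ℝ) : Bd (scale R ν) (|R| * β) := by
  intro x hx
  obtain ⟨y, hy, rfl⟩ := support_scale_subset R ν hx
  rw [abs_mul]; exact mul_le_mul_of_nonneg_left (h y hy) (abs_nonneg _)

theorem Bd.mono {ν : L} {β β' : ℝ} (h : Bd ν β) (hβ : β ≤ β') : Bd ν β' :=
  fun y hy => (h y hy).trans hβ

theorem bd_one : Bd 1 0 := by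
  intro y hy
  rw [← pt_zero, pt, AddMonoidAlgebra.coeff_single] at hy
  have := Finsupp.support_single_subset hy
  simp at this
  simp [this]

theorem cardS_scale_le (R : ℝ) (ν : L) : cardS (scale R ν) ≤ cardS ν := by
  unfold cardS
  refine le_trans (Finset.card_le_card (t := ν.coeff.support.image (fun y => R * y)) ?_)
    Finset.card_image_le
  intro x hx
  obtain ⟨y, hy, rfl⟩ := support_scale_subset R ν hx
  exact Finset.mem_image_of_mem _ hy

/-! ### Windows -/

theorem win_nonneg {ν : L} (h : NN ν) (s x : ℝ) : 0 ≤ win ν s x :=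
  ev_nonneg h (fun y => by split_ifs <;> norm_num)

theorem win_le_mass {ν : L} (h : NN ν) (s x : ℝ) : win ν s x ≤ mass ν :=
  ev_mono h (fun y => by split_ifs <;> norm_num)

theorem win_add (ν ν' : L) (s x : ℝ) : win (ν + ν') s x = win ν s x + win ν' s x := ev_add _ _ _

theorem win_smul (c : ℝ) (ν : L) (s x : ℝ) : win (c • ν) s x = c * win ν s x := ev_smul _ _ _

theorem win_sum {ι : Type*} (S : Finset ι) (ν : ι → L) (s x : ℝ) :
    win (∑ i ∈ S, ν i) s x = ∑ i ∈ S, win (ν i) s x := ev_sum _ _ _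

theorem win_mul (ν ν' : L) (s x : ℝ) : win (ν * ν') s x = ev ν (fun y => win ν' s (x - y)) := by
  unfold win
  rw [ev_mul]
  refine ev_congr (fun y _ => ev_congr (fun z _ => ?_))
  refine if_congr ⟨fun h => ⟨by linarith [h.1], by linarith [h.2]⟩,
    fun h => ⟨by linarith [h.1], by linarith [h.2]⟩⟩ rfl rfl

theorem win_pt_mul (y : ℝ) (ν : L) (s x : ℝ) : win (pt y * ν) s x = win ν s (x - y) := by
  rw [win_mul, ev_pt]

theorem win_two (ν : L) {s : ℝ} (hs : 0 ≤ s) (x : ℝ) :
    win ν (2 * s) x = win ν s x + win ν s (x - s) := by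
  unfold win
  rw [← ev_fun_add]
  refine ev_congr (fun y _ => ?_)
  by_cases h1 : y ≤ x - s
  · have h2 : ¬ (x - s < y ∧ y ≤ x) := fun h => absurd h.1 (not_lt.2 h1)
    rw [if_neg h2, zero_add]
    exact if_congr ⟨fun h => ⟨by linarith [h.1], h1⟩,
      fun h => ⟨by linarith [h.1], by linarith⟩⟩ rfl rfl
  · have h2 : ¬ (x - s - s < y ∧ y ≤ x - s) := fun h => h1 h.2
    rw [if_neg h2, add_zero]
    push Not at h1
    exact if_congr ⟨fun h => ⟨h1, h.2⟩, fun h => ⟨by linarith, h.2⟩⟩ rfl rfl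

theorem win_eq_sum (ν : L) (s x : ℝ) :
    win ν s x = ∑ y ∈ ν.coeff.support, (Ico y (y + s)).indicator (fun _ => ν.coeff y) x := by
  unfold win ev
  refine Finset.sum_congr rfl (fun y _ => ?_)
  beta_reduce
  by_cases h : x - s < y ∧ y ≤ x
  · rw [if_pos h, indicator_of_mem (by exact ⟨h.2, by linarith [h.1]⟩), mul_one]
  · rw [if_neg h, indicator_of_notMem (fun h' => h ⟨by linarith [h'.2], h'.1⟩), mul_zero]

theorem measurable_win (ν : L) (s : ℝ) : Measurable (win ν s) := by
  have : win ν s = fun x => ∑ y ∈ ν.coeff.support,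
      (Ico y (y + s)).indicator (fun _ => ν.coeff y) x := funext (win_eq_sum ν s)
  rw [this]
  exact Finset.measurable_sum _ (fun y _ => measurable_const.indicator measurableSet_Ico)

theorem integrable_win (ν : L) (s : ℝ) : Integrable (win ν s) := by
  have : win ν s = fun x => ∑ y ∈ ν.coeff.support,
      (Ico y (y + s)).indicator (fun _ => ν.coeff y) x := funext (win_eq_sum ν s)
  rw [this]
  refine integrable_finset_sum _ (fun y _ => ?_)
  exact (integrable_indicator_iff measurableSet_Ico).2 (integrableOn_const (by simp))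

theorem integral_win (ν : L) {s : ℝ} (hs : 0 ≤ s) : ∫ x, win ν s x = s * mass ν := by
  simp only [win_eq_sum]
  rw [integral_finset_sum _ (fun y _ =>
    (integrable_indicator_iff measurableSet_Ico).2 (integrableOn_const (by simp)))]
  unfold mass ev
  rw [Finset.mul_sum]
  refine Finset.sum_congr rfl (fun y _ => ?_)
  rw [integral_indicator_const _ measurableSet_Ico]
  simp [Measure.real, hs]

theorem integrable_win_shift (ν : L) (s e : ℝ) : Integrable (fun x => win ν s (x - e)) :=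
  (integrable_win ν s).comp_sub_right e

theorem integral_win_shift (ν : L) {s : ℝ} (hs : 0 ≤ s) (e : ℝ) :
    ∫ x, win ν s (x - e) = s * mass ν := by
  rw [integral_sub_right_eq_self (win ν s) e, integral_win ν hs]

/-- The window function takes finitely many values. -/
theorem finite_range_win (ν : L) (s : ℝ) : (range (win ν s)).Finite := by
  refine ((ν.coeff.support.powerset.image (fun S => ∑ y ∈ S, ν.coeff y)).finite_toSet).subset ?_
  rintro _ ⟨x, rfl⟩
  simp only [Finset.coe_image, mem_image, Finset.mem_coe, Finset.mem_powerset]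
  refine ⟨ν.coeff.support.filter (fun y => x - s < y ∧ y ≤ x), Finset.filter_subset _ _, ?_⟩
  unfold win ev
  rw [Finset.sum_filter]
  refine Finset.sum_congr rfl (fun y _ => ?_)
  beta_reduce
  split_ifs <;> simp

theorem win_eq_zero_far (ν : L) (s : ℝ) : ∃ B : ℝ, ∀ x, B < |x| → win ν s x = 0 := by
  refine ⟨(∑ y ∈ ν.coeff.support, |y|) + |s|, fun x hx => ?_⟩
  unfold win
  rw [ev_congr (g := fun _ => 0), ev_const, zero_mul]
  intro y hy
  have h1 : |y| ≤ ∑ y ∈ ν.coeff.support, |y| :=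
    Finset.single_le_sum (f := fun y => |y|) (fun _ _ => abs_nonneg _) hy
  refine if_neg (fun h => ?_)
  have h2 : |x| ≤ |y| + |s| := by
    rw [abs_le]
    constructor
    · linarith [h.2, neg_abs_le y, abs_nonneg s]
    · linarith [h.1, le_abs_self y, le_abs_self s]
  linarith

/-- Any measurable function of two shifted windows vanishing at the origin is integrable. -/
theorem integrable_comp_win (ν ν' : L) (s s' e e' : ℝ) {ψ : ℝ × ℝ → ℝ} (hψ : Measurable ψ)
    (h0 : ψ (0, 0) = 0) : Integrable (fun x => ψ (win ν s (x - e), win ν' s' (x - e'))) := by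
  obtain ⟨B, hB⟩ := win_eq_zero_far ν s
  obtain ⟨B', hB'⟩ := win_eq_zero_far ν' s'
  have hfin := ((finite_range_win ν s).prod (finite_range_win ν' s')).image (fun q => |ψ q|)
  obtain ⟨C, hC⟩ := hfin.bddAbove
  have hm : Measurable (fun x => ψ (win ν s (x - e), win ν' s' (x - e'))) :=
    hψ.comp (((measurable_win ν s).comp (measurable_sub_const e)).prodMk
      ((measurable_win ν' s').comp (measurable_sub_const e')))
  set A : ℝ := |B| + |B'| + |e| + |e'| with hA
  have hi : Integrable ((Icc (-A) A).indicator (fun _ : ℝ => C)) :=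
    (integrable_indicator_iff measurableSet_Icc).2 (integrableOn_const (by simp))
  refine hi.mono' hm.aestronglyMeasurable (Filter.Eventually.of_forall (fun x => ?_))
  by_cases hx : x ∈ Icc (-A) A
  · rw [indicator_of_mem hx]
    exact hC ⟨_, ⟨mem_range_self _, mem_range_self _⟩, rfl⟩
  · rw [indicator_of_notMem hx]
    have hx' : A < |x| := by
      by_contra hc
      exact hx (abs_le.1 (not_lt.1 hc))
    have h1 : |x| ≤ |x - e| + |e| := by
      have := abs_add_le (x - e) e
      simpa using this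
    have h2 : |x| ≤ |x - e'| + |e'| := by
      have := abs_add_le (x - e') e'
      simpa using this
    rw [hB _ (by linarith [le_abs_self B, abs_nonneg B', abs_nonneg e']),
      hB' _ (by linarith [le_abs_self B', abs_nonneg B, abs_nonneg e]), h0]
    simp

theorem integrable_comp_win1 (ν : L) (s e : ℝ) {ψ : ℝ → ℝ} (hψ : Measurable ψ)
    (h0 : ψ 0 = 0) : Integrable (fun x => ψ (win ν s (x - e))) :=
  integrable_comp_win ν ν s s e e (ψ := fun q => ψ q.1) (hψ.comp measurable_fst) h0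

theorem integrable_min_win (ν : L) (s e : ℝ) :
    Integrable (fun x => min (win ν s x) (win ν s (x - e))) := by
  have := integrable_comp_win ν ν s s 0 e (ψ := fun q => min q.1 q.2)
    (measurable_fst.min measurable_snd) (by simp)
  simpa using this

theorem bm_nonneg {ν : L} (h : NN ν) (y r : ℝ) : 0 ≤ bm ν y r :=
  ev_nonneg h (fun y => by split_ifs <;> norm_num)

theorem bm_le_mass {ν : L} (h : NN ν) (y r : ℝ) : bm ν y r ≤ mass ν :=
  ev_mono h (fun y => by split_ifs <;> norm_num)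

theorem bm_mono {ν : L} (h : NN ν) (y : ℝ) {r r' : ℝ} (hr : r ≤ r') : bm ν y r ≤ bm ν y r' :=
  ev_mono h (fun z => by
    by_cases h1 : |z - y| ≤ r
    · rw [if_pos h1, if_pos (h1.trans hr)]
    · rw [if_neg h1]; split_ifs <;> norm_num)

theorem coeff_le_bm {ν : L} (h : NN ν) (y : ℝ) {r : ℝ} (hr : 0 ≤ r) : ν.coeff y ≤ bm ν y r := by
  rw [coeff_eq_ev]
  refine ev_mono h (fun z => ?_)
  by_cases h1 : z = y
  · rw [if_pos h1, if_pos (by simp [h1, hr])]
  · rw [if_neg h1]; split_ifs <;> norm_num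

theorem bm_pos {ν : L} (h : NN ν) {y : ℝ} (hy : y ∈ ν.coeff.support) {r : ℝ} (hr : 0 ≤ r) :
    0 < bm ν y r :=
  lt_of_lt_of_le (lt_of_le_of_ne (h y) (Finsupp.mem_support_iff.1 hy).symm) (coeff_le_bm h y hr)

theorem bm_scale (ν : L) {R : ℝ} (hR : R ≠ 0) (y r : ℝ) :
    bm (scale R ν) (R * y) (|R| * r) = bm ν y r := by
  unfold bm
  rw [ev_scale]
  refine ev_congr (fun z _ => if_congr ?_ rfl rfl)
  rw [← mul_sub, abs_mul]
  exact mul_le_mul_iff_right₀ (abs_pos.2 hR)

/-! ### The block model -/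

/-- Types `θ` with weights `w θ`, slopes `ρ θ` and digit laws `ν θ`. -/
structure Model where
  T : Type
  [fin : Fintype T]
  w : T → ℝ
  ρ : T → ℝ
  ν : T → L
  d : ℕ
  a : ℝ
  b : ℝ
  t : ℝ
  w_nn : ∀ θ, 0 ≤ w θ
  w_sum : ∑ θ, w θ = 1
  a_pos : 0 < a
  a_le : ∀ θ, a ≤ |ρ θ|
  le_b : ∀ θ, |ρ θ| ≤ b
  b_lt : b < 1
  prob : ∀ θ, Prob (ν θ)
  card : ∀ θ, cardS (ν θ) ≤ d
  bd : ∀ θ, Bd (ν θ) t
  t_nn : 0 ≤ t

attribute [instance] Model.fin

namespace Model

variable (M : Model)

/-- Slope of a word of types. -/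
def R : List M.T → ℝ
  | [] => 1
  | θ :: ω => M.ρ θ * R ω

/-- Law of the translation given the types. -/
def X : List M.T → L
  | [] => 1
  | θ :: ω => M.ν θ * scale (M.ρ θ) (X ω)

/-- Expectation over words of length `n`. -/
def E : ℕ → (List M.T → ℝ) → ℝ
  | 0, f => f []
  | n + 1, f => ∑ θ, M.w θ * E n (fun ω => f (θ :: ω))

/-- Lyapunov exponent (natural logarithm). -/
def chi : ℝ := -∑ θ, M.w θ * Real.log |M.ρ θ|

/-- Bound for all supports. -/
def ts : ℝ := M.t / (1 - M.b)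

/-- `μ` is self similar for the model. -/
def SS (μ : Measure ℝ) : Prop :=
  ∀ U : Set ℝ, MeasurableSet U →
    μ.real U = ∑ θ, M.w θ * ev (M.ν θ) (fun y => μ.real ((fun x => M.ρ θ * x + y) ⁻¹' U))

/-- Total content of a list of targets (block length, scale). -/
def gain (l : List (ℕ × ℝ)) : ℝ :=
  (l.map (fun q => M.E q.1 (fun ω => cont (M.X ω) q.2))).sum

/-- Total probability that consecutive targets are not separated. -/
def fail : List (ℕ × ℝ) → ℝ
  | [] => 0
  | [_] => 0
  | q :: q' :: l =>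
    M.E q.1 (fun ω => if |M.R ω| * q'.2 < q.2 then 1 else 0) + fail (q' :: l)

@[simp] theorem R_nil : M.R [] = 1 := rfl
@[simp] theorem R_cons (θ : M.T) (ω : List M.T) : M.R (θ :: ω) = M.ρ θ * M.R ω := rfl
@[simp] theorem X_nil : M.X [] = 1 := rfl
theorem X_cons (θ : M.T) (ω : List M.T) :
    M.X (θ :: ω) = M.ν θ * scale (M.ρ θ) (M.X ω) := rfl
@[simp] theorem E_zero (f : List M.T → ℝ) : M.E 0 f = f [] := rfl
theorem E_succ (n : ℕ) (f : List M.T → ℝ) :
    M.E (n + 1) f = ∑ θ, M.w θ * M.E n (fun ω => f (θ :: ω)) := rfl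

theorem T_nonempty : Nonempty M.T := by
  by_contra h
  have := M.w_sum
  rw [not_nonempty_iff] at h
  simp at this

theorem a_le_b : M.a ≤ M.b := by
  obtain ⟨θ⟩ := M.T_nonempty
  exact (M.a_le θ).trans (M.le_b θ)

theorem b_pos : 0 < M.b := M.a_pos.trans_le M.a_le_b

theorem a_lt_one : M.a < 1 := M.a_le_b.trans_lt M.b_lt

theorem ρ_ne (θ : M.T) : M.ρ θ ≠ 0 := abs_pos.1 (M.a_pos.trans_le (M.a_le θ))

theorem ts_nn : 0 ≤ M.ts := div_nonneg M.t_nn (by linarith [M.b_lt])

theorem ts_eq : M.t + M.b * M.ts = M.ts := by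
  have : 1 - M.b ≠ 0 := by linarith [M.b_lt]
  unfold ts; field_simp; ring

theorem R_append (ω ω' : List M.T) : M.R (ω ++ ω') = M.R ω * M.R ω' := by
  induction ω with
  | nil => simp
  | cons θ ω ih => simp [ih, mul_assoc]

theorem X_append (ω ω' : List M.T) : M.X (ω ++ ω') = M.X ω * scale (M.R ω) (M.X ω') := by
  induction ω with
  | nil => simp
  | cons θ ω ih =>
    rw [List.cons_append, X_cons, X_cons, ih, map_mul, scale_scale, R_cons, mul_assoc]

theorem pow_le_R (ω : List M.T) : M.a ^ ω.length ≤ |M.R ω| := by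
  induction ω with
  | nil => simp
  | cons θ ω ih =>
    rw [List.length_cons, pow_succ', R_cons, abs_mul]
    exact mul_le_mul (M.a_le θ) ih (pow_nonneg M.a_pos.le _) (abs_nonneg _)

theorem R_le_pow (ω : List M.T) : |M.R ω| ≤ M.b ^ ω.length := by
  induction ω with
  | nil => simp
  | cons θ ω ih =>
    rw [List.length_cons, pow_succ', R_cons, abs_mul]
    exact mul_le_mul (M.le_b θ) ih (abs_nonneg _) M.b_pos.le

theorem R_pos (ω : List M.T) : 0 < |M.R ω| := (pow_pos M.a_pos _).trans_le (M.pow_le_R ω)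

theorem R_ne (ω : List M.T) : M.R ω ≠ 0 := abs_pos.1 (M.R_pos ω)

theorem R_le_one (ω : List M.T) : |M.R ω| ≤ 1 :=
  (M.R_le_pow ω).trans (pow_le_one₀ M.b_pos.le M.b_lt.le)

theorem prob_X (ω : List M.T) : Prob (M.X ω) := by
  induction ω with
  | nil => exact prob_one
  | cons θ ω ih => exact (M.prob θ).mul (ih.scale _)

theorem bd_X (ω : List M.T) : Bd (M.X ω) M.ts := by
  induction ω with
  | nil => exact bd_one.mono M.ts_nn
  | cons θ ω ih =>
    refine ((M.bd θ).mul (ih.scale (M.ρ θ))).mono ?_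
    have := mul_le_mul_of_nonneg_right (M.le_b θ) M.ts_nn
    linarith [M.ts_eq]

/-- `X ω` is a product of `ω.length` laws with at most `d` atoms. -/
theorem X_eq_prod (ω : List M.T) : ∃ l : List L, l.length = ω.length ∧
    (∀ ν ∈ l, Prob ν ∧ cardS ν ≤ M.d) ∧ M.X ω = l.prod := by
  induction ω with
  | nil => exact ⟨[], rfl, by simp, rfl⟩
  | cons θ ω ih =>
    obtain ⟨l, h1, h2, h3⟩ := ih
    refine ⟨M.ν θ :: l.map (scale (M.ρ θ)), by simp [h1], ?_, ?_⟩
    · intro ν hν
      rcases List.mem_cons.1 hν with rfl | hν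
      · exact ⟨M.prob θ, M.card θ⟩
      · obtain ⟨ν', h', rfl⟩ := List.mem_map.1 hν
        exact ⟨(h2 ν' h').1.scale _, (cardS_scale_le _ _).trans (h2 ν' h').2⟩
    · rw [X_cons, h3, List.prod_cons, map_list_prod]

theorem E_mono {n : ℕ} {f g : List M.T → ℝ} (h : ∀ ω, ω.length = n → f ω ≤ g ω) :
    M.E n f ≤ M.E n g := by
  induction n generalizing f g with
  | zero => exact h [] rfl
  | succ n ih =>
    rw [E_succ, E_succ]
    exact Finset.sum_le_sum (fun θ _ => mul_le_mul_of_nonneg_left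
      (ih (fun ω hω => h _ (by simp [hω]))) (M.w_nn θ))

theorem E_congr {n : ℕ} {f g : List M.T → ℝ} (h : ∀ ω, ω.length = n → f ω = g ω) :
    M.E n f = M.E n g :=
  le_antisymm (M.E_mono (fun ω hω => (h ω hω).le)) (M.E_mono (fun ω hω => (h ω hω).ge))

theorem E_const (n : ℕ) (c : ℝ) : M.E n (fun _ => c) = c := by
  induction n with
  | zero => rfl
  | succ n ih => rw [E_succ]; simp only [ih]; rw [← Finset.sum_mul, M.w_sum, one_mul]

theorem E_add (n : ℕ) (f g : List M.T → ℝ) :
    M.E n (fun ω => f ω + g ω) = M.E n f + M.E n g := by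
  induction n generalizing f g with
  | zero => rfl
  | succ n ih => simp only [E_succ, ih, mul_add, Finset.sum_add_distrib]

theorem E_mul (n : ℕ) (c : ℝ) (f : List M.T → ℝ) : M.E n (fun ω => c * f ω) = c * M.E n f := by
  induction n generalizing f with
  | zero => rfl
  | succ n ih =>
    simp only [E_succ, ih, Finset.mul_sum]
    exact Finset.sum_congr rfl (fun θ _ => by ring)

theorem E_mul' (n : ℕ) (c : ℝ) (f : List M.T → ℝ) : M.E n (fun ω => f ω * c) = M.E n f * c := by
  rw [mul_comm, ← E_mul]; exact M.E_congr (fun ω _ => mul_comm _ _)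

theorem E_sub (n : ℕ) (f g : List M.T → ℝ) :
    M.E n (fun ω => f ω - g ω) = M.E n f - M.E n g := by
  have h := M.E_add n f (fun ω => (-1) * g ω)
  rw [M.E_mul] at h
  rw [show M.E n f - M.E n g = M.E n f + -1 * M.E n g by ring, ← h]
  exact M.E_congr (fun ω _ => by ring)

theorem E_sum {ι : Type*} (n : ℕ) (S : Finset ι) (f : ι → List M.T → ℝ) :
    M.E n (fun ω => ∑ i ∈ S, f i ω) = ∑ i ∈ S, M.E n (f i) := by
  induction S using Finset.induction_on with
  | empty => simpa using M.E_const n 0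
  | insert a S ha ih => simp only [Finset.sum_insert ha]; rw [E_add, ih]

theorem E_nonneg {n : ℕ} {f : List M.T → ℝ} (h : ∀ ω, ω.length = n → 0 ≤ f ω) : 0 ≤ M.E n f := by
  have := M.E_mono (f := fun _ => 0) h
  rwa [E_const] at this

theorem E_append (n m : ℕ) (f : List M.T → ℝ) :
    M.E (n + m) f = M.E n (fun ω => M.E m (fun ω' => f (ω ++ ω'))) := by
  induction n generalizing f with
  | zero => simp
  | succ n ih =>
    rw [Nat.add_right_comm, E_succ, E_succ]
    simp only [ih, List.cons_append]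

/-- A property that holds eventually for each word holds eventually uniformly in a length. -/
theorem exists_uniform (n : ℕ) {P : List M.T → ℕ → Prop}
    (h : ∀ ω, ω.length = n → ∃ K0, ∀ K, K0 ≤ K → P ω K) :
    ∃ K0, ∀ ω, ω.length = n → ∀ K, K0 ≤ K → P ω K := by
  have hf : {ω : List M.T | ω.length = n}.Finite := List.finite_length_eq M.T n
  choose! F hF using h
  obtain ⟨K0, hK0⟩ := (hf.image F).bddAbove
  exact ⟨K0, fun ω hω K hK => hF ω hω K ((hK0 ⟨ω, hω, rfl⟩).trans hK)⟩

/-- A function of words is bounded on words of a given length. -/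
theorem exists_bound (n : ℕ) (f : List M.T → ℝ) : ∃ B, ∀ ω, ω.length = n → f ω ≤ B := by
  have hf : {ω : List M.T | ω.length = n}.Finite := List.finite_length_eq M.T n
  obtain ⟨B, hB⟩ := (hf.image f).bddAbove
  exact ⟨B, fun ω hω => hB ⟨ω, hω, rfl⟩⟩

theorem chi_pos : 0 < M.chi := by
  have h : ∀ θ, M.w θ * Real.log |M.ρ θ| ≤ M.w θ * Real.log M.b := fun θ =>
    mul_le_mul_of_nonneg_left
      (Real.log_le_log (M.a_pos.trans_le (M.a_le θ)) (M.le_b θ)) (M.w_nn θ)
  have h2 := Finset.sum_le_sum (s := Finset.univ) (fun θ _ => h θ)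
  rw [← Finset.sum_mul, M.w_sum, one_mul] at h2
  have := Real.log_neg M.b_pos M.b_lt
  unfold chi; linarith

end Model

end Vale.Agent.P114
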