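import Mathlib

/-! Self-similar measures: support, cut sets, iteration (helper file, raw hypotheses). -/

open MeasureTheory Set Filter Topology
open scoped ENNReal

namespace Vale.Agent.P114.Cut

/-- the self-similarity identity -/
def SS {ι : Type} [Fintype ι] (r t p : ι → ℝ) (μ : Measure ℝ) : Prop :=
  μ = ∑ i, ENNReal.ofReal (p i) • μ.map (fun x => r i * x + t i)

lemma meas_aff (a b : ℝ) : Measurable (fun x : ℝ => a * x + b) := by fun_prop

lemma SS.apply {ι : Type} [Fintype ι] {r t p : ι → ℝ} {μ : Measure ℝ} (h : SS r t p μ)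
    {A : Set ℝ} (hA : MeasurableSet A) :
    μ A = ∑ i, ENNReal.ofReal (p i) * μ ((fun x => r i * x + t i) ⁻¹' A) := by
  conv_lhs => rw [h]
  rw [Measure.finsetSum_apply]
  refine Finset.sum_congr rfl fun i _ => ?_
  rw [Measure.smul_apply, Measure.map_apply (meas_aff _ _) hA, smul_eq_mul]

lemma SS.of_apply {ι : Type} [Fintype ι] {r t p : ι → ℝ} {μ : Measure ℝ}
    (h : ∀ A, MeasurableSet A →
      μ A = ∑ i, ENNReal.ofReal (p i) * μ ((fun x => r i * x + t i) ⁻¹' A)) : SS r t p μ := by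
  refine Measure.ext fun A hA => ?_
  rw [h A hA, Measure.finsetSum_apply]
  refine Finset.sum_congr rfl fun i _ => ?_
  rw [Measure.smul_apply, Measure.map_apply (meas_aff _ _) hA, smul_eq_mul]

lemma SS.lint {ι : Type} [Fintype ι] {r t p : ι → ℝ} {μ : Measure ℝ} (h : SS r t p μ)
    {f : ℝ → ℝ≥0∞} (hf : Measurable f) :
    ∫⁻ x, f x ∂μ = ∑ i, ENNReal.ofReal (p i) * ∫⁻ x, f (r i * x + t i) ∂μ := by
  conv_lhs => rw [h]
  rw [lintegral_finsetSum_measure]
  refine Finset.sum_congr rfl fun i _ => ?_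
  rw [lintegral_smul_measure, lintegral_map hf (meas_aff _ _), smul_eq_mul]

lemma sum_ofReal {ι : Type} [Fintype ι] {p : ι → ℝ} (hp : ∀ i, 0 ≤ p i) (h1 : ∑ i, p i = 1) :
    ∑ i, ENNReal.ofReal (p i) = 1 := by
  rw [← ENNReal.ofReal_sum_of_nonneg (fun i _ => hp i), h1, ENNReal.ofReal_one]

lemma bounds {ι : Type} [Fintype ι] {r : ι → ℝ} (h0 : ∀ i, r i ≠ 0) (h1 : ∀ i, |r i| < 1) :
    ∃ c ρ : ℝ, 0 < c ∧ c ≤ ρ ∧ ρ < 1 ∧ ∀ i, c ≤ |r i| ∧ |r i| ≤ ρ := by
  have e1 : ∀ᶠ c in 𝓝[>] (0:ℝ), ∀ i, c ≤ |r i| := by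
    refine eventually_all.2 fun i => ?_
    exact mem_nhdsWithin_of_mem_nhds (Iic_mem_nhds (abs_pos.2 (h0 i)))
  have e2 : ∀ᶠ c in 𝓝[<] (1:ℝ), ∀ i, |r i| ≤ c := by
    refine eventually_all.2 fun i => ?_
    exact mem_nhdsWithin_of_mem_nhds (Ici_mem_nhds (h1 i))
  have e3 : ∀ᶠ c in 𝓝[>] (0:ℝ), c ≤ 1 / 2 :=
    mem_nhdsWithin_of_mem_nhds (Iic_mem_nhds (by norm_num))
  have e4 : ∀ᶠ c in 𝓝[<] (1:ℝ), 1 / 2 ≤ c :=
    mem_nhdsWithin_of_mem_nhds (Ici_mem_nhds (by norm_num))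
  obtain ⟨c, ⟨hc1, hc2⟩, hc3⟩ := ((e1.and e3).and self_mem_nhdsWithin).exists
  obtain ⟨ρ, ⟨hr1, hr2⟩, hr3⟩ := ((e2.and e4).and self_mem_nhdsWithin).exists
  exact ⟨c, ρ, hc3, hc2.trans hr2, hr3, fun i => ⟨hc1 i, hr1 i⟩⟩

/-- compact support -/
lemma support {ι : Type} [Fintype ι] {r t p : ι → ℝ} {μ : Measure ℝ} [IsFiniteMeasure μ]
    (h0 : ∀ i, r i ≠ 0) (h1 : ∀ i, |r i| < 1) (hp : ∀ i, 0 ≤ p i) (hs : ∑ i, p i = 1)
    (h : SS r t p μ) : ∃ R : ℝ, 0 < R ∧ μ {x | R < |x|} = 0 := by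
  obtain ⟨c, ρ, hc, hcρ, hρ, hb⟩ := bounds h0 h1
  have hρ0 : 0 < ρ := hc.trans_le hcρ
  set T : ℝ := ∑ i, |t i| with hT
  have hTi : ∀ i, |t i| ≤ T := fun i =>
    Finset.single_le_sum (f := fun i => |t i|) (fun j _ => abs_nonneg _) (Finset.mem_univ i)
  have hT0 : 0 ≤ T := Finset.sum_nonneg fun i _ => abs_nonneg _
  set R : ℝ := T / (1 - ρ) with hR
  have hR0 : 0 ≤ R := div_nonneg hT0 (by linarith)
  have hRT : R * (1 - ρ) = T := by rw [hR]; field_simp [(by linarith : (1 - ρ) ≠ 0)]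
  have hm : ∀ a : ℝ, MeasurableSet {x : ℝ | a < |x|} := fun a =>
    measurableSet_lt measurable_const (by fun_prop)
  have step : ∀ δ : ℝ, μ {x | R + δ < |x|} ≤ μ {x | R + δ / ρ < |x|} := by
    intro δ
    rw [h.apply (hm _)]
    calc ∑ i, ENNReal.ofReal (p i) * μ ((fun x => r i * x + t i) ⁻¹' {x | R + δ < |x|})
        ≤ ∑ i, ENNReal.ofReal (p i) * μ {x | R + δ / ρ < |x|} := by
          refine Finset.sum_le_sum fun i _ => ?_
          gcongr
          intro x hx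
          simp only [mem_preimage, mem_ofPred_eq] at hx ⊢
          have h2 : |r i * x + t i| ≤ ρ * |x| + T := by
            refine (abs_add_le _ _).trans (add_le_add ?_ (hTi i))
            rw [abs_mul]; gcongr; exact (hb i).2
          have h3 : (R + δ / ρ) * ρ < |x| * ρ := by
            have : (R + δ / ρ) * ρ = R * ρ + δ := by field_simp
            rw [this]; nlinarith
          exact lt_of_mul_lt_mul_right h3 hρ0.le
      _ = _ := by rw [← Finset.sum_mul, sum_ofReal hp hs, one_mul]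
  have iter : ∀ k : ℕ, μ {x | R + 1 < |x|} ≤ μ {x | R + (1 / ρ) ^ k < |x|} := by
    intro k
    induction k with
    | zero => simp
    | succ k ih =>
      refine ih.trans ((step _).trans (le_of_eq ?_))
      congr 2; funext x; congr 2; rw [pow_succ]; field_simp
  have hρ1 : 1 < 1 / ρ := by rw [lt_div_iff₀ hρ0]; linarith
  have lim : Tendsto (fun k : ℕ => μ {x | R + (1 / ρ) ^ k < |x|}) atTop (𝓝 0) := by
    have := tendsto_measure_iInter_atTop (μ := μ) (s := fun k : ℕ => {x : ℝ | R + (1 / ρ) ^ k < |x|})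
      (fun k => (hm _).nullMeasurableSet)
      (fun a b hab x hx => by
        simp only [mem_ofPred_eq] at hx ⊢
        have := pow_le_pow_right₀ hρ1.le hab
        linarith) ⟨0, measure_ne_top _ _⟩
    have he : (⋂ k : ℕ, {x : ℝ | R + (1 / ρ) ^ k < |x|}) = ∅ := by
      ext x
      simp only [mem_iInter, mem_ofPred_eq, mem_empty_iff_false, iff_false, not_forall, not_lt]
      obtain ⟨k, hk⟩ := pow_unbounded_of_one_lt |x| hρ1
      exact ⟨k, by linarith⟩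
    rw [he, measure_empty] at this
    exact this
  exact ⟨R + 1, by linarith, le_antisymm (ge_of_tendsto' lim iter) (zero_le)⟩

/-- composing a system with a system for each letter -/
lemma SS.comp {ι : Type} [Fintype ι] {r t p : ι → ℝ} {μ : Measure ℝ} (h : SS r t p μ)
    (hp : ∀ i, 0 ≤ p i)
    {κ : ι → Type} [∀ i, Fintype (κ i)] {r' t' p' : ∀ i, κ i → ℝ}
    (h' : ∀ i, SS (r' i) (t' i) (p' i) μ) :
    SS (fun w : Σ i, κ i => r w.1 * r' w.1 w.2) (fun w => r w.1 * t' w.1 w.2 + t w.1)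
      (fun w => p w.1 * p' w.1 w.2) μ := by
  refine SS.of_apply fun A hA => ?_
  rw [h.apply hA, Fintype.sum_sigma]
  refine Finset.sum_congr rfl fun i _ => ?_
  rw [(h' i).apply (meas_aff _ _ hA), Finset.mul_sum]
  refine Finset.sum_congr rfl fun j _ => ?_
  rw [ENNReal.ofReal_mul (hp i), mul_assoc]
  congr 3
  ext x
  simp only [mem_preimage]
  rw [show r i * (r' i j * x + t' i j) + t i = r i * r' i j * x + (r i * t' i j + t i) by ring]

/-- cut set at scale s -/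
lemma cut {ι : Type} [Fintype ι] {r t p : ι → ℝ} {μ : Measure ℝ}
    {c ρ : ℝ} (hc : 0 < c) (hcρ : c ≤ ρ) (hρ : ρ < 1) (hb : ∀ i, c ≤ |r i| ∧ |r i| ≤ ρ)
    (hp : ∀ i, 0 ≤ p i) (hs : ∑ i, p i = 1) (h : SS r t p μ) (s : ℝ) (hs0 : 0 < s)
    (hs1 : c * s ≤ 1) :
    ∃ (κ : Type) (_ : Fintype κ) (r' t' p' : κ → ℝ), SS r' t' p' μ ∧ (∀ j, 0 ≤ p' j) ∧
      ∑ j, p' j = 1 ∧ ∀ j, c * s ≤ |r' j| ∧ |r' j| ≤ s := by
  have hρ0 : 0 < ρ := hc.trans_le hcρ
  have base : ∀ s : ℝ, 1 ≤ s → c * s ≤ 1 →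
      ∃ (κ : Type) (_ : Fintype κ) (r' t' p' : κ → ℝ), SS r' t' p' μ ∧ (∀ j, 0 ≤ p' j) ∧
      ∑ j, p' j = 1 ∧ ∀ j, c * s ≤ |r' j| ∧ |r' j| ≤ s := by
    intro s h1 h2
    refine ⟨Unit, inferInstance, fun _ => 1, fun _ => 0, fun _ => 1, ?_, by simp, by simp,
      fun _ => by simp [h1, h2]⟩
    refine SS.of_apply fun A hA => ?_
    simp
  have main : ∀ N : ℕ, ∀ s : ℝ, ρ ^ N ≤ s → c * s ≤ 1 →
      ∃ (κ : Type) (_ : Fintype κ) (r' t' p' : κ → ℝ), SS r' t' p' μ ∧ (∀ j, 0 ≤ p' j) ∧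
      ∑ j, p' j = 1 ∧ ∀ j, c * s ≤ |r' j| ∧ |r' j| ≤ s := by
    intro N
    induction N with
    | zero => intro s h1 h2; exact base s (by simpa using h1) h2
    | succ N ih =>
      intro s h1 h2
      by_cases hs' : 1 ≤ s
      · exact base s hs' h2
      push Not at hs'
      have hri : ∀ i, 0 < |r i| := fun i => hc.trans_le (hb i).1
      have hs0 : 0 < s := lt_of_lt_of_le (pow_pos hρ0 _) h1
      have : ∀ i, ∃ (κ : Type) (_ : Fintype κ) (r' t' p' : κ → ℝ), SS r' t' p' μ ∧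
          (∀ j, 0 ≤ p' j) ∧ ∑ j, p' j = 1 ∧ ∀ j, c * (s / |r i|) ≤ |r' j| ∧ |r' j| ≤ s / |r i| := by
        intro i
        refine ih _ ?_ ?_
        · rw [le_div_iff₀ (hri i)]
          calc ρ ^ N * |r i| ≤ ρ ^ N * ρ := by gcongr; exact (hb i).2
            _ = ρ ^ (N + 1) := (pow_succ _ _).symm
            _ ≤ s := h1
        · rw [← mul_div_assoc, div_le_one (hri i)]
          nlinarith [(hb i).1]
      choose κ hκ r' t' p' h1' h2' h3' h4' using this
      refine ⟨Σ i, κ i, inferInstance, _, _, _, h.comp hp h1', fun w => mul_nonneg (hp _) (h2' _ _),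
        ?_, fun w => ?_⟩
      · rw [Fintype.sum_sigma]
        simp_rw [← Finset.mul_sum, h3', mul_one, hs]
      · obtain ⟨a, b⟩ := h4' w.1 w.2
        have := hri w.1
        rw [abs_mul]
        constructor
        · calc c * s = |r w.1| * (c * (s / |r w.1|)) := by field_simp
            _ ≤ _ := by gcongr
        · calc |r w.1| * |r' w.1 w.2| ≤ |r w.1| * (s / |r w.1|) := by gcongr
            _ = s := by field_simp
  obtain ⟨N, hN⟩ := exists_pow_lt_of_lt_one hs0 hρ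
  exact main N s hN.le hs1

end Vale.Agent.P114.Cut
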