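import Vale.Agent.P114.Spec

/-! Auxiliary facts on `Dec`. -/

open MeasureTheory Set

noncomputable section

namespace Vale.Agent.P114

open Classical

namespace DecAux

theorem dec_of_index {ι : Type*} (T : Finset ι) (q : ι → ℝ × ℝ) (κ : ι → ℝ) (ν rest : L)
    (lo hi c : ℝ) (hrest : NN rest) (hκ : ∀ i ∈ T, 0 ≤ κ i)
    (hq : ∀ i ∈ T, κ i ≠ 0 → lo ≤ (q i).2 ∧ (q i).2 ≤ hi)
    (hc : ∑ i ∈ T, κ i = c) (hν : ν = rest + ∑ i ∈ T, κ i • (pt (q i).1 * bit (q i).2)) :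
    Dec ν lo hi c := by
  set T' := T.filter (fun i => κ i ≠ 0) with hT'
  have hmaps : ∀ i ∈ T', q i ∈ T'.image q := fun i hi => Finset.mem_image_of_mem _ hi
  refine ⟨T'.image q, fun z => ∑ i ∈ T' with q i = z, κ i, rest, hrest, ?_, ?_, ?_, ?_⟩
  · intro z _
    exact Finset.sum_nonneg (fun i hi =>
      hκ i (Finset.mem_filter.1 (Finset.mem_filter.1 hi).1).1)
  · intro z hz
    obtain ⟨i, hi, rfl⟩ := Finset.mem_image.1 hz
    exact hq i (Finset.mem_filter.1 hi).1 (Finset.mem_filter.1 hi).2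
  · rw [Finset.sum_fiberwise_of_maps_to hmaps, ← hc, hT']
    exact Finset.sum_filter_ne_zero T
  · rw [hν]
    congr 1
    have h1 : ∑ i ∈ T, κ i • (pt (q i).1 * bit (q i).2) =
        ∑ i ∈ T', κ i • (pt (q i).1 * bit (q i).2) := by
      rw [hT', Finset.sum_filter]
      refine Finset.sum_congr rfl (fun i _ => ?_)
      by_cases h : κ i = 0
      · simp [h]
      · simp [h]
    rw [h1, ← Finset.sum_fiberwise_of_maps_to hmaps]
    refine Finset.sum_congr rfl (fun z _ => ?_)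
    rw [Finset.sum_smul]
    refine Finset.sum_congr rfl (fun i hi => ?_)
    rw [(Finset.mem_filter.1 hi).2]

theorem dec_mono {ν : L} {lo hi lo' hi' c : ℝ} (h : Dec ν lo hi c) (h1 : lo' ≤ lo)
    (h2 : hi ≤ hi') : Dec ν lo' hi' c := by
  obtain ⟨S, κ, rest, a, b, c', d, e⟩ := h
  exact ⟨S, κ, rest, a, b, fun q hq => ⟨h1.trans (c' q hq).1, (c' q hq).2.trans h2⟩, d, e⟩

theorem dec_avg {ν : L} {lo hi c c' : ℝ} (h : Dec ν lo hi c) (h' : Dec ν lo hi c') :
    Dec ν lo hi ((c + c') / 2) := by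
  obtain ⟨S, κ, rest, a1, a2, a3, a4, a5⟩ := h
  obtain ⟨S', κ', rest', b1, b2, b3, b4, b5⟩ := h'
  refine dec_of_index (S.disjSum S') (Sum.elim id id)
    (Sum.elim (fun q => (1 / 2) * κ q) (fun q => (1 / 2) * κ' q)) ν
    ((1 / 2 : ℝ) • rest + (1 / 2 : ℝ) • rest') lo hi _
    ((a1.smul (by norm_num)).add (b1.smul (by norm_num))) ?_ ?_ ?_ ?_
  · rintro (q | q) hq
    · exact mul_nonneg (by norm_num) (a2 q (Finset.inl_mem_disjSum.1 hq))
    · exact mul_nonneg (by norm_num) (b2 q (Finset.inr_mem_disjSum.1 hq))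
  · rintro (q | q) hq _
    · exact a3 q (Finset.inl_mem_disjSum.1 hq)
    · exact b3 q (Finset.inr_mem_disjSum.1 hq)
  · rw [Finset.sum_disjSum]
    simp only [Sum.elim_inl, Sum.elim_inr]
    rw [← Finset.mul_sum, ← Finset.mul_sum, a4, b4]; ring
  · rw [Finset.sum_disjSum]
    simp only [Sum.elim_inl, Sum.elim_inr, id, mul_smul]
    rw [← Finset.smul_sum, ← Finset.smul_sum]
    have : ν = (1 / 2 : ℝ) • ν + (1 / 2 : ℝ) • ν := by
      rw [← add_smul]; norm_num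
    rw [this]
    nth_rewrite 1 [a5]
    nth_rewrite 1 [b5]
    simp only [smul_add]
    abel

theorem ev_pt_bit (y d : ℝ) (f : ℝ → ℝ) : ev (pt y * bit d) f = (f y + f (y + d)) / 2 := by
  rw [ev_mul, ev_pt, ev_bit, add_zero]

end DecAux

end Vale.Agent.P114
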