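import Mathlib

/-! Definitions used in the statement of the entropy rate dimension formula. -/

open MeasureTheory
open scoped ENNReal

noncomputable section

namespace Vale.Agent.P114

open Classical

variable {Λ : Type*}

/-- The map `φ_w = φ_{i_1} ∘ ⋯ ∘ φ_{i_n}` of the word `w`, where `φ_i x = r i * x + t i`. -/
def wordMap (r t : Λ → ℝ) : List Λ → (ℝ → ℝ)
  | [] => id
  | i :: w => (fun x => r i * x + t i) ∘ wordMap r t w

/-- `P(G_n = g)`: the sum of `p_w` over the words `w` of length `n` with `φ_w = g`. -/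
def lawG [Fintype Λ] (p r t : Λ → ℝ) (n : ℕ) (g : ℝ → ℝ) : ℝ :=
  ∑ w : Fin n → Λ, if wordMap r t (List.ofFn w) = g then ∏ k, p (w k) else 0

/-- Shannon entropy `H(G_n)` with base two logarithms. -/
def entropyG [Fintype Λ] (p r t : Λ → ℝ) (n : ℕ) : ℝ :=
  ∑ g ∈ Finset.univ.image (fun w : Fin n → Λ => wordMap r t (List.ofFn w)),
    -(lawG p r t n g * Real.logb 2 (lawG p r t n g))

/-- Random walk entropy rate: the infimum over `n ≥ 1` of `H(G_n) / n`. -/
def hRW [Fintype Λ] (p r t : Λ → ℝ) : ℝ :=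
  ⨅ n : ℕ, entropyG p r t (n + 1) / ((n + 1 : ℕ) : ℝ)

/-- Lyapunov exponent with base two logarithms. -/
def lyap [Fintype Λ] (p r : Λ → ℝ) : ℝ := -∑ i, p i * Real.logb 2 |r i|

/-- Lower Hausdorff dimension of a measure: the infimum of the Hausdorff dimensions of the
Borel sets of positive measure. -/
def dimM (μ : Measure ℝ) : ℝ≥0∞ := ⨅ (E : Set ℝ) (_ : MeasurableSet E) (_ : 0 < μ E), dimH E

end Vale.Agent.P114
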