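import Vale.Agent.P114.Spec

/-! From the ball entropy to a small exponential moment. -/

open MeasureTheory Set

noncomputable section

namespace Vale.Agent.P114

namespace L2x

theorem exp_le {x : ℝ} (hx : |x| ≤ 1) : Real.exp x ≤ 1 + x + x ^ 2 := by
  have h := Real.abs_exp_sub_one_sub_id_le hx
  linarith [le_abs_self (Real.exp x - 1 - x)]

end L2x

theorem stmtL2 (hV : StmtV) : StmtL2 := by
  intro M s c m hc hgap
  obtain ⟨V, -, hV⟩ := hV M
  have hlog := (hV m 1 one_pos).1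
  set g : List M.T → ℝ → ℝ := fun ω y =>
    Real.log (bm (M.X ω) y (c * |M.R ω|)) - s * Real.log |M.R ω| with hg
  obtain ⟨B0, hB0⟩ := M.exists_bound m (fun ω => ∑ y ∈ (M.X ω).coeff.support, |g ω y|)
  set B : ℝ := max B0 1 with hB
  have hB1 : 1 ≤ B := le_max_right _ _
  have hBpos : 0 < B := by linarith
  have hgB : ∀ ω, ω.length = m → ∀ y ∈ (M.X ω).coeff.support, |g ω y| ≤ B := by
    intro ω hω y hy
    refine le_trans ?_ ((hB0 ω hω).trans (le_max_left _ _))
    exact Finset.single_le_sum (f := fun y => |g ω y|) (fun _ _ => abs_nonneg _) hy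
  set gap : ℝ := M.E m (fun ω => HB (M.X ω) (c * |M.R ω|)) - s * (m * M.chi) with hgapdef
  have hgp : 0 < gap := sub_pos.2 hgap
  set θ : ℝ := min (1 / B) (gap / (2 * B ^ 2)) with hθ
  have hθpos : 0 < θ := lt_min (by positivity) (by positivity)
  have hθ1 : θ * B ≤ 1 := by
    have : θ ≤ 1 / B := min_le_left _ _
    rwa [le_div_iff₀ hBpos] at this
  have hθ2 : θ * (2 * B ^ 2) ≤ gap := by
    have : θ ≤ gap / (2 * B ^ 2) := min_le_right _ _
    rwa [le_div_iff₀ (by positivity)] at this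
  refine ⟨θ, hθpos, ?_⟩
  have key : ∀ ω, ω.length = m →
      |M.R ω| ^ (-(θ * s)) * PB θ (M.X ω) (c * |M.R ω|) ≤
        (1 + θ ^ 2 * B ^ 2) - (θ * HB (M.X ω) (c * |M.R ω|) + (θ * s) * Real.log |M.R ω|) := by
    intro ω hω
    have hP := M.prob_X ω
    have hr : 0 ≤ c * |M.R ω| := (mul_pos hc (M.R_pos ω)).le
    have e1 : (1 + θ ^ 2 * B ^ 2) -
        (θ * HB (M.X ω) (c * |M.R ω|) + (θ * s) * Real.log |M.R ω|) =
        ev (M.X ω) (fun y => (1 + θ ^ 2 * B ^ 2 - (θ * s) * Real.log |M.R ω|) -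
          θ * (-Real.log (bm (M.X ω) y (c * |M.R ω|)))) := by
      rw [ev_fun_sub, ev_fun_mul, hP.ev_const, HB]
      ring
    rw [e1, PB, ← ev_fun_mul]
    refine ev_mono_on hP.1 (fun y hy => ?_)
    have hb := bm_pos hP.1 hy hr
    have e2 : |M.R ω| ^ (-(θ * s)) * bm (M.X ω) y (c * |M.R ω|) ^ θ = Real.exp (θ * g ω y) := by
      rw [Real.rpow_def_of_pos (M.R_pos ω), Real.rpow_def_of_pos hb, ← Real.exp_add]
      congr 1
      simp only [hg]
      ring
    have h1 := hgB ω hω y hy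
    have h2 : |θ * g ω y| ≤ θ * B := by
      rw [abs_mul, abs_of_pos hθpos]
      exact mul_le_mul_of_nonneg_left h1 hθpos.le
    have h3 : (θ * g ω y) ^ 2 ≤ θ ^ 2 * B ^ 2 := by
      rw [← mul_pow, ← sq_abs (θ * g ω y)]
      exact pow_le_pow_left₀ (abs_nonneg _) h2 2
    have h4 := L2x.exp_le (h2.trans hθ1)
    rw [e2]
    have e3 : θ * g ω y = θ * Real.log (bm (M.X ω) y (c * |M.R ω|)) -
        (θ * s) * Real.log |M.R ω| := by
      simp only [hg]
      ring
    linarith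
  refine lt_of_le_of_lt (M.E_mono key) ?_
  rw [M.E_sub, M.E_const, M.E_add, M.E_mul, M.E_mul, hlog]
  have e4 : M.E m (fun ω => HB (M.X ω) (c * |M.R ω|)) = gap + s * (m * M.chi) := by
    rw [hgapdef]; ring
  rw [e4]
  have h5 : θ * (θ * (2 * B ^ 2)) ≤ θ * gap := mul_le_mul_of_nonneg_left hθ2 hθpos.le
  have h6 : 0 < θ * gap := mul_pos hθpos hgp
  nlinarith

end Vale.Agent.P114
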