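import Vale.Agent.P114.Base
import Vale.Agent.P114.Defs

/-! Module statements. -/

open MeasureTheory Set

noncomputable section

namespace Vale.Agent.P114

open Classical

/-- Window seminorm of a signed law. -/
def nrm (ν : L) (s : ℝ) : ℝ := (∫ x, |win ν s x|) / s

def StmtA : Prop := ∀ (ν : L) (s : ℝ), Prob ν → 0 < s →
  Real.log 2 * ov ν s s ≤ Hs ν s - Hs ν (2 * s) ∧
  ∀ k : ℝ, 0 ≤ k →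
    Hs ν s - Hs ν (2 * s) ≤ (k + 1) * ov ν s s + Real.exp (-k / 2) * √(ov ν s s)

def StmtB : Prop := ∀ ν : L, Prob ν →
  (∀ s : ℝ, 0 < s → 0 ≤ Hs ν s ∧ Hs ν s ≤ ent ν) ∧
  ent ν ≤ Real.log (cardS ν) ∧
  ∃ s0 : ℝ, 0 < s0 ∧ ∀ s : ℝ, 0 < s → s ≤ s0 → Hs ν s = ent ν ∧ ov ν s s = 0

def StmtO : Prop :=
  (∀ (ν : L) (s e : ℝ), NN ν → 0 < s → 0 ≤ ov ν s e ∧ ov ν s e ≤ mass ν) ∧
  (∀ (ν ν' : L) (s e : ℝ), NN ν → NN ν' → 0 < s → ov ν s e + ov ν' s e ≤ ov (ν + ν') s e) ∧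
  (∀ (ν : L) (c s e : ℝ), 0 ≤ c → ov (c • ν) s e = c * ov ν s e) ∧
  (∀ (ν : L) (y s e : ℝ), ov (pt y * ν) s e = ov ν s e) ∧
  (∀ (X Z : L) (s e : ℝ), NN X → NN Z → 0 < s → mass X * ov Z s e ≤ ov (X * Z) s e) ∧
  (∀ (ν : L) (s : ℝ), NN ν → 0 < s → ov ν (2 * s) (2 * s) ≤ ov ν s s / 2 + 2 * cont ν s)

def StmtD : Prop := ∀ (ν : L) (s : ℝ), Prob ν → 0 < s →
  Dec ν s (4 * s) (cont ν s) ∧ 0 ≤ cont ν s ∧ cont ν s ≤ 1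

def StmtS : Prop :=
  (∀ (ν : L) (lo hi c R lo' hi' : ℝ), Dec ν lo hi c → R ≠ 0 → lo' ≤ |R| * lo → |R| * hi ≤ hi' →
    Dec (scale R ν) lo' hi' c) ∧
  (∀ (X : L) (lo hi c : ℝ), Prob X → Dec X lo hi c →
    ∃ (S : Finset (ℝ × ℝ)) (κ : ℝ × ℝ → ℝ), (∀ q ∈ S, 0 ≤ κ q) ∧
      (∀ q ∈ S, lo ≤ q.2 ∧ q.2 ≤ hi) ∧ (∑ q ∈ S, κ q) = c ∧
      ∀ (Z : L) (s e : ℝ), NN Z → 0 < s →
        (1 - c) * ov Z s e + ∑ q ∈ S, κ q * ov (bit q.2 * Z) s e ≤ ov (X * Z) s e)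

def StmtN : Prop := ∀ s : ℝ, 0 < s →
  (∀ ν ν' : L, nrm (ν + ν') s ≤ nrm ν s + nrm ν' s) ∧
  (∀ (c : ℝ) (ν : L), nrm (c • ν) s = |c| * nrm ν s) ∧
  (∀ ν X : L, Prob X → nrm (ν * X) s ≤ nrm ν s) ∧
  (∀ y : ℝ, nrm (pt y) s = 1) ∧
  (∀ y y' : ℝ, nrm (pt y - pt y') s ≤ 2 * |y - y'| / s) ∧
  (∀ ν : L, Prob ν → ov ν s s = 1 - nrm ((1 - pt s) * ν) s / 2)

def StmtBin : Prop := ∀ ε : ℝ, 0 < ε → ∃ m : ℕ, ∀ d s : ℝ, 0 < s →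
  nrm ((1 - pt d) * bit d ^ m) s ≤ ε

def StmtT : Prop := ∀ ε W : ℝ, 0 < ε → 1 ≤ W → ∃ l m0 : ℕ, ∀ (σ : ℝ) (D : List ℝ), 0 < σ →
  (∀ d ∈ D, σ ≤ d ∧ d ≤ W * σ) → m0 ≤ D.length → 1 - ε ≤ ov (bits D) (2 ^ l * σ) (2 ^ l * σ)

def StmtK : Prop := ∃ (l : ℕ) (r0 : ℝ), 0 < r0 ∧ ∀ (X : L) (s : ℝ) (r : ℕ), Prob X → 0 < s →
  r0 ≤ r * cont X s → 1 / 2 ≤ ov (X ^ r) (2 ^ l * s) (2 ^ l * s)

def StmtC1 : Prop := ∀ (l : List L) (d r : ℕ), (∀ ν ∈ l, cardS ν ≤ d) →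
  cardS (l.prod ^ r) ≤ (r + 1) ^ (l.length * d)

def StmtC2 : Prop := ∃ C : ℝ, 0 < C ∧ ∀ (l : List L) (d : ℕ), (∀ ν ∈ l, Prob ν ∧ cardS ν ≤ d) →
  ∀ (s : ℝ) (K : ℕ), 0 < s →
    ∑ i ∈ Finset.range K, √(cont l.prod (s / 2 ^ (i + 1))) ≤ C * (l.length * d)

def StmtF : Prop := ∃ C : ℝ, 0 < C ∧ ∀ (l : List L) (d : ℕ), (∀ ν ∈ l, Prob ν ∧ cardS ν ≤ d) →
  ∀ s k : ℝ, 0 < s → 0 ≤ k → ∃ K0 : ℕ, ∀ K : ℕ, K0 ≤ K →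
    ent l.prod - Hs l.prod s ≤
      4 * (k + 1) * contSum l.prod s K + C * Real.exp (-k / 2) * (l.length * d)

def StmtSat : Prop := ∀ (M : Model) (ε : ℝ), 0 < ε → ∃ l m0 : ℕ,
  ∀ (tg : List (ℕ × ℝ)) (σ : ℝ) (K : ℕ), 0 < σ → (∀ q ∈ tg, 0 < q.2 ∧ q.2 ≤ 1) →
    (∀ q ∈ tg.head?, σ ≤ q.2) → (tg.map Prod.fst).sum ≤ K →
    M.b ^ (K - (tg.map Prod.fst).sum) ≤ σ →
    1 - ε - 2 ^ m0 * Real.exp (-M.gain tg / 2) - M.fail tg ≤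
      M.E K (fun ω => ov (M.X ω) (2 ^ l * σ) (2 ^ l * σ))

def StmtV : Prop := ∀ M : Model, ∃ V : ℝ, 0 ≤ V ∧ ∀ (n : ℕ) (δ : ℝ), 0 < δ →
  M.E n (fun ω => Real.log |M.R ω|) = -(n * M.chi) ∧
  M.E n (fun ω => |Real.log |M.R ω| + n * M.chi|) ≤ δ * n + V / δ ∧
  (1 ≤ n → M.E n (fun ω => if |M.R ω| < Real.exp (-((M.chi + δ) * n)) then 1 else 0) ≤
    V / (δ ^ 2 * n))

/-- There are target lists with arbitrarily large gain and small failure. -/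
def Rich (M : Model) : Prop := ∀ G η : ℝ, 0 < η → ∃ tg : List (ℕ × ℝ), tg ≠ [] ∧
  (∀ q ∈ tg, 0 < q.2 ∧ q.2 ≤ 1) ∧ G ≤ M.gain tg ∧ M.fail tg ≤ η

def StmtSel : Prop := ∀ (M : Model) (δ α : ℝ) (n1 : ℕ), 0 < δ → 0 < α →
  (∀ n : ℕ, n1 ≤ n → ∃ K : ℕ, α * n ≤
    M.E n (fun ω => contSum (M.X ω) (Real.exp (-((M.chi + 2 * δ) * n))) K)) → Rich M

def StmtCmp : Prop := ∀ (ν ν' : L) (β σ r : ℝ), Prob ν → Prob ν' → Bd ν' β → 0 ≤ β → 0 < σ →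
  0 ≤ r → Hs (ν * ν') σ ≤ HB ν r + Real.log ((2 * r + 4 * β + σ) / σ)

def StmtOne : Prop := ∀ (M : Model) (c s : ℝ), 0 < c → s < 1 → Rich M →
  ∃ m : ℕ, 1 ≤ m ∧ s * (m * M.chi) < M.E m (fun ω => HB (M.X ω) (c * |M.R ω|))

def StmtEnt : Prop := ∀ (M : Model) (h c s : ℝ), 0 < c → s < 1 → s * M.chi < h →
  (∀ K : ℕ, K * h ≤ M.E K (fun ω => ent (M.X ω))) →
  ∃ m : ℕ, 1 ≤ m ∧ s * (m * M.chi) < M.E m (fun ω => HB (M.X ω) (c * |M.R ω|))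

def StmtQ : Prop := ∀ θ : ℝ, 0 < θ →
  (∀ (ν ν' : L) (β σ : ℝ), Prob ν → Prob ν' → Bd ν' β → 0 ≤ β → 0 < σ →
    QW θ (ν * ν') σ ≤ PB θ ν (2 * β + σ) * QW θ ν' σ) ∧
  (∀ σ : ℝ, 0 < σ → QW θ 1 σ = 1) ∧
  (∀ (ν : L) (r : ℝ), Prob ν → 0 < r → PB θ ν r ≤ 2 * QW θ ν (4 * r))

def StmtL1 : Prop := ∀ (M : Model) (θ s c : ℝ) (m j : ℕ), 0 < θ → 0 < c →
  M.E (j * m) (fun ω => |M.R ω| ^ (-(θ * s)) * PB θ (M.X ω) (c * |M.R ω|)) ≤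
    2 * M.E m (fun ω => |M.R ω| ^ (-(θ * s)) *
      PB θ (M.X ω) ((2 * M.ts + 4 * c) * |M.R ω|)) ^ j

def StmtL2 : Prop := ∀ (M : Model) (s c : ℝ) (m : ℕ), 0 < c →
  s * (m * M.chi) < M.E m (fun ω => HB (M.X ω) (c * |M.R ω|)) →
  ∃ θ : ℝ, 0 < θ ∧ M.E m (fun ω => |M.R ω| ^ (-(θ * s)) * PB θ (M.X ω) (c * |M.R ω|)) < 1

def StmtSupp : Prop := ∀ (M : Model) (μ : Measure ℝ) [IsProbabilityMeasure μ], M.SS μ →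
  μ (Icc (-M.ts) M.ts)ᶜ = 0

/-- Covering inequality with exponent `s`. -/
def Cov (μ : Measure ℝ) (s : ℝ) : Prop := ∃ C γ ρ0 : ℝ, 0 < γ ∧ 0 < ρ0 ∧
  ∀ ρ : ℝ, 0 < ρ → ρ ≤ ρ0 → ∀ F : Finset ℝ,
    μ.real (⋃ x ∈ F, Metric.closedBall x ρ) ≤ C * (ρ ^ γ + F.card * ρ ^ s)

def StmtCov : Prop := ∀ (M : Model) (μ : Measure ℝ) [IsProbabilityMeasure μ], M.SS μ →
  ∀ (θ κ s s' : ℝ) (m : ℕ), 1 ≤ m → 0 < θ → 0 ≤ κ → κ < 1 → 0 < s → s < s' →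
  (∀ j : ℕ, M.E (j * m) (fun ω => |M.R ω| ^ (-(θ * s')) *
    PB θ (M.X ω) ((2 * M.ts + 2) * |M.R ω|)) ≤ 2 * κ ^ j) → Cov μ s

def StmtMDP : Prop := ∀ (μ : Measure ℝ) [IsProbabilityMeasure μ] (s : ℝ), 0 < s → Cov μ s →
  ENNReal.ofReal s ≤ dimM μ

def StmtLB : Prop := ∀ (M : Model) (μ : Measure ℝ) [IsProbabilityMeasure μ], M.SS μ →
  ∀ h s : ℝ, 0 < s → s < 1 → s * M.chi < h →
  (∀ K : ℕ, K * h ≤ M.E K (fun ω => ent (M.X ω))) → ENNReal.ofReal s ≤ dimM μ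

/-- The hypotheses of the problem. -/
structure Sys {Λ : Type} [Fintype Λ] (p r t : Λ → ℝ) (μ : Measure ℝ) : Prop where
  r_pos : ∀ i, 0 < |r i|
  r_lt : ∀ i, |r i| < 1
  p_pos : ∀ i, 0 < p i
  p_sum : ∑ i, p i = 1
  prob : IsProbabilityMeasure μ
  ss : μ = ∑ i, ENNReal.ofReal (p i) • μ.map (fun x => r i * x + t i)

def StmtRed : Prop := ∀ (Λ : Type) [Fintype Λ] (p r t : Λ → ℝ) (μ : Measure ℝ), Sys p r t μ →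
  ∀ N : ℕ, 1 ≤ N → ∃ M : Model, M.SS μ ∧ M.chi = N * (lyap p r * Real.log 2) ∧
    ∀ K : ℕ, K * (N * (hRW p r t * Real.log 2) - Fintype.card Λ * Real.log (N + 1)) ≤
      M.E K (fun ω => ent (M.X ω))

def StmtUB : Prop := ∀ (Λ : Type) [Fintype Λ] (p r t : Λ → ℝ) (μ : Measure ℝ), Sys p r t μ →
  dimM μ ≤ ENNReal.ofReal (min 1 (hRW p r t / lyap p r))

def StmtMain : Prop := ∀ (Λ : Type) [Fintype Λ] (p r t : Λ → ℝ) (μ : Measure ℝ), Sys p r t μ →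
  dimM μ = ENNReal.ofReal (min 1 (hRW p r t / lyap p r))

end Vale.Agent.P114
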