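import Vale.Agent.P114.Spec
import Vale.Agent.P114.Cut

/-! Words: expectation, slope, translation, iteration of self-similarity, entropy lemmas. -/

open MeasureTheory Set

noncomputable section

namespace Vale.Agent.P114.Wx

open Classical

variable {Λ : Type} [Fintype Λ]

/-- expectation over words of length n -/
def EW (p : Λ → ℝ) : ℕ → (List Λ → ℝ) → ℝ
  | 0, f => f []
  | n + 1, f => ∑ i, p i * EW p n (fun w => f (i :: w))

def sl (r : Λ → ℝ) : List Λ → ℝ
  | [] => 1
  | i :: w => r i * sl r w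

def tr (r t : Λ → ℝ) : List Λ → ℝ
  | [] => 0
  | i :: w => r i * tr r t w + t i

omit [Fintype Λ] in
lemma wordMap_eq (r t : Λ → ℝ) (w : List Λ) :
    wordMap r t w = fun x => sl r w * x + tr r t w := by
  induction w with
  | nil => funext x; simp [wordMap, sl, tr]
  | cons i w ih => funext x; simp only [wordMap, ih, sl, tr, Function.comp]; ring

omit [Fintype Λ] in
lemma sl_append (r : Λ → ℝ) (u v : List Λ) : sl r (u ++ v) = sl r u * sl r v := by
  induction u with
  | nil => simp [sl]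
  | cons i u ih => simp [sl, ih, mul_assoc]

omit [Fintype Λ] in
lemma tr_append (r t : Λ → ℝ) (u v : List Λ) :
    tr r t (u ++ v) = sl r u * tr r t v + tr r t u := by
  induction u with
  | nil => simp [sl, tr]
  | cons i u ih => simp only [List.cons_append, tr, sl, ih]; ring

omit [Fintype Λ] in
lemma sl_ofFn (r : Λ → ℝ) {n : ℕ} (w : Fin n → Λ) : sl r (List.ofFn w) = ∏ k, r (w k) := by
  induction n with
  | zero => simp [sl]
  | succ n ih => rw [List.ofFn_succ, sl, ih, Fin.prod_univ_succ]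

lemma EW_eq_sum (p : Λ → ℝ) (n : ℕ) (f : List Λ → ℝ) :
    EW p n f = ∑ w : Fin n → Λ, (∏ k, p (w k)) * f (List.ofFn w) := by
  induction n generalizing f with
  | zero => simp [EW]
  | succ n ih =>
    rw [EW, ← (Fin.consEquiv (fun _ : Fin (n + 1) => Λ)).sum_comp, Fintype.sum_prod_type]
    refine Finset.sum_congr rfl fun i _ => ?_
    rw [ih, Finset.mul_sum]
    refine Finset.sum_congr rfl fun w _ => ?_
    simp [Fin.consEquiv, Fin.prod_univ_succ, List.ofFn_succ, mul_assoc]

lemma EW_append (p : Λ → ℝ) (n m : ℕ) (f : List Λ → ℝ) :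
    EW p (n + m) f = EW p n (fun u => EW p m (fun v => f (u ++ v))) := by
  induction n generalizing f with
  | zero => simp [EW]
  | succ n ih =>
    rw [Nat.add_right_comm, EW, EW]
    simp only [ih, List.cons_append]

lemma EW_add_const {p : Λ → ℝ} (hs : ∑ i, p i = 1) (n : ℕ) (c : ℝ) (f : List Λ → ℝ) :
    EW p n (fun w => c + f w) = c + EW p n f := by
  induction n generalizing f with
  | zero => rfl
  | succ n ih =>
    simp only [EW, ih, mul_add, Finset.sum_add_distrib]
    rw [← Finset.sum_mul, hs, one_mul]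

lemma EW_log {p r : Λ → ℝ} (hs : ∑ i, p i = 1) (hr : ∀ i, r i ≠ 0) (n : ℕ) :
    EW p n (fun w => Real.log |sl r w|) = n * ∑ i, p i * Real.log |r i| := by
  have hne : ∀ w, sl r w ≠ 0 := by
    intro w
    induction w with
    | nil => simp [sl]
    | cons i w ih => exact mul_ne_zero (hr i) ih
  induction n with
  | zero => simp [EW, sl]
  | succ n ih =>
    have : ∀ i, EW p n (fun w => Real.log |sl r (i :: w)|) =
        Real.log |r i| + n * ∑ i, p i * Real.log |r i| := by
      intro i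
      rw [← ih, ← EW_add_const hs]
      congr 1
      funext w
      rw [sl, abs_mul, Real.log_mul (abs_ne_zero.2 (hr i)) (abs_ne_zero.2 (hne w))]
    simp only [EW, this, mul_add, Finset.sum_add_distrib]
    rw [← Finset.sum_mul, hs]
    push_cast; ring

/-- real form of self-similarity -/
def RSS (p r t : Λ → ℝ) (μ : Measure ℝ) : Prop :=
  ∀ U : Set ℝ, MeasurableSet U →
    μ.real U = ∑ i, p i * μ.real ((fun x => r i * x + t i) ⁻¹' U)

lemma rss_of_sys {p r t : Λ → ℝ} {μ : Measure ℝ} (h : Sys p r t μ) : RSS p r t μ := by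
  intro U hU
  have := h.prob
  have e := Cut.SS.apply (r := r) (t := t) (p := p) h.ss hU
  unfold Measure.real
  rw [e, ENNReal.toReal_sum fun i _ =>
    ENNReal.mul_ne_top ENNReal.ofReal_ne_top (measure_ne_top _ _)]
  refine Finset.sum_congr rfl fun i _ => ?_
  rw [ENNReal.toReal_mul, ENNReal.toReal_ofReal (h.p_pos i).le]

lemma RSS.iter {p r t : Λ → ℝ} {μ : Measure ℝ} (h : RSS p r t μ) (n : ℕ) {U : Set ℝ}
    (hU : MeasurableSet U) :
    μ.real U = EW p n (fun w => μ.real ((fun x => sl r w * x + tr r t w) ⁻¹' U)) := by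
  induction n generalizing U with
  | zero => simp [EW, sl, tr]
  | succ n ih =>
    rw [h U hU, EW]
    refine Finset.sum_congr rfl fun i _ => ?_
    rw [ih (Cut.meas_aff _ _ hU)]
    congr 2
    funext w
    congr 1
    ext x
    simp only [mem_preimage, sl, tr]
    rw [show r i * (sl r w * x + tr r t w) + t i = r i * sl r w * x + (r i * tr r t w + t i) by ring]

lemma eta_sum {ι : Type*} (S : Finset ι) {a : ι → ℝ} (ha : ∀ i ∈ S, 0 ≤ a i) :
    Real.negMulLog (∑ i ∈ S, a i) ≤ ∑ i ∈ S, Real.negMulLog (a i) := by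
  rw [Real.negMulLog, neg_mul, Finset.sum_mul, ← Finset.sum_neg_distrib]
  refine Finset.sum_le_sum fun i hi => ?_
  rw [Real.negMulLog, neg_mul, neg_le_neg_iff]
  rcases (ha i hi).eq_or_lt with h | h
  · rw [← h]; simp
  · exact mul_le_mul_of_nonneg_left
      (Real.log_le_log h (Finset.single_le_sum ha hi)) h.le

lemma sum_eta_le {ι : Type*} [Fintype ι] {a : ι → ℝ} (ha : ∀ i, 0 ≤ a i) (hs : ∑ i, a i = 1) :
    ∑ i, Real.negMulLog (a i) ≤ Real.log (Fintype.card ι) := by
  have hne : Nonempty ι := by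
    by_contra h
    rw [not_nonempty_iff] at h
    simp at hs
  have hN : (0:ℝ) < Fintype.card ι := by exact_mod_cast Fintype.card_pos
  set N : ℝ := (Fintype.card ι : ℝ) with hNd
  have pt : ∀ i, Real.negMulLog (a i) ≤ a i * Real.log N + 1 / N - a i := by
    intro i
    rcases (ha i).eq_or_lt with h | h
    · rw [← h]; simp; positivity
    · have := Real.log_le_sub_one_of_pos (x := 1 / (N * a i)) (by positivity)
      rw [one_div, Real.log_inv, Real.log_mul hN.ne' h.ne'] at this
      have h2 := mul_le_mul_of_nonneg_left this h.le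
      have e : a i * ((N * a i)⁻¹ - 1) = 1 / N - a i := by field_simp
      rw [e] at h2
      rw [Real.negMulLog]
      nlinarith
  refine (Finset.sum_le_sum fun i _ => pt i).trans (le_of_eq ?_)
  rw [Finset.sum_sub_distrib, Finset.sum_add_distrib, ← Finset.sum_mul, hs, Finset.sum_const,
    Finset.card_univ, nsmul_eq_mul, ← hNd]
  field_simp
  ring

lemma lawG_eq (p r t : Λ → ℝ) (n : ℕ) (g : ℝ → ℝ) :
    lawG p r t n g =
      EW p n (fun w => if (fun x => sl r w * x + tr r t w) = g then 1 else 0) := by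
  rw [EW_eq_sum, lawG]
  refine Finset.sum_congr rfl fun w _ => ?_
  rw [wordMap_eq]
  split_ifs <;> simp

lemma entropyG_eq (p r t : Λ → ℝ) (n : ℕ) :
    entropyG p r t n * Real.log 2 =
      ∑ g ∈ Finset.univ.image (fun w : Fin n → Λ => wordMap r t (List.ofFn w)),
        Real.negMulLog (lawG p r t n g) := by
  rw [entropyG, Finset.sum_mul]
  refine Finset.sum_congr rfl fun g _ => ?_
  have : Real.log 2 ≠ 0 := (Real.log_pos one_lt_two).ne'
  rw [Real.logb, Real.negMulLog]
  field_simp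

lemma lyap_eq (p r : Λ → ℝ) : lyap p r * Real.log 2 = -∑ i, p i * Real.log |r i| := by
  rw [lyap, neg_mul, Finset.sum_mul]
  congr 1
  refine Finset.sum_congr rfl fun i _ => ?_
  have : Real.log 2 ≠ 0 := (Real.log_pos one_lt_two).ne'
  rw [Real.logb]
  field_simp

lemma sum_prod_p {p : Λ → ℝ} (hs : ∑ i, p i = 1) (n : ℕ) :
    ∑ w : Fin n → Λ, ∏ k, p (w k) = 1 := by
  rw [← Fintype.sum_pow, hs, one_pow]

lemma lawG_nn {p : Λ → ℝ} (hp : ∀ i, 0 ≤ p i) (r t : Λ → ℝ) (n : ℕ) (g : ℝ → ℝ) :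
    0 ≤ lawG p r t n g :=
  Finset.sum_nonneg fun w _ => by
    split_ifs
    · exact Finset.prod_nonneg fun k _ => hp _
    · exact le_rfl

lemma lawG_le {p : Λ → ℝ} (hp : ∀ i, 0 ≤ p i) (hs : ∑ i, p i = 1) (r t : Λ → ℝ) (n : ℕ)
    (g : ℝ → ℝ) : lawG p r t n g ≤ 1 := by
  rw [← sum_prod_p hs n]
  refine Finset.sum_le_sum fun w _ => ?_
  split_ifs
  · exact le_rfl
  · exact Finset.prod_nonneg fun k _ => hp _

lemma entropyG_nn {p : Λ → ℝ} (hp : ∀ i, 0 ≤ p i) (hs : ∑ i, p i = 1) (r t : Λ → ℝ) (n : ℕ) :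
    0 ≤ entropyG p r t n := by
  have h : 0 ≤ entropyG p r t n * Real.log 2 := by
    rw [entropyG_eq]
    exact Finset.sum_nonneg fun g _ =>
      Real.negMulLog_nonneg (lawG_nn hp r t n g) (lawG_le hp hs r t n g)
  exact nonneg_of_mul_nonneg_left h (Real.log_pos one_lt_two)

lemma hRW_bdd {p : Λ → ℝ} (hp : ∀ i, 0 ≤ p i) (hs : ∑ i, p i = 1) (r t : Λ → ℝ) :
    BddBelow (range fun n : ℕ => entropyG p r t (n + 1) / ((n + 1 : ℕ) : ℝ)) :=
  ⟨0, by
    rintro _ ⟨n, rfl⟩
    exact div_nonneg (entropyG_nn hp hs r t _) (Nat.cast_nonneg _)⟩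

lemma hRW_le {p : Λ → ℝ} (hp : ∀ i, 0 ≤ p i) (hs : ∑ i, p i = 1) (r t : Λ → ℝ) (n : ℕ) :
    n * hRW p r t ≤ entropyG p r t n := by
  cases n with
  | zero => simpa using entropyG_nn hp hs r t 0
  | succ n =>
    have := ciInf_le (hRW_bdd hp hs r t) n
    rw [le_div_iff₀ (by positivity)] at this
    rw [mul_comm]; exact this

lemma hRW_nn {p : Λ → ℝ} (hp : ∀ i, 0 ≤ p i) (hs : ∑ i, p i = 1) (r t : Λ → ℝ) :
    0 ≤ hRW p r t :=
  le_ciInf fun _ => div_nonneg (entropyG_nn hp hs r t _) (Nat.cast_nonneg _)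

lemma lyap_pos {p r t : Λ → ℝ} {μ : Measure ℝ} (h : Sys p r t μ) : 0 < lyap p r := by
  have hne : Nonempty Λ := by
    by_contra h'
    rw [not_nonempty_iff] at h'
    simpa using h.p_sum
  have : 0 < lyap p r * Real.log 2 := by
    rw [lyap_eq, ← Finset.sum_neg_distrib]
    refine Finset.sum_pos (fun i _ => ?_) Finset.univ_nonempty
    have := Real.log_neg (h.r_pos i) (h.r_lt i)
    nlinarith [h.p_pos i]
  exact (mul_pos_iff_of_pos_right (Real.log_pos one_lt_two)).1 this

end Vale.Agent.P114.Wx
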